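import Mathlib

set_option autoImplicit false
set_option linter.unusedSectionVars false

namespace Crest.Agent.H5.PR

open Matrix
open scoped ComplexOrder MatrixOrder BigOperators

variable {α β γ δ : Type} [Fintype α] [Fintype β] [Fintype γ] [Fintype δ]
  [DecidableEq α] [DecidableEq β] [DecidableEq γ] [DecidableEq δ]

/-- real part of the trace -/
noncomputable def rt (M : Matrix α α ℂ) : ℝ := M.trace.re

lemma rt_add (M N : Matrix α α ℂ) : rt (M + N) = rt M + rt N := by simp [rt]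
lemma rt_sub (M N : Matrix α α ℂ) : rt (M - N) = rt M - rt N := by simp [rt]
lemma rt_smul (c : ℝ) (M : Matrix α α ℂ) : rt (c • M) = c * rt M := by simp [rt]
lemma rt_zero : rt (0 : Matrix α α ℂ) = 0 := by simp [rt]
lemma rt_sum {ι : Type} (s : Finset ι) (M : ι → Matrix α α ℂ) :
    rt (∑ i ∈ s, M i) = ∑ i ∈ s, rt (M i) := by simp [rt, trace_sum]
lemma rt_comm (M : Matrix α β ℂ) (N : Matrix β α ℂ) : rt (M * N) = rt (N * M) := by
  simp only [rt]; rw [trace_mul_comm]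
lemma rt_nonneg {M : Matrix α α ℂ} (h : M.PosSemidef) : 0 ≤ rt M :=
  (Complex.nonneg_iff.mp h.trace_nonneg).1

lemma exists_fac {A : Matrix α α ℂ} (hA : A.PosSemidef) : ∃ C : Matrix α α ℂ, A = Cᴴ * C := by
  obtain ⟨B, hB⟩ := CStarAlgebra.nonneg_iff_eq_star_mul_self.mp hA.nonneg
  exact ⟨B, hB⟩

lemma rt_mul_nonneg {A B : Matrix α α ℂ} (hA : A.PosSemidef) (hB : B.PosSemidef) :
    0 ≤ rt (A * B) := by
  obtain ⟨C, rfl⟩ := exists_fac hA
  rw [Matrix.mul_assoc, rt_comm]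
  exact rt_nonneg (hB.mul_mul_conjTranspose_same C)

lemma rt_mul_le {A B B' : Matrix α α ℂ} (hA : A.PosSemidef) (hB : (B' - B).PosSemidef) :
    rt (A * B) ≤ rt (A * B') := by
  have := rt_mul_nonneg hA hB
  rw [Matrix.mul_sub, rt_sub] at this; linarith

lemma psd_rsmul {A : Matrix α α ℂ} (hA : A.PosSemidef) {c : ℝ} (hc : 0 ≤ c) :
    (c • A).PosSemidef := hA.smul hc

lemma psd_sum {ι : Type} (s : Finset ι) {A : ι → Matrix α α ℂ} (hA : ∀ i ∈ s, (A i).PosSemidef) :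
    (∑ i ∈ s, A i).PosSemidef := posSemidef_sum s hA

/-- the bilinear probability form -/
noncomputable def qf (K : Matrix α β ℂ) (E : Matrix α α ℂ) (F : Matrix β β ℂ) : ℝ :=
  rt (Kᴴ * E * K * F)

/-- squared Frobenius norm -/
noncomputable def fn2 (K : Matrix α β ℂ) : ℝ := rt (Kᴴ * K)

lemma qf_nonneg (K : Matrix α β ℂ) {E : Matrix α α ℂ} {F : Matrix β β ℂ} (hE : E.PosSemidef)
    (hF : F.PosSemidef) : 0 ≤ qf K E F :=
  rt_mul_nonneg (hE.conjTranspose_mul_mul_same K) hF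

lemma qf_one_one (K : Matrix α β ℂ) : qf K 1 1 = fn2 K := by simp [qf, fn2]

lemma qf_swap (K : Matrix α β ℂ) (E : Matrix α α ℂ) (F : Matrix β β ℂ) :
    qf K E F = qf Kᴴ F E := by
  simp only [qf, conjTranspose_conjTranspose]
  rw [Matrix.mul_assoc (Kᴴ * E), rt_comm]; simp only [Matrix.mul_assoc]

lemma qf_kraus (T : Matrix γ α ℂ) (K : Matrix α β ℂ) (S : Matrix δ β ℂ) (E : Matrix γ γ ℂ)
    (F : Matrix δ δ ℂ) : qf (T * K * Sᴴ) E F = qf K (Tᴴ * E * T) (Sᴴ * F * S) := by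
  simp only [qf, conjTranspose_mul, conjTranspose_conjTranspose, Matrix.mul_assoc]
  rw [rt_comm]; simp only [Matrix.mul_assoc]

lemma qf_add_left (K : Matrix α β ℂ) (E E' : Matrix α α ℂ) (F : Matrix β β ℂ) :
    qf K (E + E') F = qf K E F + qf K E' F := by
  simp only [qf, Matrix.mul_add, Matrix.add_mul, rt_add]
lemma qf_add_right (K : Matrix α β ℂ) (E : Matrix α α ℂ) (F F' : Matrix β β ℂ) :
    qf K E (F + F') = qf K E F + qf K E F' := by
  simp only [qf, Matrix.mul_add, rt_add]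
lemma qf_sub_left (K : Matrix α β ℂ) (E E' : Matrix α α ℂ) (F : Matrix β β ℂ) :
    qf K (E - E') F = qf K E F - qf K E' F := by
  simp only [qf, Matrix.mul_sub, Matrix.sub_mul, rt_sub]
lemma qf_sub_right (K : Matrix α β ℂ) (E : Matrix α α ℂ) (F F' : Matrix β β ℂ) :
    qf K E (F - F') = qf K E F - qf K E F' := by
  simp only [qf, Matrix.mul_sub, rt_sub]
lemma qf_sum_left {ι : Type} (s : Finset ι) (K : Matrix α β ℂ) (E : ι → Matrix α α ℂ)
    (F : Matrix β β ℂ) : qf K (∑ i ∈ s, E i) F = ∑ i ∈ s, qf K (E i) F := by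
  simp only [qf, Matrix.mul_sum, Matrix.sum_mul, rt_sum]
lemma qf_sum_right {ι : Type} (s : Finset ι) (K : Matrix α β ℂ) (E : Matrix α α ℂ)
    (F : ι → Matrix β β ℂ) : qf K E (∑ i ∈ s, F i) = ∑ i ∈ s, qf K E (F i) := by
  simp only [qf, Matrix.mul_sum, rt_sum]
lemma qf_smul (c : ℝ) (K : Matrix α β ℂ) (E : Matrix α α ℂ) (F : Matrix β β ℂ) :
    qf (c • K) E F = c ^ 2 * qf K E F := by
  simp only [qf, conjTranspose_smul, Matrix.smul_mul, Matrix.mul_smul, rt_smul, star_trivial]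
  ring
lemma qf_zero (E : Matrix α α ℂ) (F : Matrix β β ℂ) : qf (0 : Matrix α β ℂ) E F = 0 := by
  simp [qf, rt]

lemma qf_le_left (K : Matrix α β ℂ) {E E' : Matrix α α ℂ} {F : Matrix β β ℂ}
    (hE : (E' - E).PosSemidef) (hF : F.PosSemidef) : qf K E F ≤ qf K E' F := by
  have := qf_nonneg K hE hF; rw [qf_sub_left] at this; linarith
lemma qf_le_right (K : Matrix α β ℂ) {E : Matrix α α ℂ} {F F' : Matrix β β ℂ}
    (hE : E.PosSemidef) (hF : (F' - F).PosSemidef) : qf K E F ≤ qf K E F' := by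
  have := qf_nonneg K hE hF; rw [qf_sub_right] at this; linarith

lemma fn2_nonneg (K : Matrix α β ℂ) : 0 ≤ fn2 K := rt_nonneg (posSemidef_conjTranspose_mul_self K)

lemma fn2_eq_sum (K : Matrix α β ℂ) : fn2 K = ∑ p : α × β, ‖K p.1 p.2‖ ^ 2 := by
  simp only [fn2, rt, trace, diag, Matrix.mul_apply, conjTranspose_apply, Complex.re_sum]
  rw [Fintype.sum_prod_type_right]
  refine Finset.sum_congr rfl fun q _ => Finset.sum_congr rfl fun p _ => ?_
  rw [Complex.star_def, Complex.conj_mul']; norm_cast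

lemma fn2_conjTranspose (K : Matrix α β ℂ) : fn2 Kᴴ = fn2 K := by
  simp only [fn2, conjTranspose_conjTranspose]; rw [rt_comm]

lemma fn2_kraus (T : Matrix γ α ℂ) (K : Matrix α β ℂ) (S : Matrix δ β ℂ) :
    fn2 (T * K * Sᴴ) = qf K (Tᴴ * T) (Sᴴ * S) := by
  rw [← qf_one_one, qf_kraus]; simp

lemma fn2_smul (c : ℝ) (K : Matrix α β ℂ) : fn2 (c • K) = c ^ 2 * fn2 K := by
  rw [← qf_one_one, qf_smul, qf_one_one]

/-- Frobenius norm -/
noncomputable def fn (K : Matrix α β ℂ) : ℝ :=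
  ‖(WithLp.toLp 2 (fun p : α × β => K p.1 p.2) : EuclideanSpace ℂ (α × β))‖

lemma fn_nonneg (K : Matrix α β ℂ) : 0 ≤ fn K := norm_nonneg _
lemma fn_sq (K : Matrix α β ℂ) : fn K ^ 2 = fn2 K := by
  rw [fn, EuclideanSpace.norm_sq_eq, fn2_eq_sum]
lemma fn_add_le (K L : Matrix α β ℂ) : fn (K + L) ≤ fn K + fn L := by
  have := norm_add_le (WithLp.toLp 2 (fun p : α × β => K p.1 p.2) : EuclideanSpace ℂ (α × β))
    (WithLp.toLp 2 (fun p : α × β => L p.1 p.2))
  exact this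
lemma fn_eq_sqrt (K : Matrix α β ℂ) : fn K = √(fn2 K) := by
  rw [← fn_sq, Real.sqrt_sq (fn_nonneg K)]
lemma fn_smul (c : ℝ) (K : Matrix α β ℂ) : fn (c • K) = |c| * fn K := by
  rw [fn_eq_sqrt, fn2_smul, Real.sqrt_mul (sq_nonneg c), Real.sqrt_sq_eq_abs, ← fn_eq_sqrt]
lemma fn_neg (K : Matrix α β ℂ) : fn (-K) = fn K := by
  have := fn_smul (-1) K; simpa using this
lemma fn_sub_comm (K L : Matrix α β ℂ) : fn (K - L) = fn (L - K) := by
  rw [← fn_neg, neg_sub]
lemma fn2_sub_comm (K L : Matrix α β ℂ) : fn2 (K - L) = fn2 (L - K) := by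
  rw [← fn_sq, ← fn_sq, fn_sub_comm]
lemma fn_tri (K L M : Matrix α β ℂ) : fn (K - M) ≤ fn (K - L) + fn (L - M) := by
  have := fn_add_le (K - L) (L - M); rwa [sub_add_sub_cancel] at this
lemma fn_le_add (K L : Matrix α β ℂ) : fn K ≤ fn L + fn (K - L) := by
  have := fn_add_le L (K - L); rwa [add_sub_cancel] at this
lemma abs_fn_sub (K L : Matrix α β ℂ) : |fn K - fn L| ≤ fn (K - L) := by
  have h1 := fn_le_add K L
  have h2 := fn_le_add L K
  rw [fn_sub_comm] at h2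
  rw [abs_le]; constructor <;> linarith
lemma fn_eq_zero {K : Matrix α β ℂ} (h : fn K = 0) : K = 0 := by
  rw [fn, norm_eq_zero] at h
  ext p q
  have := congrArg (fun v : EuclideanSpace ℂ (α × β) => v (p, q)) h
  simpa using this

lemma sq_add_le (a b η : ℝ) (hη : 0 < η) : (a + b) ^ 2 ≤ (1 + η) * a ^ 2 + (1 + 1 / η) * b ^ 2 := by
  have : 0 ≤ (η * a - b) ^ 2 / η := by positivity
  have e : (η * a - b) ^ 2 / η = η * a ^ 2 - 2 * a * b + 1 / η * b ^ 2 := by field_simp; ring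
  nlinarith

lemma fn2_add_le (K L : Matrix α β ℂ) {η : ℝ} (hη : 0 < η) :
    fn2 (K + L) ≤ (1 + η) * fn2 K + (1 + 1 / η) * fn2 L := by
  rw [← fn_sq, ← fn_sq, ← fn_sq]
  exact (pow_le_pow_left₀ (fn_nonneg _) (fn_add_le K L) 2).trans (sq_add_le _ _ _ hη)

lemma qf_add_le (K L : Matrix α β ℂ) {E : Matrix α α ℂ} {F : Matrix β β ℂ} (hE : E.PosSemidef)
    (hF : F.PosSemidef) {η : ℝ} (hη : 0 < η) :
    qf (K + L) E F ≤ (1 + η) * qf K E F + (1 + 1 / η) * qf L E F := by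
  obtain ⟨C, rfl⟩ := exists_fac hE
  obtain ⟨D, rfl⟩ := exists_fac hF
  rw [← fn2_kraus, ← fn2_kraus, ← fn2_kraus, Matrix.mul_add, Matrix.add_mul]
  exact fn2_add_le _ _ hη

/-- a unit-normalised companion -/
lemma exists_nrm (K0 : Matrix α β ℂ) (h0 : fn K0 = 1) (U : Matrix α β ℂ) :
    ∃ V : Matrix α β ℂ, fn V = 1 ∧ fn (V - U) = |1 - fn U| := by
  by_cases h : fn U = 0
  · refine ⟨K0, h0, ?_⟩
    rw [fn_eq_zero h] at *; simp [h0, h]
  · have hp : 0 < fn U := lt_of_le_of_ne (fn_nonneg U) (Ne.symm h)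
    refine ⟨(fn U)⁻¹ • U, ?_, ?_⟩
    · rw [fn_smul, abs_of_pos (inv_pos.mpr hp), inv_mul_cancel₀ h]
    · have : (fn U)⁻¹ • U - U = ((fn U)⁻¹ - 1) • U := by rw [sub_smul, one_smul]
      rw [this, fn_smul]
      have e : 1 - fn U = ((fn U)⁻¹ - 1) * fn U := by field_simp
      rw [e, abs_mul, abs_of_pos hp]

/-- sub-normalised POVM -/
def SubP {A : Type} [Fintype A] (E : A → Matrix α α ℂ) : Prop :=
  (∀ a, (E a).PosSemidef) ∧ (1 - ∑ a, E a).PosSemidef

/-- contraction -/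
def Contr (T : Matrix γ α ℂ) : Prop := (1 - Tᴴ * T).PosSemidef

lemma contr_of_adj {T : Matrix γ α ℂ} (h : (1 - T * Tᴴ).PosSemidef) : Contr T := by
  have e : (1 - Tᴴ * T : Matrix α α ℂ) = (1 - Tᴴ * T)ᴴ * (1 - Tᴴ * T) + Tᴴ * (1 - T * Tᴴ) * T := by
    simp only [conjTranspose_sub, conjTranspose_one, conjTranspose_mul, conjTranspose_conjTranspose,
      Matrix.mul_sub, Matrix.sub_mul, Matrix.mul_one, Matrix.one_mul, Matrix.mul_assoc]
    abel
  rw [Contr, e]
  exact (posSemidef_conjTranspose_mul_self _).add (h.conjTranspose_mul_mul_same T)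

/-- winning weight -/
noncomputable def win {A B : Type} [Fintype A] [Fintype B] (acc : A → B → Bool)
    (K : Matrix α β ℂ) (E : A → Matrix α α ℂ) (F : B → Matrix β β ℂ) : ℝ :=
  ∑ a, ∑ b, if acc a b = true then qf K (E a) (F b) else 0

section win
variable {A B : Type} [Fintype A] [Fintype B] (acc : A → B → Bool)

lemma win_nonneg (K : Matrix α β ℂ) {E : A → Matrix α α ℂ} {F : B → Matrix β β ℂ}
    (hE : ∀ a, (E a).PosSemidef) (hF : ∀ b, (F b).PosSemidef) : 0 ≤ win acc K E F := by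
  refine Finset.sum_nonneg fun a _ => Finset.sum_nonneg fun b _ => ?_
  split_ifs
  · exact qf_nonneg K (hE a) (hF b)
  · exact le_rfl

lemma win_le (K : Matrix α β ℂ) {E : A → Matrix α α ℂ} {F : B → Matrix β β ℂ}
    (hE : SubP E) (hF : SubP F) : win acc K E F ≤ fn2 K := by
  have h1 : win acc K E F ≤ ∑ a, ∑ b, qf K (E a) (F b) := by
    refine Finset.sum_le_sum fun a _ => Finset.sum_le_sum fun b _ => ?_
    split_ifs
    · exact le_rfl
    · exact qf_nonneg K (hE.1 a) (hF.1 b)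
  have h2 : ∑ a, ∑ b, qf K (E a) (F b) = qf K (∑ a, E a) (∑ b, F b) := by
    rw [qf_sum_left]; simp only [qf_sum_right]
  have h3 := qf_le_left K hE.2 (psd_sum Finset.univ fun b _ => hF.1 b)
  have h4 := qf_le_right K (PosSemidef.one (n := α) (R := ℂ)) hF.2
  rw [qf_one_one] at h4
  linarith

lemma win_add_le (K L : Matrix α β ℂ) {E : A → Matrix α α ℂ} {F : B → Matrix β β ℂ}
    (hE : SubP E) (hF : SubP F) {η : ℝ} (hη : 0 < η) :
    win acc (K + L) E F ≤ (1 + η) * win acc K E F + (1 + 1 / η) * fn2 L := by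
  have h1 : win acc (K + L) E F ≤ (1 + η) * win acc K E F + (1 + 1 / η) * win acc L E F := by
    simp only [win, Finset.mul_sum, ← Finset.sum_add_distrib]
    refine Finset.sum_le_sum fun a _ => Finset.sum_le_sum fun b _ => ?_
    split_ifs
    · exact qf_add_le K L (hE.1 a) (hF.1 b) hη
    · simp
  have h2 := win_le acc L hE hF
  have : 0 ≤ 1 + 1 / η := by positivity
  nlinarith

lemma win_smul (c : ℝ) (K : Matrix α β ℂ) (E : A → Matrix α α ℂ) (F : B → Matrix β β ℂ) :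
    win acc (c • K) E F = c ^ 2 * win acc K E F := by
  simp only [win, Finset.mul_sum, qf_smul]
  refine Finset.sum_congr rfl fun a _ => Finset.sum_congr rfl fun b _ => ?_
  split_ifs <;> simp

lemma win_kraus (T : Matrix γ α ℂ) (K : Matrix α β ℂ) (S : Matrix δ β ℂ) (E : A → Matrix γ γ ℂ)
    (F : B → Matrix δ δ ℂ) :
    win acc (T * K * Sᴴ) E F = win acc K (fun a => Tᴴ * E a * T) (fun b => Sᴴ * F b * S) := by
  simp only [win, qf_kraus]

end win

/-! ### spectral calculus -/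

/-- real diagonal matrix -/
noncomputable def dg (f : α → ℝ) : Matrix α α ℂ := diagonal fun i => (f i : ℂ)

/-- `U diag(f) Uᴴ` -/
noncomputable def sp (U : Matrix α α ℂ) (f : α → ℝ) : Matrix α α ℂ := U * dg f * Uᴴ

/-- unitary -/
def Uni (U : Matrix α α ℂ) : Prop := Uᴴ * U = 1 ∧ U * Uᴴ = 1

lemma dg_mul (f g : α → ℝ) : dg f * dg g = dg fun i => f i * g i := by
  simp [dg, diagonal_mul_diagonal]
lemma dg_conjTranspose (f : α → ℝ) : (dg f)ᴴ = dg f := by
  simp [dg, diagonal_conjTranspose, Pi.star_def]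
lemma dg_psd {f : α → ℝ} (h : ∀ i, 0 ≤ f i) : (dg f).PosSemidef := by
  rw [dg, posSemidef_diagonal_iff]; intro i; simpa using h i

lemma exists_spec {X : Matrix α α ℂ} (hX : X.IsHermitian) :
    ∃ (U : Matrix α α ℂ) (f : α → ℝ), Uni U ∧ X = sp U f := by
  refine ⟨hX.eigenvectorUnitary, hX.eigenvalues, ⟨?_, ?_⟩, ?_⟩
  · exact Unitary.coe_star_mul_self hX.eigenvectorUnitary
  · exact Unitary.coe_mul_star_self hX.eigenvectorUnitary
  · have := hX.spectral_theorem
    rw [Unitary.conjStarAlgAut_apply] at this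
    exact this

lemma sp_mul {U : Matrix α α ℂ} (hU : Uni U) (f g : α → ℝ) :
    sp U f * sp U g = sp U fun i => f i * g i := by
  simp only [sp, Matrix.mul_assoc]
  rw [← Matrix.mul_assoc Uᴴ U, hU.1, Matrix.one_mul, ← Matrix.mul_assoc (dg f), dg_mul]
lemma sp_conjTranspose (U : Matrix α α ℂ) (f : α → ℝ) : (sp U f)ᴴ = sp U f := by
  simp only [sp, conjTranspose_mul, conjTranspose_conjTranspose, dg_conjTranspose, Matrix.mul_assoc]
lemma sp_one {U : Matrix α α ℂ} (hU : Uni U) : sp U (fun _ => 1) = 1 := by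
  simp [sp, dg, hU.2]
lemma sp_add (U : Matrix α α ℂ) (f g : α → ℝ) : sp U f + sp U g = sp U fun i => f i + g i := by
  simp only [sp, ← Matrix.add_mul, ← Matrix.mul_add]; congr 2; simp [dg]
lemma sp_sub (U : Matrix α α ℂ) (f g : α → ℝ) : sp U f - sp U g = sp U fun i => f i - g i := by
  simp only [sp, ← Matrix.sub_mul, ← Matrix.mul_sub]; congr 2; simp [dg]
lemma sp_smul (U : Matrix α α ℂ) (c : ℝ) (f : α → ℝ) : c • sp U f = sp U fun i => c * f i := by
  have : (dg fun i => c * f i) = c • dg f := by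
    ext i j; simp only [dg, diagonal_apply, Matrix.smul_apply]; split_ifs <;> simp
  simp only [sp, this, Matrix.mul_smul, Matrix.smul_mul]
lemma sp_zero (U : Matrix α α ℂ) : sp U (fun _ => 0) = 0 := by simp [sp, dg]
lemma sp_sum {ι : Type} (s : Finset ι) (U : Matrix α α ℂ) (f : ι → α → ℝ) :
    ∑ l ∈ s, sp U (f l) = sp U fun i => ∑ l ∈ s, f l i := by
  classical
  induction s using Finset.induction_on with
  | empty => simp [sp_zero]
  | insert a s ha ih => simp only [Finset.sum_insert ha, ih, sp_add]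
lemma sp_psd (U : Matrix α α ℂ) {f : α → ℝ} (h : ∀ i, 0 ≤ f i) : (sp U f).PosSemidef :=
  (dg_psd h).mul_mul_conjTranspose_same U
lemma sp_psd_iff {U : Matrix α α ℂ} (hU : Uni U) {f : α → ℝ} (h : (sp U f).PosSemidef) (i : α) :
    0 ≤ f i := by
  have h1 := h.conjTranspose_mul_mul_same U
  have e : Uᴴ * sp U f * U = dg f := by
    simp only [sp, Matrix.mul_assoc]
    rw [hU.1, Matrix.mul_one, ← Matrix.mul_assoc, hU.1, Matrix.one_mul]
  rw [e, dg, posSemidef_diagonal_iff] at h1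
  simpa using h1 i

/-- Douglas-type lemma: a decomposition of `DᴴD` lifts to a sub-POVM on the range. -/
lemma exists_lift {A : Type} [Fintype A] (D : Matrix γ α ℂ) (B : A → Matrix α α ℂ)
    (hB : ∀ a, (B a).PosSemidef) (hD : Dᴴ * D = ∑ a, B a) :
    ∃ E : A → Matrix γ γ ℂ, SubP E ∧ ∀ a, Dᴴ * E a * D = B a := by
  obtain ⟨U, f, hU, hf⟩ := exists_spec (posSemidef_conjTranspose_mul_self D).1
  set P : Matrix α α ℂ := sp U fun i => (f i)⁻¹ with hP
  set Q : Matrix α α ℂ := sp U fun i => f i * (f i)⁻¹ with hQ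
  have hPh : Pᴴ = P := sp_conjTranspose _ _
  have hQh : Qᴴ = Q := sp_conjTranspose _ _
  have h1 : Dᴴ * D * P = Q := by rw [hf, hP, sp_mul hU]
  have h2 : P * (Dᴴ * D) = Q := by
    rw [hf, hP, sp_mul hU, hQ]; congr 1; ext i; ring
  have hQD : (1 - Q)ᴴ * (Dᴴ * D) * (1 - Q) = 0 := by
    rw [conjTranspose_sub, conjTranspose_one, hQh, ← sp_one hU, hQ, sp_sub, hf, sp_mul hU,
      sp_mul hU, ← sp_zero U]
    congr 1; ext i
    by_cases h : f i = 0
    · simp [h]
    · field_simp; ring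
  have hBQ : ∀ a, B a * Q = B a := by
    intro a
    have hz : (1 - Q)ᴴ * B a * (1 - Q) = 0 := by
      have hs : ∑ a, (1 - Q)ᴴ * B a * (1 - Q) = 0 := by
        rw [← Matrix.sum_mul, ← Matrix.mul_sum, ← hD, hQD]
      have hpos : ∀ a ∈ Finset.univ, (0 : Matrix α α ℂ) ≤ (1 - Q)ᴴ * B a * (1 - Q) := fun a _ =>
        ((hB a).conjTranspose_mul_mul_same _).nonneg
      exact (Finset.sum_eq_zero_iff_of_nonneg hpos).mp hs a (Finset.mem_univ a)
    obtain ⟨C, hC⟩ := exists_fac (hB a)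
    have hz2 : (C * (1 - Q))ᴴ * (C * (1 - Q)) = 0 := by
      rw [← hz, hC]; simp only [conjTranspose_mul, Matrix.mul_assoc]
    have hz3 : C * (1 - Q) = 0 := conjTranspose_mul_self_eq_zero.mp hz2
    have : B a * (1 - Q) = 0 := by rw [hC, Matrix.mul_assoc, hz3, Matrix.mul_zero]
    rw [Matrix.mul_sub, Matrix.mul_one, sub_eq_zero] at this
    exact this.symm
  have hQB : ∀ a, Q * B a = B a := by
    intro a
    have := congrArg conjTranspose (hBQ a)
    rwa [conjTranspose_mul, hQh, (hB a).1] at this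
  refine ⟨fun a => (D * P) * B a * (D * P)ᴴ, ⟨fun a => (hB a).mul_mul_conjTranspose_same _, ?_⟩,
    fun a => ?_⟩
  · rw [← Matrix.sum_mul, ← Matrix.mul_sum, ← hD]
    have hPQ : P * Q = P := by
      rw [hP, hQ, sp_mul hU]; congr 1; ext i
      by_cases h : f i = 0
      · simp [h]
      · field_simp
    have e : D * P * (Dᴴ * D) * (D * P)ᴴ = D * P * Dᴴ := by
      rw [conjTranspose_mul, hPh, Matrix.mul_assoc D P, h2]
      have : Q * P = P := by
        have := congrArg conjTranspose hPQ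
        rwa [conjTranspose_mul, hQh, hPh] at this
      simp only [Matrix.mul_assoc]; rw [← Matrix.mul_assoc Q, this]
    rw [e]
    have e2 : (1 - D * P * Dᴴ : Matrix γ γ ℂ) = (1 - D * P * Dᴴ)ᴴ * (1 - D * P * Dᴴ) := by
      simp only [conjTranspose_sub, conjTranspose_one, conjTranspose_mul,
        conjTranspose_conjTranspose, hPh, Matrix.mul_sub, Matrix.sub_mul, Matrix.mul_one,
        Matrix.one_mul, Matrix.mul_assoc]
      have : D * (P * (Dᴴ * (D * (P * Dᴴ)))) = D * (P * Dᴴ) := by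
        rw [← Matrix.mul_assoc Dᴴ D, ← Matrix.mul_assoc (Dᴴ * D), h1, ← Matrix.mul_assoc P, hPQ]
      rw [this]; abel
    rw [e2]; exact posSemidef_conjTranspose_mul_self _
  · rw [conjTranspose_mul, hPh]
    have : Dᴴ * (D * P * B a * (P * Dᴴ)) * D = (Dᴴ * D * P) * B a * (P * (Dᴴ * D)) := by
      simp only [Matrix.mul_assoc]
    rw [this, h1, h2, hQB, hBQ]

end Crest.Agent.H5.PR
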