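import Crest.Agent.H5.PR.A9
import Crest.Prelude.Def_NonlocalGame

set_option autoImplicit false
set_option linter.unusedSectionVars false

namespace Crest.Agent.H5.PR

open Matrix Function Crest.MathPhysics.NonlocalGame
open scoped ComplexOrder MatrixOrder BigOperators Kronecker

variable {α β : Type} [Fintype α] [DecidableEq α] [Fintype β] [DecidableEq β]

lemma dot_eq_qf (ψ : α × β → ℂ) (M : Matrix α α ℂ) (N : Matrix β β ℂ) :
    (dotProduct (star ψ) ((M ⊗ₖ N).mulVec ψ)).re = qf (Matrix.of fun p q => ψ (p, q)) M Nᵀ := by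
  simp only [qf, rt, trace, diag, Matrix.mul_apply, dotProduct, mulVec, Fintype.sum_prod_type,
    kroneckerMap_apply, conjTranspose_apply, of_apply, transpose_apply, Pi.star_apply,
    Finset.sum_mul, Finset.mul_sum]
  congr 1
  rw [Finset.sum_comm]
  refine Finset.sum_congr rfl fun q _ => ?_
  rw [Finset.sum_congr rfl fun p _ => Finset.sum_comm, Finset.sum_comm]
  refine Finset.sum_congr rfl fun q' _ => ?_
  rw [Finset.sum_comm]
  exact Finset.sum_congr rfl fun p' _ => Finset.sum_congr rfl fun p _ => by ring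

/-- the question distribution on pairs -/
def gμ (G : Game) (z : Fin G.nX × Fin G.nY) : ℝ := G.prob z.1 z.2

lemma gμ_nonneg (G : Game) (z : Fin G.nX × Fin G.nY) : 0 ≤ gμ G z := G.prob_nonneg _ _
lemma gμ_sum (G : Game) : ∑ z, gμ G z = 1 := by rw [Fintype.sum_prod_type]; exact G.prob_sum

lemma prob_eq {G : Game} {k dA dB : ℕ} (S : Strategy G k dA dB) (t : ℝ) :
    S.probWinsAtLeast t = EP (gμ G) (Matrix.of fun p q => S.ψ (p, q)) S.M (fun y b => (S.N y b)ᵀ)
      fun w a b => if t ≤ ((Finset.univ.filter fun i =>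
        G.accept (w i).1 (w i).2 (a i) (b i) = true).card : ℝ) then 1 else 0 := by
  rw [Strategy.probWinsAtLeast, EP, Ex, ← Fintype.sum_prod_type',
    ← (Equiv.arrowProdEquivProdArrow (Fin k) (fun _ => Fin G.nX) fun _ => Fin G.nY).sum_comp]
  refine Finset.sum_congr rfl fun w _ => ?_
  congr 1
  refine Finset.sum_congr rfl fun a _ => Finset.sum_congr rfl fun b _ => ?_
  simp only [Strategy.answerProb, dot_eq_qf, wins, Equiv.arrowProdEquivProdArrow_apply]
  split_ifs <;> simp

lemma fn2_psi {G : Game} {k dA dB : ℕ} (S : Strategy G k dA dB) :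
    fn2 (Matrix.of fun p q => S.ψ (p, q)) = 1 := by
  rw [fn2_eq_sum, ← S.ψ_norm]; rfl

lemma qf_submatrix {γ δ : Type} [Fintype γ] [DecidableEq γ] [Fintype δ] [DecidableEq δ]
    (e : γ ≃ α) (f : δ ≃ β) (K : Matrix α β ℂ) (E : Matrix α α ℂ) (F : Matrix β β ℂ) :
    qf (K.submatrix e f) (E.submatrix e e) (F.submatrix f f) = qf K E F := by
  simp only [qf, rt, conjTranspose_submatrix, submatrix_mul_equiv]
  simp only [trace, diag, submatrix_apply]
  rw [f.sum_comp fun i => (Kᴴ * E * K * F) i i]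

lemma complete {A : Type} [Fintype A] [DecidableEq A] (a0 : A) {E : A → Matrix α α ℂ}
    (h : SubP E) : ∃ E' : A → Matrix α α ℂ, (∀ a, (E' a).PosSemidef) ∧ ∑ a, E' a = 1 ∧
      ∀ a, (E' a - E a).PosSemidef := by
  have : ∀ a, (if a = a0 then 1 - ∑ a, E a else 0).PosSemidef := fun a => by
    split_ifs; exacts [h.2, PosSemidef.zero]
  refine ⟨fun a => E a + if a = a0 then 1 - ∑ a, E a else 0, fun a => (h.1 a).add (this a), ?_,
    fun a => by simpa using this a⟩
  simp [Finset.sum_add_distrib]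

lemma hv_of {G : Game} [Nonempty (Fin G.nA)] [Nonempty (Fin G.nB)] {v : ℝ}
    (hv : ∀ (dA dB : ℕ) (S : Strategy G 1 dA dB), S.probWinsAtLeast 1 ≤ v) :
    HV (gμ G) G.accept v := by
  intro α β _ _ _ _ K E F hK hE hF
  obtain ⟨a0⟩ := ‹Nonempty (Fin G.nA)›
  obtain ⟨b0⟩ := ‹Nonempty (Fin G.nB)›
  choose E' hE1 hE2 hE3 using fun x => complete a0 (hE x)
  choose F' hF1 hF2 hF3 using fun y => complete b0 (hF y)
  set e := (Fintype.equivFin α).symm
  set f := (Fintype.equivFin β).symm
  let S : Strategy G 1 (Fintype.card α) (Fintype.card β) :=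
    { ψ := fun p => K (e p.1) (f p.2)
      ψ_norm := by
        rw [← hK, fn2_eq_sum, ← (e.prodCongr f).sum_comp]; rfl
      M := fun x a => (E' (x 0) (a 0)).submatrix e e
      N := fun y b => (F' (y 0) (b 0))ᵀ.submatrix f f
      M_posSemidef := fun x a => (hE1 _ _).submatrix e
      N_posSemidef := fun y b => (hF1 _ _).transpose.submatrix f
      M_sum := fun x => by
        rw [← (Equiv.funUnique (Fin 1) (Fin G.nA)).symm.sum_comp, ← submatrix_one_equiv e,
          ← hE2 (x 0)]
        ext i j; simp [Matrix.sum_apply]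
      N_sum := fun y => by
        rw [← (Equiv.funUnique (Fin 1) (Fin G.nB)).symm.sum_comp, ← submatrix_one_equiv f,
          ← transpose_one, ← hF2 (y 0)]
        ext i j; simp [Matrix.sum_apply] }
  refine le_trans ?_ (hv _ _ S)
  rw [prob_eq, EP, Ex, ← (Equiv.funUnique (Fin 1) (Fin G.nX × Fin G.nY)).symm.sum_comp]
  refine Finset.sum_le_sum fun z _ => ?_
  have e1 : pw (gμ G) ((Equiv.funUnique (Fin 1) (Fin G.nX × Fin G.nY)).symm z) = gμ G z := by
    simp [pw]
  rw [e1]
  refine mul_le_mul_of_nonneg_left ?_ (gμ_nonneg G z)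
  rw [← (Equiv.funUnique (Fin 1) (Fin G.nA)).symm.sum_comp, win]
  refine Finset.sum_le_sum fun a _ => ?_
  rw [← (Equiv.funUnique (Fin 1) (Fin G.nB)).symm.sum_comp]
  refine Finset.sum_le_sum fun b _ => ?_
  have e2 := qf_submatrix e f K (E' z.1 a) (F' z.2 b)
  have e3 : qf (Matrix.of fun p q => S.ψ (p, q))
      (S.M (fun j => ((Equiv.funUnique (Fin 1) (Fin G.nX × Fin G.nY)).symm z j).1)
        ((Equiv.funUnique (Fin 1) (Fin G.nA)).symm a))
      (S.N (fun j => ((Equiv.funUnique (Fin 1) (Fin G.nX × Fin G.nY)).symm z j).2)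
        ((Equiv.funUnique (Fin 1) (Fin G.nB)).symm b))ᵀ = qf K (E' z.1 a) (F' z.2 b) := e2
  rw [e3]
  have e4 := qf_nonneg K (hE1 z.1 a) (hF1 z.2 b)
  by_cases h : G.accept z.1 z.2 a b = true
  · simp only [h, if_true, Equiv.funUnique_symm_apply, uniqueElim_const]
    simp only [Finset.univ_unique, Finset.filter_true, Finset.card_singleton, Nat.cast_one,
      le_refl, if_true, one_mul]
    exact (qf_le_left K (hE3 _ _) ((hF _).1 _)).trans (qf_le_right K (hE1 _ _) (hF3 _ _))
  · rw [if_neg h]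
    exact mul_nonneg (by split_ifs <;> norm_num) e4

lemma nonempty_of {G : Game} {k dA dB : ℕ} (S : Strategy G k dA dB) (hk : 1 ≤ k) :
    Nonempty (Fin G.nX) ∧ Nonempty (Fin G.nY) ∧ Nonempty (Fin G.nA) ∧ Nonempty (Fin G.nB) := by
  have hXY : Nonempty (Fin G.nX × Fin G.nY) := by
    by_contra h
    have := gμ_sum G
    rw [not_nonempty_iff] at h
    simp at this
  have hd : Nonempty (Fin dA × Fin dB) := by
    by_contra h
    have := S.ψ_norm
    rw [not_nonempty_iff] at h
    simp at this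
  obtain ⟨x, y⟩ := hXY
  obtain ⟨p, q⟩ := hd
  refine ⟨⟨x⟩, ⟨y⟩, ?_, ?_⟩
  · by_contra h
    rw [not_nonempty_iff] at h
    have : IsEmpty (Fin k → Fin G.nA) := ⟨fun f => h.false (f ⟨0, hk⟩)⟩
    have := congrFun (congrFun (S.M_sum fun _ => x) p) p
    simp at this
  · by_contra h
    rw [not_nonempty_iff] at h
    have : IsEmpty (Fin k → Fin G.nB) := ⟨fun f => h.false (f ⟨0, hk⟩)⟩
    have := congrFun (congrFun (S.N_sum fun _ => y) q) q
    simp at this

theorem rep_game {G : Game} {k dA dB : ℕ} (S : Strategy G k dA dB) (hk : 1 ≤ k) {v L δ : ℝ}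
    (hRH : RH (gμ G) G.accept (v + δ / 4) L) (hL : 1 ≤ L) (hv : 0 ≤ v) (hδ : 0 < δ) (hδ1 : δ ≤ 1) :
    S.probWinsAtLeast ((v + δ) * k) ≤
      Real.exp (-(δ ^ 2 / (58 * L * (1 + Real.log ((G.nA * G.nB : ℕ) : ℝ))) * k)) := by
  obtain ⟨_, _, _, _⟩ := nonempty_of S hk
  have := rep (M := S.M) (N := fun y b => (S.N y b)ᵀ) hRH hL hv hδ hδ1 (gμ_nonneg G) (gμ_sum G)
    (fn2_psi S) S.M_posSemidef (fun y b => (S.N_posSemidef y b).transpose) S.M_sum
    (fun y => by rw [← transpose_sum, S.N_sum, transpose_one])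
  simp only [Fintype.card_fin] at this
  rw [prob_eq]; push_cast
  exact this

lemma log_card_nonneg (G : Game) : 0 ≤ Real.log ((G.nA * G.nB : ℕ) : ℝ) := Real.log_natCast_nonneg _

/-! ### support components -/

lemma mem_comp {G : Game} {z w : Fin G.nX × Fin G.nY} :
    w ∈ G.supportComponent z ↔ G.supportGraph.Reachable z w := by
  simp [Game.supportComponent]

lemma comp_eq {G : Game} {z w : Fin G.nX × Fin G.nY} (h : G.supportGraph.Reachable z w) :
    G.supportComponent z = G.supportComponent w := by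
  ext u; rw [mem_comp, mem_comp]; exact ⟨fun h' => h.symm.trans h', fun h' => h.trans h'⟩

lemma reach_of {G : Game} {z w : Fin G.nX × Fin G.nY} (hz : 0 < gμ G z) (hw : 0 < gμ G w)
    (h : z.1 = w.1 ∨ z.2 = w.2) : G.supportGraph.Reachable z w := by
  by_cases e : z = w
  · rw [e]
  · exact SimpleGraph.Adj.reachable ⟨e, hz, hw, h⟩

lemma pos_of_reach {G : Game} {z w : Fin G.nX × Fin G.nY} (h : G.supportGraph.Reachable z w)
    (hz : 0 < gμ G z) : 0 < gμ G w := by
  obtain ⟨p⟩ := h
  induction p with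
  | nil => exact hz
  | cons h _ ih => exact ih h.2.2.1

theorem exists_comp (G : Game) {κ : ℝ}
    (hκ : ∀ z : Fin G.nX × Fin G.nY, 0 < G.prob z.1 z.2 → ∀ w ∈ G.supportComponent z,
      8 * ((G.supportComponent z).card - 1 : ℝ) * (∑ u ∈ G.supportComponent z, G.prob u.1 u.2)
        ≤ κ * G.prob w.1 w.2) :
    0 ≤ κ ∧ ∃ (cx : Fin G.nX → Fin G.nX × Fin G.nY) (cy : Fin G.nY → Fin G.nX × Fin G.nY),
      (∀ z, 0 < gμ G z → cy z.2 = cx z.1) ∧
      ∀ (D : Fin G.nX × Fin G.nY → Fin G.nX × Fin G.nY → ℝ) (g : Fin G.nX × Fin G.nY → ℝ),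
      (∀ a, D a a = 0) → (∀ a b, 0 ≤ D a b) →
      (∀ a b c, D a c ≤ D a b + D b c) → (∀ z, 0 ≤ g z) →
      (∀ z z', 0 < gμ G z → 0 < gμ G z' → (z.1 = z'.1 ∨ z.2 = z'.2) → D z z' ≤ g z + g z') →
      ∑ z, gμ G z * D (cx z.1) z ^ 2 ≤ κ * ∑ z, gμ G z * g z ^ 2 := by
  classical
  have self : ∀ z, z ∈ G.supportComponent z := fun z => mem_comp.mpr (SimpleGraph.Reachable.refl z)
  have c1 : ∀ z, (1 : ℝ) ≤ (G.supportComponent z).card := fun z => by
    exact_mod_cast Finset.card_pos.mpr ⟨z, self z⟩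
  obtain ⟨z0, hz0⟩ : ∃ z, 0 < gμ G z := by
    by_contra h
    push Not at h
    have := Finset.sum_nonpos fun z (_ : z ∈ Finset.univ) => h z
    rw [gμ_sum] at this; linarith
  have hκ0 : 0 ≤ κ := by
    have h1 := hκ z0 hz0 z0 (self z0)
    have h2 : 0 ≤ ∑ u ∈ G.supportComponent z0, G.prob u.1 u.2 :=
      Finset.sum_nonneg fun u _ => G.prob_nonneg _ _
    have h3 := c1 z0
    exact nonneg_of_mul_nonneg_left (le_trans (mul_nonneg (by linarith) h2) h1) hz0
  have hp : ∀ s : Finset (Fin G.nX × Fin G.nY), ∃ c, s.Nonempty → c ∈ s := fun s => by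
    by_cases h : s.Nonempty
    · exact ⟨h.choose, fun _ => h.choose_spec⟩
    · exact ⟨z0, fun h' => absurd h' h⟩
  choose pick hpick using hp
  have hx : ∀ x, ∃ c, ∀ y, 0 < gμ G (x, y) → c = pick (G.supportComponent (x, y)) := fun x => by
    by_cases h : ∃ y, 0 < gμ G (x, y)
    · obtain ⟨y, hy⟩ := h
      exact ⟨pick (G.supportComponent (x, y)), fun y' hy' => by
        rw [comp_eq (reach_of hy hy' (Or.inl rfl))]⟩
    · exact ⟨z0, fun y hy => absurd ⟨y, hy⟩ h⟩
  have hy : ∀ y, ∃ c, ∀ x, 0 < gμ G (x, y) → c = pick (G.supportComponent (x, y)) := fun y => by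
    by_cases h : ∃ x, 0 < gμ G (x, y)
    · obtain ⟨x, hx⟩ := h
      exact ⟨pick (G.supportComponent (x, y)), fun x' hx' => by
        rw [comp_eq (reach_of hx hx' (Or.inr rfl))]⟩
    · exact ⟨z0, fun x hx => absurd ⟨x, hx⟩ h⟩
  choose cx hcx using hx
  choose cy hcy using hy
  refine ⟨hκ0, cx, cy, fun z hz => by rw [hcx z.1 z.2 hz, hcy z.2 z.1 hz], ?_⟩
  intro D g hD0 hD1 hD2 hg hDg
  have walk : ∀ (u w : Fin G.nX × Fin G.nY) (p : G.supportGraph.Walk u w),
      D u w + g u ≤ 2 * (p.support.map g).sum := by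
    intro u w p
    induction p with
    | nil => simp [hD0]; linarith [hg ‹_›]
    | @cons a b c h p ih =>
      have := hDg a b h.2.1 h.2.2.1 h.2.2.2
      have := hD2 a b c
      simp only [SimpleGraph.Walk.support_cons, List.map_cons, List.sum_cons]
      linarith
  have one : ∀ z, 0 < gμ G z → D (cx z.1) z ^ 2 ≤
      8 * ((G.supportComponent z).card - 1 : ℝ) * ∑ u ∈ G.supportComponent z, g u ^ 2 := by
    intro z hz
    have hc : cx z.1 ∈ G.supportComponent z := by
      rw [hcx z.1 z.2 hz]; exact hpick _ ⟨z, self z⟩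
    have hs : 0 ≤ ∑ u ∈ G.supportComponent z, g u ^ 2 := Finset.sum_nonneg fun u _ => sq_nonneg _
    by_cases e : cx z.1 = z
    · rw [e, hD0]
      have := c1 z
      nlinarith
    · have c2 : (2 : ℝ) ≤ (G.supportComponent z).card := by
        have : 1 < (G.supportComponent z).card := Finset.one_lt_card.mpr ⟨_, hc, _, self z, e⟩
        exact_mod_cast this
      obtain ⟨p, hp⟩ := (mem_comp.mp hc).symm.exists_isPath
      have a1 := walk _ _ p
      rw [← List.sum_toFinset g hp.support_nodup] at a1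
      have a2 : ∑ u ∈ p.support.toFinset, g u ≤ ∑ u ∈ G.supportComponent z, g u := by
        refine Finset.sum_le_sum_of_subset_of_nonneg (fun u hu => ?_) fun u _ _ => hg u
        rw [List.mem_toFinset] at hu
        exact mem_comp.mpr ((mem_comp.mp hc).trans ⟨p.takeUntil u hu⟩)
      have a3 : D (cx z.1) z ≤ 2 * ∑ u ∈ G.supportComponent z, g u := by linarith [hg (cx z.1)]
      have a4 := sq_sum_le_card_mul_sum_sq (s := G.supportComponent z) (f := g)
      have a5 := pow_le_pow_left₀ (hD1 _ _) a3 2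
      nlinarith
  calc _ ≤ ∑ z, ∑ u, if u ∈ G.supportComponent z then
        gμ G z * (8 * ((G.supportComponent z).card - 1 : ℝ)) * g u ^ 2 else 0 := by
        refine Finset.sum_le_sum fun z _ => ?_
        rw [Finset.sum_ite_mem, Finset.univ_inter, ← Finset.mul_sum, mul_assoc]
        rcases (gμ_nonneg G z).eq_or_lt with h | h
        · rw [← h]; simp
        · exact mul_le_mul_of_nonneg_left (one z h) h.le
    _ ≤ _ := by
        rw [Finset.sum_comm, Finset.mul_sum]
        refine Finset.sum_le_sum fun u _ => ?_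
        rcases (gμ_nonneg G u).eq_or_lt with h | h
        · rw [← h, zero_mul, mul_zero]
          refine le_of_eq (Finset.sum_eq_zero fun z _ => ?_)
          split_ifs with hz
          · rcases (gμ_nonneg G z).eq_or_lt with h' | h'
            · rw [← h']; simp
            · exact absurd (pos_of_reach (mem_comp.mp hz) h') (by rw [← h]; exact lt_irrefl _)
          · rfl
        · have a1 := mul_le_mul_of_nonneg_right (hκ u h u (self u)) (sq_nonneg (g u))
          refine le_trans (le_of_eq ?_) (a1.trans (le_of_eq (by simp only [gμ]; ring)))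
          rw [Finset.mul_sum, Finset.sum_mul, ← Finset.univ_inter (G.supportComponent u),
            ← Finset.sum_ite_mem, Finset.univ_inter]
          refine Finset.sum_congr rfl fun z _ => ?_
          by_cases hz : u ∈ G.supportComponent z
          · rw [if_pos hz, if_pos (mem_comp.mpr (mem_comp.mp hz).symm), comp_eq (mem_comp.mp hz), gμ]
            ring
          · rw [if_neg hz, if_neg fun h' => hz (mem_comp.mpr (mem_comp.mp h').symm)]

end Crest.Agent.H5.PR
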