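import Crest.Agent.H5.PR.A1

set_option autoImplicit false
set_option linter.unusedSectionVars false

namespace Crest.Agent.H5.PR

open Matrix
open scoped ComplexOrder MatrixOrder BigOperators Kronecker

variable {X Y A B : Type} [Fintype X] [Fintype Y] [Fintype A] [Fintype B]

/-- `v` bounds the value of every sub-normalised strategy -/
def HV (μ : X × Y → ℝ) (acc : X → Y → A → B → Bool) (v : ℝ) : Prop :=
  ∀ (α β : Type) [Fintype α] [Fintype β] [DecidableEq α] [DecidableEq β] (K : Matrix α β ℂ)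
    (E : X → A → Matrix α α ℂ) (F : Y → B → Matrix β β ℂ),
    fn2 K = 1 → (∀ x, SubP (E x)) → (∀ y, SubP (F y)) →
      ∑ z, μ z * win (acc z.1 z.2) K (E z.1) (F z.2) ≤ v

/-- achievable vectors of winning probabilities -/
def Ach (acc : X → Y → A → B → Bool) (s : X × Y → ℝ) : Prop :=
  ∃ (α β : Type) (_ : Fintype α) (_ : Fintype β) (_ : DecidableEq α) (_ : DecidableEq β)
    (K : Matrix α β ℂ) (E : X → A → Matrix α α ℂ) (F : Y → B → Matrix β β ℂ),
    fn2 K = 1 ∧ (∀ x, SubP (E x)) ∧ (∀ y, SubP (F y)) ∧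
      ∀ z, s z ≤ win (acc z.1 z.2) K (E z.1) (F z.2)

lemma HV.ach {μ : X × Y → ℝ} {acc : X → Y → A → B → Bool} {v : ℝ} (h : HV μ acc v)
    (hμ : ∀ z, 0 ≤ μ z) {s : X × Y → ℝ} (hs : Ach acc s) : ∑ z, μ z * s z ≤ v := by
  obtain ⟨α, β, _, _, _, _, K, E, F, h1, h2, h3, h4⟩ := hs
  exact (Finset.sum_le_sum fun z _ => mul_le_mul_of_nonneg_left (h4 z) (hμ z)).trans
    (h α β K E F h1 h2 h3)

lemma ach_zero (acc : X → Y → A → B → Bool) : Ach acc fun _ => 0 := by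
  refine ⟨Unit, Unit, inferInstance, inferInstance, inferInstance, inferInstance, 1,
    fun _ _ => 0, fun _ _ => 0, ?_, fun _ => ⟨fun _ => PosSemidef.zero, ?_⟩,
    fun _ => ⟨fun _ => PosSemidef.zero, ?_⟩, fun z => ?_⟩
  · simp [fn2, rt]
  · simpa using PosSemidef.one
  · simpa using PosSemidef.one
  · exact win_nonneg _ _ (fun _ => PosSemidef.zero) (fun _ => PosSemidef.zero)

lemma HV.nonneg {μ : X × Y → ℝ} {acc : X → Y → A → B → Bool} {v : ℝ} (h : HV μ acc v)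
    (hμ : ∀ z, 0 ≤ μ z) : 0 ≤ v := by
  simpa using h.ach hμ (ach_zero acc)

variable {α β γ δ : Type} [Fintype α] [Fintype β] [Fintype γ] [Fintype δ]
  [DecidableEq α] [DecidableEq β] [DecidableEq γ] [DecidableEq δ]

lemma tr_mul_im {M N : Matrix α α ℂ} (hM : M.PosSemidef) (hN : N.PosSemidef) :
    (M * N).trace.im = 0 := by
  obtain ⟨C, rfl⟩ := exists_fac hM
  rw [Matrix.mul_assoc, trace_mul_comm]
  exact (Complex.nonneg_iff.mp (hN.mul_mul_conjTranspose_same C).trace_nonneg).2.symm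

lemma qf_kron (K : Matrix α β ℂ) (K' : Matrix γ δ ℂ) {E : Matrix α α ℂ} {F : Matrix β β ℂ}
    (E' : Matrix γ γ ℂ) (F' : Matrix δ δ ℂ) (hE : E.PosSemidef) (hF : F.PosSemidef) :
    qf (K ⊗ₖ K') (E ⊗ₖ E') (F ⊗ₖ F') = qf K E F * qf K' E' F' := by
  simp only [qf, rt, conjTranspose_kronecker, ← mul_kronecker_mul, trace_kronecker, Complex.mul_re]
  rw [tr_mul_im (hE.conjTranspose_mul_mul_same K) hF]; ring

lemma sum_kron_left {ι : Type} (s : Finset ι) (M : ι → Matrix α α ℂ) (N : Matrix γ γ ℂ) :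
    ∑ i ∈ s, M i ⊗ₖ N = (∑ i ∈ s, M i) ⊗ₖ N := by
  ext ⟨i, j⟩ ⟨k, l⟩; simp [Matrix.sum_apply, Finset.sum_mul]
lemma sum_kron_right {ι : Type} (s : Finset ι) (M : Matrix α α ℂ) (N : ι → Matrix γ γ ℂ) :
    ∑ i ∈ s, M ⊗ₖ N i = M ⊗ₖ (∑ i ∈ s, N i) := by
  ext ⟨i, j⟩ ⟨k, l⟩; simp [Matrix.sum_apply, Finset.mul_sum]

lemma subP_step {E : A → Matrix α α ℂ} {R : Matrix α α ℂ} {E' : A → Matrix γ γ ℂ}
    (hE : ∀ a, (E a).PosSemidef) (hR : R.PosSemidef) (hER : (1 - ∑ a, E a - R).PosSemidef)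
    (hE' : SubP E') : SubP fun a => E a ⊗ₖ (1 : Matrix γ γ ℂ) + R ⊗ₖ E' a := by
  refine ⟨fun a => ((hE a).kronecker PosSemidef.one).add (hR.kronecker (hE'.1 a)), ?_⟩
  have e : (1 : Matrix (α × γ) (α × γ) ℂ) - ∑ a, (E a ⊗ₖ (1 : Matrix γ γ ℂ) + R ⊗ₖ E' a) =
      (1 - ∑ a, E a - R) ⊗ₖ (1 : Matrix γ γ ℂ) + R ⊗ₖ (1 - ∑ a, E' a) := by
    rw [Finset.sum_add_distrib, sum_kron_left, sum_kron_right, ← one_kronecker_one]
    ext ⟨i, j⟩ ⟨k, l⟩
    simp only [Matrix.sub_apply, Matrix.add_apply, kroneckerMap_apply]; ring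
  rw [e]
  exact (hER.kronecker PosSemidef.one).add (hR.kronecker hE'.2)

lemma ach_step (acc : X → Y → A → B → Bool) (K : Matrix α β ℂ) (hK : fn2 K = 1)
    (E : X → A → Matrix α α ℂ) (F : Y → B → Matrix β β ℂ) (R : X → Matrix α α ℂ)
    (S : Y → Matrix β β ℂ) (hE : ∀ x a, (E x a).PosSemidef) (hF : ∀ y b, (F y b).PosSemidef)
    (hR : ∀ x, (R x).PosSemidef) (hS : ∀ y, (S y).PosSemidef)
    (hER : ∀ x, (1 - ∑ a, E x a - R x).PosSemidef) (hFS : ∀ y, (1 - ∑ b, F y b - S y).PosSemidef)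
    {s : X × Y → ℝ} (hs : Ach acc s) :
    Ach acc fun z => win (acc z.1 z.2) K (E z.1) (F z.2) + qf K (R z.1) (S z.2) * s z := by
  obtain ⟨γ, δ, _, _, _, _, K', E', F', h1, h2, h3, h4⟩ := hs
  refine ⟨α × γ, β × δ, inferInstance, inferInstance, inferInstance, inferInstance, K ⊗ₖ K',
    fun x a => E x a ⊗ₖ (1 : Matrix γ γ ℂ) + R x ⊗ₖ E' x a,
    fun y b => F y b ⊗ₖ (1 : Matrix δ δ ℂ) + S y ⊗ₖ F' y b, ?_,
    fun x => subP_step (hE x) (hR x) (hER x) (h2 x),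
    fun y => subP_step (hF y) (hS y) (hFS y) (h3 y), fun z => ?_⟩
  · rw [← qf_one_one, ← one_kronecker_one, ← one_kronecker_one,
      qf_kron _ _ _ _ PosSemidef.one PosSemidef.one, qf_one_one, qf_one_one, hK, h1, one_mul]
  · have hq := qf_nonneg K (hR z.1) (hS z.2)
    refine (add_le_add_right (mul_le_mul_of_nonneg_left (h4 z) hq) _).trans ?_
    simp only [win, Finset.mul_sum, ← Finset.sum_add_distrib]
    refine Finset.sum_le_sum fun a _ => Finset.sum_le_sum fun b _ => ?_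
    split_ifs
    · simp only [qf_add_left, qf_add_right]
      rw [qf_kron _ _ _ _ (hE _ _) (hF _ _), qf_kron _ _ _ _ (hR _) (hS _), qf_one_one, h1, mul_one]
      have a1 := qf_nonneg (K ⊗ₖ K') ((hE z.1 a).kronecker (PosSemidef.one (n := γ)))
        ((hS z.2).kronecker ((h3 z.2).1 b))
      have a2 := qf_nonneg (K ⊗ₖ K') ((hR z.1).kronecker ((h2 z.1).1 a))
        ((hF z.2 b).kronecker (PosSemidef.one (n := δ)))
      linarith
    · simp

/-- The retry lemma, normalised form. -/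
lemma retry0 {μ : X × Y → ℝ} {acc : X → Y → A → B → Bool} {v : ℝ} (h : HV μ acc v)
    (hμ : ∀ z, 0 ≤ μ z) (K : Matrix α β ℂ) (hK : fn2 K = 1)
    (E : X → A → Matrix α α ℂ) (F : Y → B → Matrix β β ℂ) (R : X → Matrix α α ℂ)
    (S : Y → Matrix β β ℂ) (hE : ∀ x a, (E x a).PosSemidef) (hF : ∀ y b, (F y b).PosSemidef)
    (hR : ∀ x, (R x).PosSemidef) (hS : ∀ y, (S y).PosSemidef)
    (hER : ∀ x, (1 - ∑ a, E x a - R x).PosSemidef) (hFS : ∀ y, (1 - ∑ b, F y b - S y).PosSemidef)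
    (d : X × Y → ℝ) (hd0 : ∀ z, 0 < d z) (hd : ∀ z, 1 - qf K (R z.1) (S z.2) ≤ d z) :
    ∑ z, μ z * (win (acc z.1 z.2) K (E z.1) (F z.2) / d z) ≤ v := by
  set w : X × Y → ℝ := fun z => win (acc z.1 z.2) K (E z.1) (F z.2) with hw
  set g : X × Y → ℝ := fun z => max (1 - d z) 0 with hg
  have hw0 : ∀ z, 0 ≤ w z := fun z => win_nonneg _ _ (hE _) (hF _)
  have hg0 : ∀ z, 0 ≤ g z := fun z => le_max_right _ _
  have hg1 : ∀ z, g z < 1 := fun z => max_lt (by linarith [hd0 z]) one_pos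
  have hgf : ∀ z, g z ≤ qf K (R z.1) (S z.2) := fun z =>
    max_le (by linarith [hd z]) (qf_nonneg K (hR _) (hS _))
  have key : ∀ T : ℕ, Ach acc fun z => w z / (1 - g z) * (1 - g z ^ T) := by
    intro T
    induction T with
    | zero => simpa using ach_zero acc
    | succ T ih =>
      obtain ⟨γ, δ, _, _, _, _, K', E', F', h1, h2, h3, h4⟩ :=
        ach_step acc K hK E F R S hE hF hR hS hER hFS ih
      refine ⟨γ, δ, _, _, _, _, K', E', F', h1, h2, h3, fun z => le_trans ?_ (h4 z)⟩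
      have p1 : 0 < 1 - g z := by linarith [hg1 z]
      have p2 : 0 ≤ w z / (1 - g z) * (1 - g z ^ T) :=
        mul_nonneg (div_nonneg (hw0 z) p1.le) (by
          have := pow_le_one₀ (hg0 z) (hg1 z).le (n := T); linarith)
      have p3 := mul_le_mul_of_nonneg_right (hgf z) p2
      have e : w z / (1 - g z) * (1 - g z ^ (T + 1)) =
          w z + g z * (w z / (1 - g z) * (1 - g z ^ T)) := by field_simp; ring
      show w z / (1 - g z) * (1 - g z ^ (T + 1)) ≤ w z + _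
      rw [e]; linarith
  have lim : Filter.Tendsto (fun T : ℕ => ∑ z, μ z * (w z / (1 - g z) * (1 - g z ^ T)))
      Filter.atTop (nhds (∑ z, μ z * (w z / (1 - g z) * (1 - 0)))) := by
    refine tendsto_finsetSum _ fun z _ => ?_
    refine Filter.Tendsto.const_mul _ (Filter.Tendsto.const_mul _ ?_)
    exact Filter.Tendsto.const_sub _ (tendsto_pow_atTop_nhds_zero_of_lt_one (hg0 z) (hg1 z))
  have hle := le_of_tendsto' lim fun T => h.ach hμ (key T)
  refine le_trans (Finset.sum_le_sum fun z _ => mul_le_mul_of_nonneg_left ?_ (hμ z)) hle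
  rw [sub_zero, mul_one]
  refine div_le_div_of_nonneg_left (hw0 z) (by linarith [hg1 z]) ?_
  have : 1 - d z ≤ g z := le_max_left _ _
  linarith

/-- The retry lemma, Kraus form, unnormalised. -/
lemma retry {μ : X × Y → ℝ} {acc : X → Y → A → B → Bool} {v : ℝ} (h : HV μ acc v)
    (hμ : ∀ z, 0 ≤ μ z) (K : Matrix α β ℂ) (T : X → Matrix γ α ℂ) (S : Y → Matrix δ β ℂ)
    (hT : ∀ x, Contr (T x)) (hS : ∀ y, Contr (S y))
    (E : X → A → Matrix γ γ ℂ) (F : Y → B → Matrix δ δ ℂ) (hE : ∀ x, SubP (E x))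
    (hF : ∀ y, SubP (F y)) (d : X × Y → ℝ) (hd0 : ∀ z, 0 < d z)
    (hd : ∀ z, fn2 (T z.1 * K) + fn2 (K * (S z.2)ᴴ) - fn2 (T z.1 * K * (S z.2)ᴴ) ≤ d z) :
    ∑ z, μ z * (win (acc z.1 z.2) (T z.1 * K * (S z.2)ᴴ) (E z.1) (F z.2) / d z) ≤ v := by
  by_cases hK : fn K = 0
  · rw [fn_eq_zero hK]
    simp only [Matrix.mul_zero, Matrix.zero_mul, win, qf_zero, ite_self, Finset.sum_const_zero,
      zero_div, mul_zero]
    exact h.nonneg hμ
  have hp : 0 < fn K := lt_of_le_of_ne (fn_nonneg K) (Ne.symm hK)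
  set c : ℝ := (fn K)⁻¹ with hc
  have hc0 : 0 < c := inv_pos.mpr hp
  have hK1 : fn2 (c • K) = 1 := by rw [fn2_smul, ← fn_sq, hc]; field_simp
  have := retry0 h hμ (c • K) hK1 (fun x a => (T x)ᴴ * E x a * T x)
    (fun y b => (S y)ᴴ * F y b * S y) (fun x => 1 - (T x)ᴴ * T x) (fun y => 1 - (S y)ᴴ * S y)
    (fun x a => ((hE x).1 a).conjTranspose_mul_mul_same _)
    (fun y b => ((hF y).1 b).conjTranspose_mul_mul_same _) hT hS
    (fun x => by
      have := (hE x).2.conjTranspose_mul_mul_same (T x)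
      rw [Matrix.mul_sub, Matrix.sub_mul, Matrix.mul_one, Matrix.mul_sum, Matrix.sum_mul] at this
      convert this using 1; abel)
    (fun y => by
      have := (hF y).2.conjTranspose_mul_mul_same (S y)
      rw [Matrix.mul_sub, Matrix.sub_mul, Matrix.mul_one, Matrix.mul_sum, Matrix.sum_mul] at this
      convert this using 1; abel)
    (fun z => c ^ 2 * d z) (fun z => mul_pos (pow_pos hc0 2) (hd0 z))
    (fun z => by
      have e1 : fn2 (T z.1 * K) = qf K ((T z.1)ᴴ * T z.1) 1 := by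
        have := fn2_kraus (T z.1) K (1 : Matrix β β ℂ); simpa using this
      have e2 : fn2 (K * (S z.2)ᴴ) = qf K 1 ((S z.2)ᴴ * S z.2) := by
        have := fn2_kraus (1 : Matrix α α ℂ) K (S z.2); simpa using this
      have e3 := fn2_kraus (T z.1) K (S z.2)
      have h5 := mul_le_mul_of_nonneg_left (hd z) (sq_nonneg c)
      rw [e1, e2, e3] at h5
      simp only [qf_sub_left, qf_sub_right, qf_one_one, hK1]
      simp only [qf_smul]
      linarith)
  refine le_trans (le_of_eq ?_) this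
  refine Finset.sum_congr rfl fun z _ => ?_
  rw [win_smul, win_kraus]
  have := hd0 z
  field_simp

end Crest.Agent.H5.PR
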