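import Crest.Agent.H5.PR.A2

set_option autoImplicit false
set_option linter.unusedSectionVars false

namespace Crest.Agent.H5.PR

open Matrix
open scoped ComplexOrder MatrixOrder BigOperators Kronecker

/-! ### scalar tent windows -/

/-- window amplitude -/
noncomputable def tent (b lam : ℝ) (l : ℤ) : ℝ :=
  if lam = 0 then 0 else √(max 0 (1 - |Real.log |lam| / b - l|))

lemma tent_nonneg (b lam : ℝ) (l : ℤ) : 0 ≤ tent b lam l := by
  unfold tent; split_ifs
  · exact le_rfl
  · exact Real.sqrt_nonneg _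

lemma tent_sq {b lam : ℝ} (h : lam ≠ 0) (l : ℤ) :
    tent b lam l ^ 2 = max 0 (1 - |Real.log |lam| / b - l|) := by
  rw [tent, if_neg h, Real.sq_sqrt (le_max_left _ _)]

lemma tent_eq_zero {b lam : ℝ} {l : ℤ} (h1 : l ≠ ⌊Real.log |lam| / b⌋)
    (h2 : l ≠ ⌊Real.log |lam| / b⌋ + 1) : tent b lam l = 0 := by
  unfold tent; split_ifs
  · rfl
  · set u := Real.log |lam| / b
    have a1 := Int.floor_le u
    have a2 := Int.lt_floor_add_one u
    have : 1 ≤ |u - l| := by
      rcases lt_or_gt_of_ne h1 with h | h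
      · have : (l : ℝ) + 1 ≤ ⌊u⌋ := by exact_mod_cast h
        rw [le_abs]; left; linarith
      · have : l ≥ ⌊u⌋ + 2 := by omega
        have : (⌊u⌋ : ℝ) + 2 ≤ l := by exact_mod_cast this
        rw [le_abs]; right; linarith
    rw [max_eq_left (by linarith), Real.sqrt_zero]

lemma tent_two {b lam : ℝ} (h : lam ≠ 0) :
    tent b lam ⌊Real.log |lam| / b⌋ ^ 2 + tent b lam (⌊Real.log |lam| / b⌋ + 1) ^ 2 = 1 := by
  rw [tent_sq h, tent_sq h]
  set u := Real.log |lam| / b
  have a1 := Int.floor_le u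
  have a2 := Int.lt_floor_add_one u
  push_cast
  rw [abs_of_nonneg (by linarith), abs_of_nonpos (by linarith), max_eq_right (by linarith),
    max_eq_right (by linarith)]
  ring

lemma sum_tent_mul (b lam : ℝ) (L : Finset ℤ) (h1 : ⌊Real.log |lam| / b⌋ ∈ L)
    (h2 : ⌊Real.log |lam| / b⌋ + 1 ∈ L) (g : ℤ → ℝ) :
    ∑ l ∈ L, tent b lam l * g l = tent b lam ⌊Real.log |lam| / b⌋ * g ⌊Real.log |lam| / b⌋ +
      tent b lam (⌊Real.log |lam| / b⌋ + 1) * g (⌊Real.log |lam| / b⌋ + 1) := by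
  rw [← Finset.sum_pair (f := fun l => tent b lam l * g l) (by omega)]
  symm
  refine Finset.sum_subset (by
    intro x hx; simp only [Finset.mem_insert, Finset.mem_singleton] at hx
    rcases hx with rfl | rfl <;> assumption) ?_
  intro l _ hl
  simp only [Finset.mem_insert, Finset.mem_singleton, not_or] at hl
  rw [tent_eq_zero hl.1 hl.2, zero_mul]

lemma sum_tent_sq (b lam : ℝ) (L : Finset ℤ) (h1 : ⌊Real.log |lam| / b⌋ ∈ L)
    (h2 : ⌊Real.log |lam| / b⌋ + 1 ∈ L) : ∑ l ∈ L, tent b lam l * tent b lam l ≤ 1 := by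
  by_cases h : lam = 0
  · simp [tent, h]
  · rw [sum_tent_mul b lam L h1 h2, ← sq, ← sq, tent_two h]

lemma tent_supp {b lam : ℝ} (hb : 0 < b) {l : ℤ} (h : tent b lam l ≠ 0) :
    Real.exp (-b) * |lam| ≤ Real.exp (b * l) ∧ Real.exp (b * l) ≤ Real.exp b * |lam| := by
  have h0 : lam ≠ 0 := by rintro rfl; simp [tent] at h
  have h1 : |Real.log |lam| / b - l| < 1 := by
    by_contra hc
    apply h
    rw [tent, if_neg h0, max_eq_left (by linarith), Real.sqrt_zero]
  have hp : 0 < |lam| := abs_pos.mpr h0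
  rw [abs_lt] at h1
  have e : Real.log |lam| = Real.log |lam| / b * b := by field_simp
  rw [← Real.exp_log hp, ← Real.exp_add, ← Real.exp_add]
  constructor <;> apply Real.exp_le_exp.mpr <;> nlinarith

lemma sum_tent_J_sq {b : ℝ} (hb : 0 < b) (lam : ℝ) (L : Finset ℤ) (h1 : ⌊Real.log |lam| / b⌋ ∈ L)
    (h2 : ⌊Real.log |lam| / b⌋ + 1 ∈ L) :
    ∑ l ∈ L, (Real.exp (b * l) * tent b lam l) * (Real.exp (b * l) * tent b lam l) ≤
      Real.exp (2 * b) * (lam * lam) := by
  have := sum_tent_sq b lam L h1 h2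
  calc _ ≤ ∑ l ∈ L, Real.exp (2 * b) * (lam * lam) * (tent b lam l * tent b lam l) := by
        refine Finset.sum_le_sum fun l _ => ?_
        by_cases h : tent b lam l = 0
        · simp [h]
        · have a := (tent_supp hb h).2
          have a2 : Real.exp (b * l) * Real.exp (b * l) ≤ Real.exp (2 * b) * (lam * lam) := by
            have := mul_self_le_mul_self (Real.exp_pos _).le a
            rw [two_mul, Real.exp_add, ← abs_mul_abs_self lam]; linarith
          have a3 := mul_self_nonneg (tent b lam l)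
          nlinarith
    _ ≤ _ := by
        rw [← Finset.mul_sum]
        have : 0 ≤ Real.exp (2 * b) * (lam * lam) :=
          mul_nonneg (Real.exp_pos _).le (mul_self_nonneg _)
        nlinarith

lemma log_gap {b : ℝ} (hb : 0 < b) (hb1 : b ≤ 1) (lam lam' : ℝ) (h' : lam' ≠ 0) {m : ℝ}
    (hm1 : m ≤ 1) (hm2 : lam ≠ 0 → m ≤ 2 * |Real.log |lam| / b - Real.log |lam'| / b|) :
    |lam'| * m ≤ 4 / b * |lam - lam'| := by
  have hp : 0 < |lam'| := abs_pos.mpr h'
  have hd := abs_abs_sub_abs_le_abs_sub lam lam'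
  have h4 : 4 ≤ 4 / b := by rw [le_div_iff₀ hb]; linarith
  have hn := abs_nonneg (lam - lam')
  by_cases hc : |lam'| / 2 ≤ |lam|
  · have hq : 0 < |lam| := by linarith
    have hm := hm2 (abs_pos.mp hq)
    have hl : |lam'| * |Real.log |lam| - Real.log (|lam'|)| ≤ 2 * |lam - lam'| := by
      rw [abs_le] at hd
      rcases le_total |lam| |lam'| with hle | hle
      · have e1 : Real.log |lam'| - Real.log |lam| ≤ |lam'| / |lam| - 1 := by
          rw [← Real.log_div hp.ne' hq.ne']; exact Real.log_le_sub_one_of_pos (by positivity)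
        have e0 : Real.log |lam| ≤ Real.log |lam'| := Real.log_le_log hq hle
        rw [abs_of_nonpos (sub_nonpos.mpr e0)]
        have e2 : |lam'| / |lam| - 1 = (|lam'| - |lam|) / |lam| := by field_simp
        have e3 : |lam'| * ((|lam'| - |lam|) / |lam|) ≤ 2 * (|lam'| - |lam|) := by
          rw [← mul_div_assoc, div_le_iff₀ hq]; nlinarith
        nlinarith
      · have e1 : Real.log |lam| - Real.log |lam'| ≤ |lam| / |lam'| - 1 := by
          rw [← Real.log_div hq.ne' hp.ne']; exact Real.log_le_sub_one_of_pos (by positivity)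
        have e0 : Real.log |lam'| ≤ Real.log |lam| := Real.log_le_log hp hle
        rw [abs_of_nonneg (sub_nonneg.mpr e0)]
        have e2 : |lam'| * (|lam| / |lam'| - 1) = |lam| - |lam'| := by field_simp
        nlinarith
    rw [← sub_div, abs_div, abs_of_pos hb] at hm
    calc |lam'| * m ≤ |lam'| * (2 * (|Real.log |lam| - Real.log (|lam'|)| / b)) :=
          mul_le_mul_of_nonneg_left hm hp.le
      _ = 2 / b * (|lam'| * |Real.log |lam| - Real.log (|lam'|)|) := by ring
      _ ≤ 2 / b * (2 * |lam - lam'|) := mul_le_mul_of_nonneg_left hl (by positivity)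
      _ = _ := by ring
  · rw [abs_le] at hd
    nlinarith

lemma tent_kernel {b : ℝ} (hb : 0 < b) (hb1 : b ≤ 1) (lam lam' : ℝ) (L : Finset ℤ)
    (h1 : ⌊Real.log |lam| / b⌋ ∈ L) (h2 : ⌊Real.log |lam| / b⌋ + 1 ∈ L)
    (h1' : ⌊Real.log |lam'| / b⌋ ∈ L) (h2' : ⌊Real.log |lam'| / b⌋ + 1 ∈ L) :
    |∑ l ∈ L, Real.exp (b * l) * (tent b lam l * tent b lam' l) - (|lam'|)| ≤
      2 * b * |lam'| + 4 / b * |lam - lam'| := by
  by_cases h' : lam' = 0
  · subst h'; simp [tent]; positivity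
  have hp : 0 < |lam'| := abs_pos.mpr h'
  set ov := ∑ l ∈ L, tent b lam l * tent b lam' l with hov
  have hov0 : 0 ≤ ov := Finset.sum_nonneg fun l _ => mul_nonneg (tent_nonneg _ _ _) (tent_nonneg _ _ _)
  have hov1 : ov ≤ 1 := by
    have a1 := sum_tent_sq b lam L h1 h2
    have a2 := sum_tent_sq b lam' L h1' h2'
    have : ov ≤ ∑ l ∈ L, (tent b lam l * tent b lam l + tent b lam' l * tent b lam' l) / 2 :=
      Finset.sum_le_sum fun l _ => by nlinarith [sq_nonneg (tent b lam l - tent b lam' l)]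
    rw [← Finset.sum_div, Finset.sum_add_distrib] at this
    linarith
  have hup : ∑ l ∈ L, Real.exp (b * l) * (tent b lam l * tent b lam' l) ≤
      Real.exp b * |lam'| * ov := by
    rw [hov, Finset.mul_sum]
    refine Finset.sum_le_sum fun l _ => ?_
    by_cases h : tent b lam' l = 0
    · simp [h]
    · exact mul_le_mul_of_nonneg_right (tent_supp hb h).2
        (mul_nonneg (tent_nonneg _ _ _) (tent_nonneg _ _ _))
  have hlo : Real.exp (-b) * |lam'| * ov ≤
      ∑ l ∈ L, Real.exp (b * l) * (tent b lam l * tent b lam' l) := by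
    rw [hov, Finset.mul_sum]
    refine Finset.sum_le_sum fun l _ => ?_
    by_cases h : tent b lam' l = 0
    · simp [h]
    · exact mul_le_mul_of_nonneg_right (tent_supp hb h).1
        (mul_nonneg (tent_nonneg _ _ _) (tent_nonneg _ _ _))
  have hgap : |lam'| * (1 - ov) ≤ 4 / b * |lam - lam'| := by
    refine log_gap hb hb1 lam lam' h' (by linarith) fun h0 => ?_
    have one : ∀ l : ℤ, tent b lam' l * tent b lam' l - tent b lam' l * tent b lam l ≤
        |Real.log |lam| / b - Real.log |lam'| / b| := by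
      intro l
      have p1 := tent_nonneg b lam l
      have p2 := tent_nonneg b lam' l
      have p3 : tent b lam' l ^ 2 - tent b lam l ^ 2 ≤
          |Real.log |lam| / b - Real.log |lam'| / b| := by
        rw [tent_sq h0, tent_sq h']
        have q1 := abs_sub_abs_le_abs_sub (Real.log |lam| / b - l) (Real.log |lam'| / b - l)
        rw [sub_sub_sub_cancel_right] at q1
        have q2 := abs_nonneg (Real.log |lam| / b - Real.log |lam'| / b)
        have q3 := le_max_left 0 (1 - |Real.log |lam| / b - l|)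
        have q4 := le_max_right 0 (1 - |Real.log |lam| / b - l|)
        rcases le_total 0 (1 - |Real.log |lam'| / b - l|) with q | q
        · rw [max_eq_right q]; linarith
        · rw [max_eq_left q]; linarith
      rcases le_total (tent b lam' l) (tent b lam l) with q | q
      · have := abs_nonneg (Real.log |lam| / b - Real.log |lam'| / b); nlinarith
      · nlinarith
    have e : ov = ∑ l ∈ L, tent b lam' l * tent b lam l := by
      rw [hov]; exact Finset.sum_congr rfl fun l _ => mul_comm _ _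
    rw [e, sum_tent_mul b lam' L h1' h2']
    have t2 := tent_two (b := b) h'
    have o1 := one ⌊Real.log |lam'| / b⌋
    have o2 := one (⌊Real.log |lam'| / b⌋ + 1)
    nlinarith
  have e1 : Real.exp b ≤ 1 + 2 * b := by
    have := Real.exp_bound' hb.le hb1 (n := 1) one_pos
    simp at this; linarith
  have e2 : 1 - b ≤ Real.exp (-b) := by linarith [Real.add_one_le_exp (-b)]
  have hn : 0 ≤ 4 / b * |lam - lam'| := by positivity
  rw [abs_le]
  constructor
  · have : (1 - b) * |lam'| * ov ≤ Real.exp (-b) * |lam'| * ov := by gcongr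
    nlinarith [mul_nonneg hp.le hov0, mul_nonneg hb.le hp.le]
  · have : Real.exp b * |lam'| * ov ≤ (1 + 2 * b) * |lam'| * 1 := by gcongr
    nlinarith

variable {α β γ δ : Type} [Fintype α] [Fintype β] [Fintype γ] [Fintype δ]
  [DecidableEq α] [DecidableEq β] [DecidableEq γ] [DecidableEq δ]

/-! ### block rows -/

/-- horizontal concatenation of a family of matrices -/
def rowcat {L : Type} (P : L → Matrix α γ ℂ) : Matrix α (γ × L) ℂ := fun p q => P q.2 p q.1

lemma rowcat_mul_bd {L : Type} [Fintype L] [DecidableEq L] (P : L → Matrix α γ ℂ)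
    (K : L → Matrix γ δ ℂ) : rowcat P * blockDiagonal K = rowcat fun l => P l * K l := by
  ext p ⟨q, l⟩
  simp [rowcat, Matrix.mul_apply, Fintype.sum_prod_type, blockDiagonal_apply]

lemma rowcat_mul_adj {L : Type} [Fintype L] (P : L → Matrix α γ ℂ) (Q : L → Matrix β γ ℂ) :
    rowcat P * (rowcat Q)ᴴ = ∑ l, P l * (Q l)ᴴ := by
  ext p q
  simp [rowcat, Matrix.mul_apply, Fintype.sum_prod_type_right, Matrix.sum_apply]

lemma fn2_rowcat {L : Type} [Fintype L] [DecidableEq L] (P : L → Matrix α γ ℂ) :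
    fn2 (rowcat P) = rt (∑ l, P l * (P l)ᴴ) := by
  rw [fn2, rt_comm, rowcat_mul_adj]

lemma bd_mul_adj {L : Type} [Fintype L] [DecidableEq L] (P : L → Matrix α δ ℂ)
    (K : L → Matrix γ δ ℂ) :
    blockDiagonal K * (rowcat P)ᴴ = (rowcat fun l => P l * (K l)ᴴ)ᴴ := by
  rw [← rowcat_mul_bd, conjTranspose_mul, blockDiagonal_conjTranspose]
  simp

lemma fn2_contr_le {T : Matrix γ α ℂ} {S : Matrix δ β ℂ} (hT : Contr T) (hS : Contr S)
    (K : Matrix α β ℂ) : fn2 (T * K * Sᴴ) ≤ fn2 K := by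
  rw [fn2_kraus, ← qf_one_one]
  exact (qf_le_left K hT (posSemidef_conjTranspose_mul_self S)).trans
    (qf_le_right K PosSemidef.one hS)

/-! ### double operator sums -/

/-- Schur multiplier in the two eigenbases -/
noncomputable def dop (U V : Matrix α α ℂ) (κ : α → α → ℝ) : Matrix α α ℂ :=
  U * (Matrix.of fun j k => (κ j k : ℂ) * (Uᴴ * V) j k) * Vᴴ

lemma sp_mul_sp (U V : Matrix α α ℂ) (f g : α → ℝ) :
    sp U f * sp V g = dop U V fun j k => f j * g k := by
  have : dg f * (Uᴴ * V) * dg g = Matrix.of fun j k => ((f j * g k : ℝ) : ℂ) * (Uᴴ * V) j k := by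
    ext j k; simp [dg, diagonal_mul, mul_diagonal]; ring
  rw [dop, ← this]; simp only [sp, Matrix.mul_assoc]

lemma dop_sub (U V : Matrix α α ℂ) (κ κ' : α → α → ℝ) :
    dop U V κ - dop U V κ' = dop U V fun j k => κ j k - κ' j k := by
  simp only [dop, ← Matrix.sub_mul, ← Matrix.mul_sub]; congr 2
  ext j k; simp; ring

lemma dop_sum {ι : Type} (s : Finset ι) (U V : Matrix α α ℂ) (κ : ι → α → α → ℝ) :
    ∑ l ∈ s, dop U V (κ l) = dop U V fun j k => ∑ l ∈ s, κ l j k := by
  simp only [dop, ← Matrix.sum_mul, ← Matrix.mul_sum]; congr 2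
  ext j k; simp [Matrix.sum_apply, Finset.sum_mul]

lemma fn2_dop {U V : Matrix α α ℂ} (hU : Uni U) (hV : Uni V) (κ : α → α → ℝ) :
    fn2 (dop U V κ) = ∑ p : α × α, κ p.1 p.2 ^ 2 * ‖(Uᴴ * V) p.1 p.2‖ ^ 2 := by
  rw [dop, fn2_kraus, hU.1, hV.1, qf_one_one, fn2_eq_sum]
  refine Finset.sum_congr rfl fun p _ => ?_
  simp [mul_pow]

lemma sp_eq_dop_left {U V : Matrix α α ℂ} (hV : Uni V) (f : α → ℝ) :
    sp U f = dop U V fun j _ => f j := by
  have := sp_mul_sp U V f fun _ => 1
  rw [sp_one hV, Matrix.mul_one] at this; simpa using this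
lemma sp_eq_dop_right {U V : Matrix α α ℂ} (hU : Uni U) (g : α → ℝ) :
    sp V g = dop U V fun _ k => g k := by
  have := sp_mul_sp U V (fun _ => 1) g
  rw [sp_one hU, Matrix.one_mul] at this; simpa using this

/-- Hermitian dilation -/
def hd (M : Matrix α β ℂ) : Matrix (α ⊕ β) (α ⊕ β) ℂ := fromBlocks 0 M Mᴴ 0

lemma hd_herm (M : Matrix α β ℂ) : (hd M).IsHermitian := by
  simp [hd, IsHermitian, fromBlocks_conjTranspose]

lemma hd_sub (M N : Matrix α β ℂ) : hd M - hd N = hd (M - N) := by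
  ext (i | i) (j | j) <;> simp [hd]

lemma fn2_hd (M : Matrix α β ℂ) : fn2 (hd M) = 2 * fn2 M := by
  have h := fn2_conjTranspose M
  rw [fn2_eq_sum] at h
  rw [fn2_eq_sum, two_mul]
  nth_rewrite 1 [← h]
  rw [fn2_eq_sum]
  simp [Fintype.sum_prod_type, hd, add_comm]

/-- the two coordinate projections -/
def iA (α β : Type) [DecidableEq α] : Matrix α (α ⊕ β) ℂ := fromCols 1 0
/-- the two coordinate projections -/
def iB (α β : Type) [DecidableEq β] : Matrix β (α ⊕ β) ℂ := fromCols 0 1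

lemma iA_adj : iA α β * (iA α β)ᴴ = 1 := by
  simp [iA, conjTranspose_fromCols_eq_fromRows_conjTranspose, fromCols_mul_fromRows]
lemma iB_adj : iB α β * (iB α β)ᴴ = 1 := by
  simp [iB, conjTranspose_fromCols_eq_fromRows_conjTranspose, fromCols_mul_fromRows]
lemma iA_hd_iB (M : Matrix α β ℂ) : iA α β * hd M * (iB α β)ᴴ = M := by
  simp [iA, iB, hd, conjTranspose_fromCols_eq_fromRows_conjTranspose, fromCols_mul_fromRows,
    fromCols_mul_fromBlocks]
lemma iA_hd_sq (M : Matrix α β ℂ) : iA α β * (hd M * hd M) * (iA α β)ᴴ = M * Mᴴ := by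
  simp [iA, hd, conjTranspose_fromCols_eq_fromRows_conjTranspose, fromCols_mul_fromRows,
    fromCols_mul_fromBlocks, fromBlocks_multiply]
lemma iB_hd_sq (M : Matrix α β ℂ) : iB α β * (hd M * hd M) * (iB α β)ᴴ = Mᴴ * M := by
  simp [iB, hd, conjTranspose_fromCols_eq_fromRows_conjTranspose, fromCols_mul_fromRows,
    fromCols_mul_fromBlocks, fromBlocks_multiply]

lemma sum_sp_adj {L : Type} [Fintype L] (I : Matrix α γ ℂ)
    {U : Matrix γ γ ℂ} (hU : Uni U) (f : L → γ → ℝ) :
    ∑ l, I * sp U (f l) * (I * sp U (f l))ᴴ = I * sp U (fun j => ∑ l, f l j * f l j) * Iᴴ := by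
  rw [← sp_sum Finset.univ U fun l j => f l j * f l j, Matrix.mul_sum, Matrix.sum_mul]
  refine Finset.sum_congr rfl fun l _ => ?_
  rw [conjTranspose_mul, sp_conjTranspose, ← sp_mul hU (f l) (f l)]; simp only [Matrix.mul_assoc]

lemma contr_win {L : Type} [Fintype L] [DecidableEq L] {I : Matrix α γ ℂ} (hI : I * Iᴴ = 1)
    {U : Matrix γ γ ℂ} (hU : Uni U) (f : L → γ → ℝ) (hf : ∀ j, ∑ l, f l j * f l j ≤ 1) :
    Contr (rowcat fun l => I * sp U (f l)) := by
  apply contr_of_adj
  rw [rowcat_mul_adj, sum_sp_adj I hU]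
  have := (sp_psd U (f := fun j => 1 - ∑ l, f l j * f l j)
    fun j => by linarith [hf j]).mul_mul_conjTranspose_same I
  rw [← sp_sub U (fun _ => 1), sp_one hU, Matrix.mul_sub, Matrix.sub_mul, Matrix.mul_one, hI] at this
  exact this

lemma fn2_win {L : Type} [Fintype L] [DecidableEq L] (I : Matrix α γ ℂ)
    {U : Matrix γ γ ℂ} (hU : Uni U) (f : L → γ → ℝ) (lam : γ → ℝ) (R : ℝ)
    (hf : ∀ j, ∑ l, f l j * f l j ≤ R * (lam j * lam j)) :
    fn2 (rowcat fun l => I * sp U (f l)) ≤ R * rt (I * (sp U lam * sp U lam) * Iᴴ) := by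
  rw [fn2_rowcat, sum_sp_adj I hU, sp_mul hU]
  have := rt_nonneg ((sp_psd U (f := fun j => R * (lam j * lam j) - ∑ l, f l j * f l j)
    fun j => by linarith [hf j]).mul_mul_conjTranspose_same I)
  rw [← sp_sub U (fun j => R * (lam j * lam j)), ← sp_smul U R fun j => lam j * lam j,
    Matrix.mul_sub, Matrix.sub_mul, rt_sub, Matrix.mul_smul, Matrix.smul_mul, rt_smul] at this
  linarith

/-- Quantum correlated sampling with post-selection. -/
theorem exists_cs {X Y : Type} [Fintype X] [Fintype Y] (M : X → Matrix α β ℂ)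
    (N : Y → Matrix α β ℂ) (hM : ∀ x, fn2 (M x) = 1) (hN : ∀ y, fn2 (N y) = 1) {b : ℝ}
    (hb : 0 < b) (hb1 : b ≤ 1) :
    ∃ (γ : Type) (_ : Fintype γ) (_ : DecidableEq γ) (K : Matrix γ γ ℂ) (T : X → Matrix α γ ℂ)
      (S : Y → Matrix β γ ℂ), (∀ x, Contr (T x)) ∧ (∀ y, Contr (S y)) ∧
      (∀ x, fn2 (T x * K) ≤ Real.exp (2 * b)) ∧ (∀ y, fn2 (K * (S y)ᴴ) ≤ Real.exp (2 * b)) ∧
      ∀ x y, fn2 (T x * K * (S y)ᴴ - N y) ≤ 16 * b ^ 2 + 64 / b ^ 2 * fn2 (M x - N y) := by
  classical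
  choose U lx hU hlx using fun x => exists_spec (hd_herm (M x))
  choose V ly hV hly using fun y => exists_spec (hd_herm (N y))
  set L0 : Finset ℤ := (Finset.univ.image fun p : X × (α ⊕ β) => ⌊Real.log |lx p.1 p.2| / b⌋) ∪
    (Finset.univ.image fun p : Y × (α ⊕ β) => ⌊Real.log |ly p.1 p.2| / b⌋) with hL0
  set L : Finset ℤ := L0 ∪ L0.image (· + 1) with hL
  have hx0 : ∀ x j, ⌊Real.log |lx x j| / b⌋ ∈ L0 := fun x j =>
    Finset.mem_union_left _ (Finset.mem_image.mpr ⟨(x, j), Finset.mem_univ _, rfl⟩)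
  have hy0 : ∀ y j, ⌊Real.log |ly y j| / b⌋ ∈ L0 := fun y j =>
    Finset.mem_union_right _ (Finset.mem_image.mpr ⟨(y, j), Finset.mem_univ _, rfl⟩)
  have h1 : ∀ l ∈ L0, l ∈ L := fun l hl => Finset.mem_union_left _ hl
  have h2 : ∀ l ∈ L0, l + 1 ∈ L := fun l hl =>
    Finset.mem_union_right _ (Finset.mem_image.mpr ⟨l, hl, rfl⟩)
  set sg : ℝ → ℝ := fun t => if 0 ≤ t then 1 else -1 with hsg
  have sg2 : ∀ t, sg t * sg t = 1 := fun t => by simp only [hsg]; split_ifs <;> simp
  have sga : ∀ t, sg t * |t| = t := fun t => by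
    simp only [hsg]; split_ifs with h
    · rw [abs_of_nonneg h, one_mul]
    · rw [abs_of_neg (not_le.mp h)]; ring
  have hJ : ∀ (U : Matrix (α ⊕ β) (α ⊕ β) ℂ) (f : α ⊕ β → ℝ) (c : ℝ),
      sp U f * (c • (1 : Matrix (α ⊕ β) (α ⊕ β) ℂ)) = sp U fun j => c * f j := by
    intro U f c; rw [Matrix.mul_smul, Matrix.mul_one, sp_smul]
  refine ⟨(α ⊕ β) × L, inferInstance, inferInstance,
    blockDiagonal fun l : L => Real.exp (b * (l : ℤ)) • (1 : Matrix (α ⊕ β) (α ⊕ β) ℂ),
    fun x => rowcat fun l : L => iA α β * sp (U x) fun j => tent b (lx x j) l,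
    fun y => rowcat fun l : L => iB α β * sp (V y) fun j => sg (ly y j) * tent b (ly y j) l,
    fun x => ?_, fun y => ?_, fun x => ?_, fun y => ?_, fun x y => ?_⟩
  · refine contr_win iA_adj (hU x) _ fun j => ?_
    rw [Finset.sum_coe_sort L fun l => tent b (lx x j) l * tent b (lx x j) l]
    exact sum_tent_sq _ _ _ (h1 _ (hx0 x j)) (h2 _ (hx0 x j))
  · refine contr_win iB_adj (hV y) _ fun j => ?_
    rw [Finset.sum_coe_sort L fun l =>
      sg (ly y j) * tent b (ly y j) l * (sg (ly y j) * tent b (ly y j) l)]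
    refine le_trans (le_of_eq (Finset.sum_congr rfl fun l _ => ?_))
      (sum_tent_sq _ _ _ (h1 _ (hy0 y j)) (h2 _ (hy0 y j)))
    linear_combination (tent b (ly y j) l * tent b (ly y j) l) * sg2 (ly y j)
  · rw [rowcat_mul_bd]
    simp only [Matrix.mul_assoc, hJ]
    refine (fn2_win _ (hU x) _ (lx x) (Real.exp (2 * b)) fun j => ?_).trans ?_
    · rw [Finset.sum_coe_sort L fun l =>
        Real.exp (b * l) * tent b (lx x j) l * (Real.exp (b * l) * tent b (lx x j) l)]
      exact sum_tent_J_sq hb _ _ (h1 _ (hx0 x j)) (h2 _ (hx0 x j))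
    · rw [← hlx, iA_hd_sq, rt_comm, ← fn2, hM, mul_one]
  · rw [bd_mul_adj, fn2_conjTranspose]
    simp only [conjTranspose_smul, star_trivial, conjTranspose_one, Matrix.mul_assoc, hJ]
    refine (fn2_win _ (hV y) _ (ly y) (Real.exp (2 * b)) fun j => ?_).trans ?_
    · rw [Finset.sum_coe_sort L fun l => Real.exp (b * l) * (sg (ly y j) * tent b (ly y j) l) *
        (Real.exp (b * l) * (sg (ly y j) * tent b (ly y j) l))]
      refine le_trans (le_of_eq (Finset.sum_congr rfl fun l _ => ?_))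
        (sum_tent_J_sq hb _ _ (h1 _ (hy0 y j)) (h2 _ (hy0 y j)))
      linear_combination (Real.exp (b * l) * tent b (ly y j) l *
        (Real.exp (b * l) * tent b (ly y j) l)) * sg2 (ly y j)
    · rw [← hly, iB_hd_sq, ← fn2, hN, mul_one]
  · rw [rowcat_mul_bd, rowcat_mul_adj]
    simp only [Matrix.mul_assoc, hJ]
    set κ : α ⊕ β → α ⊕ β → ℝ := fun j k => (∑ l : L, Real.exp (b * (l : ℤ)) * tent b (lx x j) l *
      (sg (ly y k) * tent b (ly y k) l)) - ly y k with hκ
    have e : ∑ l : L, iA α β * ((sp (U x) fun j => Real.exp (b * (l : ℤ)) * tent b (lx x j) l) *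
        (iB α β * sp (V y) fun j => sg (ly y j) * tent b (ly y j) l)ᴴ) - N y =
        iA α β * dop (U x) (V y) κ * (iB α β)ᴴ := by
      rw [hκ, ← dop_sub, ← dop_sum, ← sp_eq_dop_right (hU x), ← hly, Matrix.mul_sub,
        Matrix.sub_mul, iA_hd_iB, Matrix.mul_sum, Matrix.sum_mul]
      congr 1
      refine Finset.sum_congr rfl fun l _ => ?_
      rw [conjTranspose_mul, sp_conjTranspose, ← sp_mul_sp]; simp only [Matrix.mul_assoc]
    rw [e]
    refine (fn2_contr_le (contr_of_adj (by rw [iA_adj, sub_self]; exact PosSemidef.zero))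
      (contr_of_adj (by rw [iB_adj, sub_self]; exact PosSemidef.zero)) _).trans ?_
    have f1 : fn2 (hd (N y)) = 2 := by rw [fn2_hd, hN]; norm_num
    have f2 := fn2_hd (M x - N y)
    rw [hly, sp_eq_dop_right (hU x), fn2_dop (hU x) (hV y)] at f1
    rw [← hd_sub, hly, hlx, sp_eq_dop_right (V := V y) (hU x), sp_eq_dop_left (U := U x) (hV y),
      dop_sub, fn2_dop (hU x) (hV y)] at f2
    rw [fn2_dop (hU x) (hV y)]
    have key : ∀ j k, κ j k ^ 2 ≤ 8 * b ^ 2 * ly y k ^ 2 + 32 / b ^ 2 * (lx x j - ly y k) ^ 2 := by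
      intro j k
      have t := tent_kernel hb hb1 (lx x j) (ly y k) L (h1 _ (hx0 x j)) (h2 _ (hx0 x j))
        (h1 _ (hy0 y k)) (h2 _ (hy0 y k))
      have e1 : κ j k = sg (ly y k) * (∑ l ∈ L, Real.exp (b * l) *
          (tent b (lx x j) l * tent b (ly y k) l) - |ly y k|) := by
        simp only [hκ]
        rw [mul_sub, sga, Finset.mul_sum, Finset.sum_coe_sort L fun l =>
          Real.exp (b * l) * tent b (lx x j) l * (sg (ly y k) * tent b (ly y k) l)]
        congr 1
        exact Finset.sum_congr rfl fun l _ => by ring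
      have e2 : κ j k ^ 2 = |∑ l ∈ L, Real.exp (b * l) *
          (tent b (lx x j) l * tent b (ly y k) l) - (|ly y k|)| ^ 2 := by
        rw [e1, mul_pow, sq (sg _), sg2, one_mul, sq_abs]
      rw [e2]
      refine (pow_le_pow_left₀ (abs_nonneg _) t 2).trans ((sq_add_le _ _ 1 one_pos).trans
        (le_of_eq ?_))
      rw [mul_pow, mul_pow, mul_pow, sq_abs, sq_abs]; field_simp; ring
    calc _ ≤ ∑ p : (α ⊕ β) × (α ⊕ β), (8 * b ^ 2 * ly y p.2 ^ 2 +
          32 / b ^ 2 * (lx x p.1 - ly y p.2) ^ 2) * ‖((U x)ᴴ * V y) p.1 p.2‖ ^ 2 :=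
          Finset.sum_le_sum fun p _ => mul_le_mul_of_nonneg_right (key _ _) (sq_nonneg _)
      _ = 8 * b ^ 2 * (∑ p : (α ⊕ β) × (α ⊕ β), ly y p.2 ^ 2 * ‖((U x)ᴴ * V y) p.1 p.2‖ ^ 2) +
          32 / b ^ 2 * (∑ p : (α ⊕ β) × (α ⊕ β),
            (lx x p.1 - ly y p.2) ^ 2 * ‖((U x)ᴴ * V y) p.1 p.2‖ ^ 2) := by
          rw [Finset.mul_sum, Finset.mul_sum, ← Finset.sum_add_distrib]
          exact Finset.sum_congr rfl fun p _ => by ring
      _ = _ := by rw [f1, f2]; ring

end Crest.Agent.H5.PR
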