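import Crest.Agent.H5.PR.A3

set_option autoImplicit false
set_option linter.unusedSectionVars false

namespace Crest.Agent.H5.PR

open Matrix
open scoped ComplexOrder MatrixOrder BigOperators Kronecker

variable {X Y A B : Type} [Fintype X] [Fintype Y] [Fintype A] [Fintype B]

/-- rounding hypothesis: nearly local families of states cannot beat `v` by much -/
def RH (μ : X × Y → ℝ) (acc : X → Y → A → B → Bool) (v L : ℝ) : Prop :=
  ∀ (α β : Type) [Fintype α] [Fintype β] [DecidableEq α] [DecidableEq β]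
    (W : X × Y → Matrix α β ℂ) (U : X → Matrix α β ℂ) (V : Y → Matrix α β ℂ)
    (E : X → A → Matrix α α ℂ) (F : Y → B → Matrix β β ℂ),
    (∀ x, SubP (E x)) → (∀ y, SubP (F y)) → ∑ z, μ z * fn2 (W z) = 1 →
      ∑ z, μ z * win (acc z.1 z.2) (W z) (E z.1) (F z.2) ≤
        v + L * ∑ z, μ z * (fn2 (W z - U z.1) + fn2 (W z - V z.2) + (fn (W z) - 1) ^ 2)

variable {α β : Type} [Fintype α] [Fintype β] [DecidableEq α] [DecidableEq β]

lemma exists_unit {μ : X × Y → ℝ} {W : X × Y → Matrix α β ℂ} (h : ∑ z, μ z * fn2 (W z) = 1) :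
    ∃ K : Matrix α β ℂ, fn K = 1 := by
  by_contra hc
  have : ∀ z, fn2 (W z) = 0 := by
    intro z
    by_contra h0
    have h1 : fn (W z) ≠ 0 := fun h1 => h0 (by rw [← fn_sq, h1]; simp)
    have hp : 0 < fn (W z) := lt_of_le_of_ne (fn_nonneg _) (Ne.symm h1)
    exact hc ⟨(fn (W z))⁻¹ • W z, by rw [fn_smul, abs_of_pos (inv_pos.mpr hp), inv_mul_cancel₀ h1]⟩
  simp [this] at h

lemma nrm_close {W U M : Matrix α β ℂ} (h : fn (M - U) = |1 - fn U|) :
    fn2 (W - M) ≤ 8 * fn2 (W - U) + 2 * (fn W - 1) ^ 2 := by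
  have h1 := fn_tri W U M
  rw [fn_sub_comm U M, h] at h1
  have h2 := abs_fn_sub W U
  have h3 : |1 - fn U| ≤ |fn W - 1| + fn (W - U) := by
    have := abs_sub_le 1 (fn W) (fn U)
    rw [abs_sub_comm 1 (fn W)] at this; linarith
  have h4 : fn (W - M) ≤ 2 * fn (W - U) + |fn W - 1| := by linarith
  rw [← fn_sq, ← fn_sq, ← sq_abs (fn W - 1)]
  refine (pow_le_pow_left₀ (fn_nonneg _) h4 2).trans ((sq_add_le _ _ 1 one_pos).trans
    (le_of_eq (by ring)))

theorem roundA {μ : X × Y → ℝ} {acc : X → Y → A → B → Bool} {v : ℝ} (h : HV μ acc v)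
    (hμ : ∀ z, 0 ≤ μ z) (hμ1 : ∑ z, μ z = 1) {η : ℝ} (hη : 0 < η) (hη1 : η ≤ 1 / 2) :
    RH μ acc (v + 79 * η) (4112 / η ^ 3) := by
  intro α β _ _ _ _ W U V E F hE hF hW
  obtain ⟨K0, hK0⟩ := exists_unit hW
  choose M hM1 hM2 using fun x => exists_nrm K0 hK0 (U x)
  choose N hN1 hN2 using fun y => exists_nrm K0 hK0 (V y)
  have hM3 : ∀ x, fn2 (M x) = 1 := fun x => by rw [← fn_sq, hM1]; simp
  have hN3 : ∀ y, fn2 (N y) = 1 := fun y => by rw [← fn_sq, hN1]; simp
  obtain ⟨γ, _, _, K, T, S, hT, hS, h1, h2, h3⟩ := exists_cs M N hM3 hN3 hη (by linarith)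
  set R := Real.exp (2 * η) with hR
  have hR1 : 1 ≤ R := Real.one_le_exp (by linarith)
  have hR2 : R ≤ 1 + 4 * η := by
    have := Real.exp_bound' (x := 2 * η) (by linarith) (by linarith) (n := 1) one_pos
    simp at this; linarith
  have hO : ∀ z : X × Y, fn2 (T z.1 * K * (S z.2)ᴴ) ≤ R := by
    intro z
    have := fn2_contr_le (T := (1 : Matrix α α ℂ)) (by simp [Contr, PosSemidef.zero]) (hS z.2)
      (T z.1 * K)
    rw [Matrix.one_mul] at this
    exact this.trans (h1 _)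
  have key := retry h hμ K T S hT hS E F hE hF (fun z => 2 * R - fn2 (T z.1 * K * (S z.2)ᴴ))
    (fun z => by linarith [hO z]) (fun z => by linarith [h1 z.1, h2 z.2])
  have pt : ∀ z : X × Y, win (acc z.1 z.2) (W z) (E z.1) (F z.2) ≤
      win (acc z.1 z.2) (T z.1 * K * (S z.2)ᴴ) (E z.1) (F z.2) /
        (2 * R - fn2 (T z.1 * K * (S z.2)ᴴ)) + 79 * η + 4112 / η ^ 3 *
        (fn2 (W z - U z.1) + fn2 (W z - V z.2) + (fn (W z) - 1) ^ 2) := by
    intro z
    set O := T z.1 * K * (S z.2)ᴴ with hOdef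
    set w := win (acc z.1 z.2) O (E z.1) (F z.2) with hw
    set s := fn2 (W z - U z.1) + fn2 (W z - V z.2) + (fn (W z) - 1) ^ 2 with hs
    have e0 := fn2_nonneg (W z - U z.1)
    have f0 := fn2_nonneg (W z - V z.2)
    have d0 := sq_nonneg (fn (W z) - 1)
    have s0 : 0 ≤ s := by positivity
    have c1 := nrm_close (W := W z) (hM2 z.1)
    have c2 := nrm_close (W := W z) (hN2 z.2)
    have c3 : fn2 (M z.1 - N z.2) ≤ 16 * s := by
      have := fn2_add_le (M z.1 - W z) (W z - N z.2) one_pos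
      rw [sub_add_sub_cancel, fn2_sub_comm (M z.1) (W z)] at this
      linarith
    have hΔ : fn2 (N z.2 - O) ≤ 16 * η ^ 2 + 1024 / η ^ 2 * s := by
      rw [fn2_sub_comm]
      refine (h3 z.1 z.2).trans ?_
      have : 64 / η ^ 2 * fn2 (M z.1 - N z.2) ≤ 64 / η ^ 2 * (16 * s) := by gcongr
      have e : 64 / η ^ 2 * (16 * s) = 1024 / η ^ 2 * s := by ring
      linarith
    have hη2 : 1 + 1 / η ≤ 2 / η := by
      rw [le_div_iff₀ hη, add_mul, one_div_mul_cancel hη.ne']; linarith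
    have hΔ2 : (1 + 1 / η) * fn2 (N z.2 - O) ≤ 32 * η + 2048 / η ^ 3 * s := by
      calc _ ≤ 2 / η * (16 * η ^ 2 + 1024 / η ^ 2 * s) :=
            mul_le_mul hη2 hΔ (fn2_nonneg _) (by positivity)
        _ = _ := by field_simp; ring
    have w0 : 0 ≤ w := win_nonneg _ _ (hE _).1 (hF _).1
    have w1 : w ≤ fn2 O := win_le _ _ (hE _) (hF _)
    have o1 : fn2 O ≤ R := hO z
    have a1 := win_add_le (acc z.1 z.2) O (N z.2 - O) (hE z.1) (hF z.2) hη
    have a2 := fn2_add_le O (N z.2 - O) hη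
    rw [add_sub_cancel] at a1 a2
    rw [hN3] at a2
    have a3 := win_add_le (acc z.1 z.2) (N z.2) (W z - N z.2) (hE z.1) (hF z.2) hη
    rw [add_sub_cancel] at a3
    have a4 : win (acc z.1 z.2) (N z.2) (E z.1) (F z.2) ≤ 1 := by
      rw [← hN3 z.2]; exact win_le _ _ (hE _) (hF _)
    have a5 : (1 + 1 / η) * fn2 (W z - N z.2) ≤ 16 / η ^ 3 * s := by
      have b1 : 2 / η ≤ 2 / η ^ 3 := by
        apply div_le_div_of_nonneg_left (by norm_num) (by positivity)
        nlinarith [mul_pos hη hη]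
      calc _ ≤ 2 / η ^ 3 * (8 * s) :=
            mul_le_mul (hη2.trans b1) (by linarith) (fn2_nonneg _) (by positivity)
        _ = _ := by ring
    have a6 : w + 1 - (2 * R - fn2 O) ≤ w / (2 * R - fn2 O) := by
      rw [le_div_iff₀ (by linarith)]
      nlinarith [mul_nonneg (show 0 ≤ 2 * R - fn2 O - 1 by linarith)
        (show 0 ≤ 2 * R - fn2 O - w by linarith)]
    have a7 : η * w ≤ 3 * η := by nlinarith
    have a8 : η * fn2 O ≤ 3 * η := by nlinarith
    have a9 : η * win (acc z.1 z.2) (N z.2) (E z.1) (F z.2) ≤ η := by nlinarith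
    have e : 4112 / η ^ 3 * s = 2 * (2048 / η ^ 3 * s) + 16 / η ^ 3 * s := by ring
    rw [e]
    linarith
  calc _ ≤ ∑ z, μ z * (win (acc z.1 z.2) (T z.1 * K * (S z.2)ᴴ) (E z.1) (F z.2) /
        (2 * R - fn2 (T z.1 * K * (S z.2)ᴴ)) + 79 * η + 4112 / η ^ 3 *
        (fn2 (W z - U z.1) + fn2 (W z - V z.2) + (fn (W z) - 1) ^ 2)) :=
        Finset.sum_le_sum fun z _ => mul_le_mul_of_nonneg_left (pt z) (hμ z)
    _ = ∑ z, μ z * (win (acc z.1 z.2) (T z.1 * K * (S z.2)ᴴ) (E z.1) (F z.2) /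
        (2 * R - fn2 (T z.1 * K * (S z.2)ᴴ))) + (∑ z, μ z) * (79 * η) + 4112 / η ^ 3 *
        ∑ z, μ z * (fn2 (W z - U z.1) + fn2 (W z - V z.2) + (fn (W z) - 1) ^ 2) := by
        rw [Finset.mul_sum, Finset.sum_mul, ← Finset.sum_add_distrib, ← Finset.sum_add_distrib]
        exact Finset.sum_congr rfl fun z _ => by ring
    _ ≤ _ := by rw [hμ1]; linarith

/-- selector of one block -/
def sel (α : Type) [DecidableEq α] {Z : Type} [DecidableEq Z] (c : Z) : Matrix α (α × Z) ℂ :=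
  rowcat fun l => if l = c then 1 else 0

lemma sel_contr {Z : Type} [Fintype Z] [DecidableEq Z] (c : Z) : Contr (sel α c) := by
  apply contr_of_adj
  rw [sel, rowcat_mul_adj, Finset.sum_eq_single c (by intro l _ h; simp [h]) (by simp)]
  simpa using PosSemidef.zero

theorem roundB [DecidableEq X] [DecidableEq Y] {μ : X × Y → ℝ} {acc : X → Y → A → B → Bool}
    {v : ℝ} (h : HV μ acc v) (hμ : ∀ z, 0 ≤ μ z) (hμ1 : ∑ z, μ z = 1)
    (cx : X → X × Y) (cy : Y → X × Y) (hc : ∀ z, 0 < μ z → cy z.2 = cx z.1) {κ : ℝ} (hκ : 0 ≤ κ)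
    (hP : ∀ (D : X × Y → X × Y → ℝ) (g : X × Y → ℝ), (∀ a, D a a = 0) → (∀ a b, 0 ≤ D a b) →
      (∀ a b c, D a c ≤ D a b + D b c) → (∀ z, 0 ≤ g z) →
      (∀ z z', 0 < μ z → 0 < μ z' → (z.1 = z'.1 ∨ z.2 = z'.2) → D z z' ≤ g z + g z') →
      ∑ z, μ z * D (cx z.1) z ^ 2 ≤ κ * ∑ z, μ z * g z ^ 2)
    {η : ℝ} (hη : 0 < η) : RH μ acc (v + η) ((1 + 1 / η) * (8 * (1 + κ))) := by
  intro α β _ _ _ _ W U V E F hE hF hW
  obtain ⟨K0, hK0⟩ := exists_unit hW
  choose C hC1 hC2 using fun z => exists_nrm K0 hK0 (W z)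
  have hC3 : ∀ z, fn2 (C z) = 1 := fun z => by rw [← fn_sq, hC1]; simp
  have f1 : ∀ c : X × Y, fn2 (sel α c * blockDiagonal C) = 1 := by
    intro c
    rw [sel, rowcat_mul_bd, fn2_rowcat, Finset.sum_eq_single c (by intro l _ h; simp [h]) (by simp)]
    simp only [if_true, Matrix.one_mul]
    rw [rt_comm, ← fn2, hC3]
  have f2 : ∀ c : X × Y, fn2 (blockDiagonal C * (sel β c)ᴴ) = 1 := by
    intro c
    rw [sel, bd_mul_adj, fn2_conjTranspose, fn2_rowcat,
      Finset.sum_eq_single c (by intro l _ h; simp [h]) (by simp)]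
    simp only [if_true, Matrix.one_mul, conjTranspose_conjTranspose]
    rw [← fn2, hC3]
  have f3 : ∀ c : X × Y, sel α c * blockDiagonal C * (sel β c)ᴴ = C c := by
    intro c
    rw [sel, sel, rowcat_mul_bd, rowcat_mul_adj,
      Finset.sum_eq_single c (by intro l _ h; simp [h]) (by simp)]
    simp
  have key := retry h hμ (blockDiagonal C) (fun x => sel α (cx x)) (fun y => sel β (cy y))
    (fun x => sel_contr _) (fun y => sel_contr _) E F hE hF (fun z => if 0 < μ z then 1 else 2)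
    (fun z => by split_ifs <;> norm_num) (fun z => by
      rw [f1, f2]
      split_ifs with hz
      · rw [hc z hz, f3, hC3]; norm_num
      · linarith [fn2_nonneg (sel α (cx z.1) * blockDiagonal C * (sel β (cy z.2))ᴴ)])
  have key2 : ∑ z, μ z * win (acc z.1 z.2) (C (cx z.1)) (E z.1) (F z.2) ≤ v := by
    refine le_trans (le_of_eq (Finset.sum_congr rfl fun z _ => ?_)) key
    rcases (hμ z).eq_or_lt with hz | hz
    · rw [← hz]; simp
    · simp only [hz, if_true, div_one]; rw [hc z hz, f3]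
  have poin := hP (fun a b => fn (W a - W b)) (fun z => max (fn (W z - U z.1)) (fn (W z - V z.2)))
    (fun a => by simp [fn_eq_sqrt, fn2, rt]) (fun a b => fn_nonneg _) (fun a b c => fn_tri _ _ _)
    (fun z => le_max_of_le_left (fn_nonneg _)) (fun z z' _ _ hz => by
      rcases hz with hz | hz
      · have := fn_tri (W z) (U z.1) (W z')
        rw [fn_sub_comm (U z.1)] at this
        have a1 := le_max_left (fn (W z - U z.1)) (fn (W z - V z.2))
        have a2 := le_max_left (fn (W z' - U z'.1)) (fn (W z' - V z'.2))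
        rw [← hz] at a2 ⊢; linarith
      · have := fn_tri (W z) (V z.2) (W z')
        rw [fn_sub_comm (V z.2)] at this
        have a1 := le_max_right (fn (W z - U z.1)) (fn (W z - V z.2))
        have a2 := le_max_right (fn (W z' - U z'.1)) (fn (W z' - V z'.2))
        rw [← hz] at a2 ⊢; linarith)
  have pt : ∀ z : X × Y, win (acc z.1 z.2) (W z) (E z.1) (F z.2) ≤
      win (acc z.1 z.2) (C (cx z.1)) (E z.1) (F z.2) + η +
        (1 + 1 / η) * (8 * fn (W (cx z.1) - W z) ^ 2 + 2 * (fn (W z) - 1) ^ 2) := by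
    intro z
    have a3 := win_add_le (acc z.1 z.2) (C (cx z.1)) (W z - C (cx z.1)) (hE z.1) (hF z.2) hη
    rw [add_sub_cancel] at a3
    have a4 : win (acc z.1 z.2) (C (cx z.1)) (E z.1) (F z.2) ≤ 1 := by
      rw [← hC3 (cx z.1)]; exact win_le _ _ (hE _) (hF _)
    have c1 := nrm_close (W := W z) (hC2 (cx z.1))
    rw [← fn_sq (W z - W _), fn_sub_comm (W z) (W _)] at c1
    have a5 := mul_le_mul_of_nonneg_left c1 (show 0 ≤ 1 + 1 / η by positivity)
    nlinarith
  have g2 : ∑ z, μ z * max (fn (W z - U z.1)) (fn (W z - V z.2)) ^ 2 ≤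
      ∑ z, μ z * (fn2 (W z - U z.1) + fn2 (W z - V z.2)) := by
    refine Finset.sum_le_sum fun z _ => mul_le_mul_of_nonneg_left ?_ (hμ z)
    rw [← fn_sq, ← fn_sq]
    rcases le_total (fn (W z - U z.1)) (fn (W z - V z.2)) with q | q
    · rw [max_eq_right q]; nlinarith [sq_nonneg (fn (W z - U z.1))]
    · rw [max_eq_left q]; nlinarith [sq_nonneg (fn (W z - V z.2))]
  have n1 : 0 ≤ ∑ z, μ z * (fn2 (W z - U z.1) + fn2 (W z - V z.2)) :=
    Finset.sum_nonneg fun z _ => mul_nonneg (hμ z) (add_nonneg (fn2_nonneg _) (fn2_nonneg _))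
  have n2 : 0 ≤ ∑ z, μ z * (fn (W z) - 1) ^ 2 :=
    Finset.sum_nonneg fun z _ => mul_nonneg (hμ z) (sq_nonneg _)
  have sp1 : ∑ z, μ z * (fn2 (W z - U z.1) + fn2 (W z - V z.2) + (fn (W z) - 1) ^ 2) =
      ∑ z, μ z * (fn2 (W z - U z.1) + fn2 (W z - V z.2)) + ∑ z, μ z * (fn (W z) - 1) ^ 2 := by
    rw [← Finset.sum_add_distrib]; exact Finset.sum_congr rfl fun z _ => by ring
  calc _ ≤ ∑ z, μ z * (win (acc z.1 z.2) (C (cx z.1)) (E z.1) (F z.2) + η +
        (1 + 1 / η) * (8 * fn (W (cx z.1) - W z) ^ 2 + 2 * (fn (W z) - 1) ^ 2)) :=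
        Finset.sum_le_sum fun z _ => mul_le_mul_of_nonneg_left (pt z) (hμ z)
    _ = ∑ z, μ z * win (acc z.1 z.2) (C (cx z.1)) (E z.1) (F z.2) + (∑ z, μ z) * η +
        (1 + 1 / η) * (8 * ∑ z, μ z * fn (W (cx z.1) - W z) ^ 2 +
          2 * ∑ z, μ z * (fn (W z) - 1) ^ 2) := by
        rw [Finset.mul_sum, Finset.mul_sum, ← Finset.sum_add_distrib, Finset.mul_sum,
          Finset.sum_mul, ← Finset.sum_add_distrib, ← Finset.sum_add_distrib]
        exact Finset.sum_congr rfl fun z _ => by ring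
    _ ≤ _ := by
        rw [hμ1, sp1, mul_assoc (1 + 1 / η)]
        have t1 := mul_le_mul_of_nonneg_left g2 hκ
        have t2 : 8 * ∑ z, μ z * fn (W (cx z.1) - W z) ^ 2 + 2 * ∑ z, μ z * (fn (W z) - 1) ^ 2 ≤
            8 * (1 + κ) * (∑ z, μ z * (fn2 (W z - U z.1) + fn2 (W z - V z.2)) +
              ∑ z, μ z * (fn (W z) - 1) ^ 2) := by nlinarith [mul_nonneg hκ n2]
        have t3 := mul_le_mul_of_nonneg_left t2 (show 0 ≤ 1 + 1 / η by positivity)
        linarith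

end Crest.Agent.H5.PR
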