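import Crest.Agent.H5.PR.A4

set_option autoImplicit false
set_option linter.unusedSectionVars false

namespace Crest.Agent.H5.PR

open Matrix MeasureTheory Set Filter
open scoped ComplexOrder MatrixOrder BigOperators Kronecker Topology

/-- `f` is integrable on `(0,∞)` with integral `a` -/
def HasI (f : ℝ → ℝ) (a : ℝ) : Prop := IntegrableOn f (Ioi 0) ∧ ∫ t in Ioi (0 : ℝ), f t = a

lemma HasI.sum {ι : Type} (s : Finset ι) {f : ι → ℝ → ℝ} {a : ι → ℝ}
    (h : ∀ i ∈ s, HasI (f i) (a i)) : HasI (fun t => ∑ i ∈ s, f i t) (∑ i ∈ s, a i) :=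
  ⟨integrable_finsetSum s fun i hi => (h i hi).1, by
    rw [integral_finsetSum s fun i hi => (h i hi).1]
    exact Finset.sum_congr rfl fun i hi => (h i hi).2⟩

lemma HasI.const_mul {f : ℝ → ℝ} {a : ℝ} (h : HasI f a) (c : ℝ) :
    HasI (fun t => c * f t) (c * a) :=
  ⟨h.1.const_mul c, by rw [integral_const_mul, h.2]⟩

lemma HasI.mono {f g : ℝ → ℝ} {a b : ℝ} (hf : HasI f a) (hg : HasI g b)
    (h : ∀ t, 0 < t → f t ≤ g t) : a ≤ b := by
  rw [← hf.2, ← hg.2]
  exact setIntegral_mono_on hf.1 hg.1 measurableSet_Ioi fun t ht => h t ht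

lemma tendsto_div_add (a c : ℝ) : Tendsto (fun t : ℝ => a / (c + t)) atTop (𝓝 0) :=
  Tendsto.div_atTop tendsto_const_nhds (tendsto_atTop_add_const_left _ _ tendsto_id)

lemma hasI_sq {a : ℝ} (ha : 0 ≤ a) : HasI (fun t => a / (a + t) * (a / (a + t))) a := by
  rcases ha.eq_or_lt with rfl | ha
  · simp [HasI]
  have hd : ∀ x ∈ Ici (0 : ℝ), HasDerivAt (fun t => -(a * a) / (a + t))
      (a / (a + x) * (a / (a + x))) x := by
    intro x hx
    have hx' : 0 < a + x := by have : 0 ≤ x := hx; linarith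
    have := ((hasDerivAt_const x (-(a * a))).fun_div ((hasDerivAt_id' x).const_add a) hx'.ne')
    refine this.congr_deriv ?_
    field_simp; ring
  have hp : ∀ x ∈ Ioi (0 : ℝ), 0 ≤ a / (a + x) * (a / (a + x)) := fun x _ => mul_self_nonneg _
  refine ⟨integrableOn_Ioi_deriv_of_nonneg' hd hp (tendsto_div_add _ _), ?_⟩
  rw [integral_Ioi_of_hasDerivAt_of_nonneg' hd hp (tendsto_div_add _ _)]
  field_simp; ring

lemma hasI_log {c : ℝ} (hc : 0 < c) (hc1 : c ≤ 1) :
    HasI (fun t => 1 / (c + t) - 1 / (1 + t)) (-Real.log c) := by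
  have hd : ∀ x ∈ Ici (0 : ℝ), HasDerivAt (fun t => Real.log (1 + (c - 1) / (1 + t)))
      (1 / (c + x) - 1 / (1 + x)) x := by
    intro x hx
    have hx0 : 0 ≤ x := hx
    have h1 : 0 < 1 + x := by linarith
    have h2 : 0 < c + x := by linarith
    have e : 1 + (c - 1) / (1 + x) = (c + x) / (1 + x) := by field_simp; ring
    have := (((hasDerivAt_const x (c - 1)).fun_div ((hasDerivAt_id' x).const_add 1)
      h1.ne').const_add 1).log (by rw [e]; positivity)
    refine this.congr_deriv ?_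
    rw [e]; field_simp; ring
  have hp : ∀ x ∈ Ioi (0 : ℝ), 0 ≤ 1 / (c + x) - 1 / (1 + x) := by
    intro x hx
    have hx0 : 0 < x := hx
    have := one_div_le_one_div_of_le (show 0 < c + x by linarith) (show c + x ≤ 1 + x by linarith)
    linarith
  have hl : Tendsto (fun t => Real.log (1 + (c - 1) / (1 + t))) atTop (𝓝 0) := by
    have := ((tendsto_div_add (c - 1) 1).const_add 1).log (by norm_num)
    simpa using this
  refine ⟨integrableOn_Ioi_deriv_of_nonneg' hd hp hl, ?_⟩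
  rw [integral_Ioi_of_hasDerivAt_of_nonneg' hd hp hl]; simp

lemma int_ker {a b : ℝ} (ha : 0 ≤ a) (hb : 0 ≤ b) :
    IntegrableOn (fun t => a / (a + t) * (b / (b + t))) (Ioi 0) := by
  refine Integrable.mono' ((hasI_sq ha).1.add (hasI_sq hb).1) ?_ ?_
  · exact Measurable.aestronglyMeasurable (by fun_prop)
  · refine ae_of_all _ fun t => ?_
    simp only [Pi.add_apply, Real.norm_eq_abs, abs_le]
    constructor <;> nlinarith [sq_nonneg (a / (a + t) - b / (b + t)),
      sq_nonneg (a / (a + t) + b / (b + t)), mul_self_nonneg (a / (a + t)),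
      mul_self_nonneg (b / (b + t))]

variable {α β γ δ : Type} [Fintype α] [Fintype β] [Fintype γ] [Fintype δ]
  [DecidableEq α] [DecidableEq β] [DecidableEq γ] [DecidableEq δ]

/-- entrywise integral -/
noncomputable def mint (G : ℝ → Matrix α β ℂ) : Matrix α β ℂ := fun p q => ∫ t in Ioi (0 : ℝ), G t p q

lemma lin_mint (l : Matrix α β ℂ →ₗ[ℂ] ℂ) {G : ℝ → Matrix α β ℂ}
    (hG : ∀ p q, IntegrableOn (fun t => G t p q) (Ioi 0)) :
    IntegrableOn (fun t => l (G t)) (Ioi 0) ∧ l (mint G) = ∫ t in Ioi (0 : ℝ), l (G t) := by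
  have e : ∀ M : Matrix α β ℂ, l M = ∑ p, ∑ q, M p q * l (single p q 1) := by
    intro M
    conv_lhs => rw [matrix_eq_sum_single M]
    simp only [map_sum]
    refine Finset.sum_congr rfl fun p _ => Finset.sum_congr rfl fun q _ => ?_
    rw [← smul_eq_mul, ← map_smul, smul_single, smul_eq_mul, mul_one]
  simp only [e (G _), e (mint G)]
  refine ⟨integrable_finsetSum _ fun p _ => integrable_finsetSum _ fun q _ => (hG p q).mul_const _,
    ?_⟩
  rw [integral_finsetSum _ fun p _ => integrable_finsetSum _ fun q _ => (hG p q).mul_const _]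
  refine Finset.sum_congr rfl fun p _ => ?_
  rw [integral_finsetSum _ fun q _ => (hG p q).mul_const _]
  refine Finset.sum_congr rfl fun q _ => ?_
  rw [integral_mul_const]; rfl

lemma mint_psd {G : ℝ → Matrix α α ℂ} (hG : ∀ p q, IntegrableOn (fun t => G t p q) (Ioi 0))
    (hp : ∀ t, (G t).PosSemidef) : (mint G).PosSemidef := by
  refine PosSemidef.of_dotProduct_mulVec_nonneg ?_ fun x => ?_
  · ext p q
    simp only [conjTranspose_apply, mint]
    rw [Complex.star_def, ← integral_conj]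
    congr 1; ext t
    exact (hp t).1.apply p q
  · let l : Matrix α α ℂ →ₗ[ℂ] ℂ :=
      { toFun := fun M => star x ⬝ᵥ (M *ᵥ x)
        map_add' := fun M N => by rw [add_mulVec, dotProduct_add]
        map_smul' := fun c M => by rw [smul_mulVec, dotProduct_smul]; rfl }
    have := (lin_mint l hG).2
    show 0 ≤ l (mint G)
    rw [this]
    exact integral_nonneg_of_ae (ae_of_all _ fun t => (hp t).dotProduct_mulVec_nonneg x)

/-- resolvent -/
noncomputable def res (t : ℝ) (B : Matrix α α ℂ) : Matrix α α ℂ := (B + t • (1 : Matrix α α ℂ))⁻¹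

/-- `B (B + t)⁻¹` -/
noncomputable def ht (t : ℝ) (B : Matrix α α ℂ) : Matrix α α ℂ := 1 - t • res t B

lemma shift_sp {U : Matrix α α ℂ} (hU : Uni U) (f : α → ℝ) (t : ℝ) :
    sp U f + t • (1 : Matrix α α ℂ) = sp U fun i => f i + t := by
  rw [← sp_one hU, sp_smul, sp_add]; simp

lemma res_sp {U : Matrix α α ℂ} (hU : Uni U) {f : α → ℝ} (hf : ∀ i, 0 ≤ f i) {t : ℝ} (h : 0 < t) :
    res t (sp U f) = sp U fun i => (f i + t)⁻¹ := by
  apply inv_eq_right_inv
  rw [shift_sp hU, sp_mul hU, ← sp_one hU]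
  congr 1; ext i
  have := hf i
  field_simp

lemma ht_sp {U : Matrix α α ℂ} (hU : Uni U) {f : α → ℝ} (hf : ∀ i, 0 ≤ f i) {t : ℝ} (h : 0 < t) :
    ht t (sp U f) = sp U fun i => f i / (f i + t) := by
  rw [ht, res_sp hU hf h, ← sp_one hU, sp_smul, sp_sub]
  congr 1; ext i
  have := hf i
  field_simp; ring

lemma exists_spec_psd {B : Matrix α α ℂ} (hB : B.PosSemidef) :
    ∃ (U : Matrix α α ℂ) (f : α → ℝ), Uni U ∧ (∀ i, 0 ≤ f i) ∧ B = sp U f := by
  obtain ⟨U, f, hU, rfl⟩ := exists_spec hB.1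
  exact ⟨U, f, hU, sp_psd_iff hU hB, rfl⟩

lemma res_prop {B : Matrix α α ℂ} (hB : B.PosSemidef) {t : ℝ} (h : 0 < t) :
    (res t B)ᴴ = res t B ∧ (B + t • (1 : Matrix α α ℂ)) * res t B = 1 ∧
      res t B * (B + t • (1 : Matrix α α ℂ)) = 1 := by
  obtain ⟨U, f, hU, hf, rfl⟩ := exists_spec_psd hB
  rw [res_sp hU hf h, shift_sp hU, sp_mul hU, sp_mul hU, ← sp_one hU]
  refine ⟨sp_conjTranspose _ _, ?_, ?_⟩ <;>
  · congr 1; ext i
    have := hf i
    field_simp

lemma ht_herm {B : Matrix α α ℂ} (hB : B.PosSemidef) {t : ℝ} (h : 0 < t) :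
    (ht t B)ᴴ = ht t B := by
  simp [ht, conjTranspose_smul, (res_prop hB h).1]

lemma gap_ineq {B C σ : Matrix α α ℂ} (hB : B.PosSemidef) (hC : C.PosSemidef) (hσ : σ.PosSemidef)
    {t : ℝ} (h : 0 < t) : rt (σ * ((ht t C - ht t B) * (ht t C - ht t B))) ≤
      rt (σ * ht t C) - rt (σ * ht t B) + t * rt (res t C * σ * res t C * (B - C)) := by
  obtain ⟨b1, b2, b3⟩ := res_prop hB h
  obtain ⟨c1, c2, c3⟩ := res_prop hC h
  set R := res t B
  set S := res t C
  have hp := psd_rsmul (hB.conjTranspose_mul_mul_same (R - S)) h.le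
  have e0 : (R - S) * (B + t • (1 : Matrix α α ℂ)) * (R - S) = R - S + S * (B - C) * S := by
    have : B - C = (B + t • (1 : Matrix α α ℂ)) - (C + t • (1 : Matrix α α ℂ)) := by abel
    rw [this]
    simp only [Matrix.sub_mul, Matrix.mul_sub, b3, c3, Matrix.one_mul, Matrix.mul_assoc, b2,
      Matrix.mul_one]
    abel
  have e1 : t • ((R - S)ᴴ * B * (R - S)) = (ht t C - ht t B + t • (S * (B - C) * S)) -
      (ht t C - ht t B) * (ht t C - ht t B) := by
    have : ht t C - ht t B = t • (R - S) := by simp only [ht, smul_sub]; abel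
    rw [this, conjTranspose_sub, b1, c1, ← smul_add, ← e0]
    simp only [Matrix.mul_add, Matrix.add_mul, Matrix.smul_mul, Matrix.mul_smul, Matrix.mul_one,
      smul_add]
    abel
  rw [e1] at hp
  have := rt_mul_le hσ hp
  rw [Matrix.mul_add, rt_add, Matrix.mul_sub σ (ht t C), rt_sub, Matrix.mul_smul, rt_smul] at this
  have e2 : rt (σ * (S * (B - C) * S)) = rt (S * σ * S * (B - C)) := by
    rw [← Matrix.mul_assoc, rt_comm]; simp only [Matrix.mul_assoc]
  rw [e2] at this
  exact this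

lemma ht_le {B σ : Matrix α α ℂ} (hB : B.PosSemidef) (hσ : σ.PosSemidef) {t c : ℝ} (h : 0 < t)
    (hc : 0 ≤ c) : rt (σ * ht t B) ≤ c ^ 2 / (c + t) ^ 2 * rt σ + t / (c + t) ^ 2 * rt (σ * B) := by
  obtain ⟨U, f, hU, hf, rfl⟩ := exists_spec_psd hB
  have := rt_mul_le (B := ht t (sp U f))
    (B' := (c ^ 2 / (c + t) ^ 2) • (1 : Matrix α α ℂ) + (t / (c + t) ^ 2) • sp U f) hσ (by
      rw [ht_sp hU hf h, ← sp_one hU, sp_smul, sp_smul, sp_add, sp_sub]
      refine sp_psd U fun i => ?_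
      have := hf i
      have e : c ^ 2 / (c + t) ^ 2 * 1 + t / (c + t) ^ 2 * f i - f i / (f i + t) =
          t * (f i - c) ^ 2 / ((c + t) ^ 2 * (f i + t)) := by field_simp; ring
      rw [e]; positivity)
  rwa [Matrix.mul_add, rt_add, Matrix.mul_smul, Matrix.mul_smul, rt_smul, rt_smul,
    Matrix.mul_one] at this

lemma le_ht {B σ : Matrix α α ℂ} (hB : B.PosSemidef) (hB1 : (1 - B).PosSemidef)
    (hσ : σ.PosSemidef) {t : ℝ} (h : 0 < t) : 1 / (1 + t) * rt (σ * B) ≤ rt (σ * ht t B) := by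
  obtain ⟨U, f, hU, hf, rfl⟩ := exists_spec_psd hB
  rw [← sp_one hU, sp_sub] at hB1
  have := rt_mul_le (B' := ht t (sp U f)) (B := (1 / (1 + t)) • sp U f) hσ (by
      rw [ht_sp hU hf h, sp_smul, sp_sub]
      refine sp_psd U fun i => ?_
      have h1 := hf i
      have h2 := sp_psd_iff hU hB1 i
      have e : f i / (f i + t) - 1 / (1 + t) * f i =
          f i * (1 - f i) / ((1 + t) * (f i + t)) := by field_simp; ring
      rw [e]; positivity)
  rwa [Matrix.mul_smul, rt_smul] at this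

/-- canonical dilation of a family of positive matrices -/
def IsDil (𝒮 : Set (Matrix α α ℂ)) (D : Matrix α α ℂ → Matrix γ α ℂ) : Prop :=
  (∀ B ∈ 𝒮, (D B)ᴴ * D B = B) ∧ ∀ B ∈ 𝒮, ∀ C ∈ 𝒮, ∀ σ : Matrix α α ℂ,
    HasI (fun t => rt (σ * ((ht t C - ht t B) * (ht t C - ht t B))))
      (rt (σ * ((D C - D B)ᴴ * (D C - D B))))

lemma sp_apply (U : Matrix α α ℂ) (f : α → ℝ) (p q : α) :
    sp U f p q = ∑ j, (f j : ℂ) * (U p j * star (U q j)) := by
  simp only [sp, dg]
  rw [Matrix.mul_apply]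
  refine Finset.sum_congr rfl fun j _ => ?_
  rw [mul_diagonal, conjTranspose_apply]; ring

lemma int_ht {B C : Matrix α α ℂ} (hB : B.PosSemidef) (hC : C.PosSemidef) (p q : α) :
    IntegrableOn (fun t => ((ht t B)ᴴ * ht t C) p q) (Ioi 0) := by
  obtain ⟨U, f, hU, hf, rfl⟩ := exists_spec_psd hB
  obtain ⟨V, g, hV, hg, rfl⟩ := exists_spec_psd hC
  have : IntegrableOn (fun t => ∑ r, ∑ j, ∑ k, ((f j / (f j + t) * (g k / (g k + t)) : ℝ) : ℂ) *
      (U p j * star (U r j) * (V r k * star (V q k)))) (Ioi 0) :=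
    integrable_finsetSum _ fun r _ => integrable_finsetSum _ fun j _ =>
      integrable_finsetSum _ fun k _ => (int_ker (hf j) (hg k)).ofReal.mul_const _
  refine this.congr_fun (fun t h => ?_) measurableSet_Ioi
  simp only
  rw [ht_sp hU hf h, ht_sp hV hg h, sp_conjTranspose, Matrix.mul_apply]
  refine Finset.sum_congr rfl fun r _ => ?_
  rw [sp_apply, sp_apply, Finset.sum_mul_sum]
  refine Finset.sum_congr rfl fun j _ => Finset.sum_congr rfl fun k _ => ?_
  push_cast; ring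

lemma rowcat_mul_sel {L : Type} [Fintype L] [DecidableEq L] (P : L → Matrix γ α ℂ) (c : L) :
    rowcat P * (sel α c)ᴴ = P c := by
  rw [sel, rowcat_mul_adj, Finset.sum_eq_single c (by intro l _ h; simp [h]) (by simp)]
  simp

theorem exists_dil {J : Type} [Fintype J] [Nonempty J] (F : J → Matrix α α ℂ) (hF : ∀ j, (F j).PosSemidef) :
    ∃ (γ : Type) (_ : Fintype γ) (_ : DecidableEq γ) (D : Matrix α α ℂ → Matrix γ α ℂ),
      IsDil (Set.range F) D := by
  classical
  set G : ℝ → Matrix (α × J) (α × J) ℂ := fun t =>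
    (rowcat fun j => ht t (F j))ᴴ * rowcat fun j => ht t (F j) with hG
  have hGi : ∀ p q, IntegrableOn (fun t => G t p q) (Ioi 0) := by
    rintro ⟨p, j⟩ ⟨q, k⟩
    exact int_ht (hF j) (hF k) p q
  obtain ⟨T, hT⟩ := exists_fac (mint_psd hGi fun t => posSemidef_conjTranspose_mul_self _)
  have hch : ∀ B ∈ Set.range F, ∃ j, F j = B := fun B h => h
  choose! ix hix using hch
  have main : ∀ (P : Matrix α (α × J) ℂ) (l : Matrix α α ℂ →ₗ[ℂ] ℂ),
      IntegrableOn (fun t => l ((((rowcat fun j => ht t (F j)) * Pᴴ)ᴴ *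
        ((rowcat fun j => ht t (F j)) * Pᴴ)))) (Ioi 0) ∧
      l ((T * Pᴴ)ᴴ * (T * Pᴴ)) = ∫ t in Ioi (0 : ℝ), l ((((rowcat fun j => ht t (F j)) * Pᴴ)ᴴ *
        ((rowcat fun j => ht t (F j)) * Pᴴ))) := by
    intro P l
    let l' : Matrix (α × J) (α × J) ℂ →ₗ[ℂ] ℂ :=
      { toFun := fun M => l (P * M * Pᴴ)
        map_add' := fun M N => by rw [Matrix.mul_add, Matrix.add_mul, map_add]
        map_smul' := fun c M => by rw [Matrix.mul_smul, Matrix.smul_mul, map_smul]; rfl }
    have := lin_mint l' hGi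
    rw [hT] at this
    simp only [conjTranspose_mul, conjTranspose_conjTranspose, Matrix.mul_assoc]
    simpa only [l', hG, LinearMap.coe_mk, AddHom.coe_mk, Matrix.mul_assoc] using this
  refine ⟨α × J, inferInstance, inferInstance, fun B => T * (sel α (ix B))ᴴ, fun B hB => ?_,
    fun B hB C hC σ => ?_⟩
  · ext p q
    have := (main (sel α (ix B)) (Matrix.entryLinearMap ℂ ℂ p q)).2
    simp only [entryLinearMap_apply, rowcat_mul_sel, hix B hB] at this
    rw [this]
    obtain ⟨j, rfl⟩ := hB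
    obtain ⟨U, f, hU, hf, h⟩ := exists_spec_psd (hF j)
    rw [h, sp_apply, setIntegral_congr_fun measurableSet_Ioi (g := fun t =>
      ∑ j, ((f j / (f j + t) * (f j / (f j + t)) : ℝ) : ℂ) * (U p j * star (U q j)))
      (fun t ht => by simp only; rw [ht_sp hU hf ht, sp_conjTranspose, sp_mul hU, sp_apply]),
      integral_finsetSum _ fun j _ => (hasI_sq (hf j)).1.ofReal.mul_const _]
    refine Finset.sum_congr rfl fun j _ => ?_
    rw [integral_mul_const, integral_complex_ofReal, (hasI_sq (hf j)).2]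
  · let l : Matrix α α ℂ →ₗ[ℂ] ℂ :=
      { toFun := fun M => (σ * M).trace
        map_add' := fun M N => by rw [Matrix.mul_add, trace_add]
        map_smul' := fun c M => by rw [Matrix.mul_smul, trace_smul]; rfl }
    obtain ⟨m1, m2⟩ := main (sel α (ix C) - sel α (ix B)) l
    simp only [conjTranspose_sub (sel α (ix C)), Matrix.mul_sub _ (sel α (ix C))ᴴ, rowcat_mul_sel,
      hix B hB, hix C hC, l, LinearMap.coe_mk, AddHom.coe_mk] at m1 m2
    have hBp : B.PosSemidef := by obtain ⟨j, rfl⟩ := hB; exact hF j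
    have hCp : C.PosSemidef := by obtain ⟨j, rfl⟩ := hC; exact hF j
    have ee : EqOn (fun t => ((σ * ((ht t C - ht t B)ᴴ * (ht t C - ht t B))).trace).re)
        (fun t => rt (σ * ((ht t C - ht t B) * (ht t C - ht t B)))) (Ioi 0) := fun t h => by
      simp only [rt]; rw [conjTranspose_sub, ht_herm hBp h, ht_herm hCp h]
    refine ⟨IntegrableOn.congr_fun m1.re ee measurableSet_Ioi, ?_⟩
    rw [← setIntegral_congr_fun measurableSet_Ioi ee, rt, m2]
    exact integral_re m1

end Crest.Agent.H5.PR
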