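import Crest.Agent.H5.PR.A5

set_option autoImplicit false
set_option linter.unusedSectionVars false

namespace Crest.Agent.H5.PR

open Matrix Function
open scoped ComplexOrder MatrixOrder BigOperators

variable {ι Z P : Type} [Fintype ι] [DecidableEq ι] [Fintype Z] [DecidableEq Z] [DecidableEq P]

/-- product weight -/
noncomputable def pw (μ : Z → ℝ) (w : ι → Z) : ℝ := ∏ j, μ (w j)

/-- product expectation -/
noncomputable def Ex (μ : Z → ℝ) (F : (ι → Z) → ℝ) : ℝ := ∑ w, pw μ w * F w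

lemma pw_nonneg {μ : Z → ℝ} (hμ : ∀ z, 0 ≤ μ z) (w : ι → Z) : 0 ≤ pw μ w :=
  Finset.prod_nonneg fun _ _ => hμ _

lemma pw_update (μ : Z → ℝ) (w : ι → Z) (i : ι) (z : Z) :
    pw μ (update w i z) * μ (w i) = pw μ w * μ z := by
  simp only [pw]
  rw [← Finset.mul_prod_erase _ _ (Finset.mem_univ i),
    ← Finset.mul_prod_erase _ (fun j => μ (w j)) (Finset.mem_univ i), update_self,
    Finset.prod_congr rfl fun j hj => by rw [update_of_ne (Finset.ne_of_mem_erase hj)]]
  ring

lemma sum_pw {μ : Z → ℝ} (hμ1 : ∑ z, μ z = 1) : ∑ w : ι → Z, pw μ w = 1 := by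
  simp only [pw]
  rw [← Fintype.piFinset_univ, ← Finset.prod_univ_sum (fun _ => Finset.univ) fun _ z => μ z]
  simp [hμ1]

lemma Ex_mono {μ : Z → ℝ} (hμ : ∀ z, 0 ≤ μ z) {F G : (ι → Z) → ℝ} (h : ∀ w, F w ≤ G w) :
    Ex μ F ≤ Ex μ G :=
  Finset.sum_le_sum fun w _ => mul_le_mul_of_nonneg_left (h w) (pw_nonneg hμ w)
lemma Ex_add (μ : Z → ℝ) (F G : (ι → Z) → ℝ) : Ex μ (fun w => F w + G w) = Ex μ F + Ex μ G := by
  simp only [Ex, mul_add, Finset.sum_add_distrib]
lemma Ex_sub (μ : Z → ℝ) (F G : (ι → Z) → ℝ) : Ex μ (fun w => F w - G w) = Ex μ F - Ex μ G := by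
  simp only [Ex, mul_sub, Finset.sum_sub_distrib]
lemma Ex_const_mul (μ : Z → ℝ) (c : ℝ) (F : (ι → Z) → ℝ) :
    Ex μ (fun w => c * F w) = c * Ex μ F := by
  simp only [Ex, Finset.mul_sum]; exact Finset.sum_congr rfl fun w _ => by ring
lemma Ex_sum {κ : Type} (s : Finset κ) (μ : Z → ℝ) (F : κ → (ι → Z) → ℝ) :
    Ex μ (fun w => ∑ k ∈ s, F k w) = ∑ k ∈ s, Ex μ (F k) := by
  simp only [Ex, Finset.mul_sum]; exact Finset.sum_comm
lemma Ex_const {μ : Z → ℝ} (hμ1 : ∑ z, μ z = 1) (c : ℝ) : Ex μ (fun _ : ι → Z => c) = c := by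
  rw [Ex, ← Finset.sum_mul, sum_pw hμ1, one_mul]

lemma ex_swap (μ : Z → ℝ) (i : ι) (G : (ι → Z) → Z → ℝ) :
    ∑ w, ∑ z, pw μ w * μ z * G w z = ∑ w, ∑ z, pw μ w * μ z * G (update w i z) (w i) := by
  have inv : Involutive fun p : (ι → Z) × Z => (update p.1 i p.2, p.1 i) := by
    rintro ⟨w, z⟩; simp
  rw [← Fintype.sum_prod_type', ← Fintype.sum_prod_type', ← Equiv.sum_comp inv.toPerm]
  refine Finset.sum_congr rfl fun p _ => ?_
  simp only [Involutive.coe_toPerm, pw_update]

lemma ex_update {μ : Z → ℝ} (hμ1 : ∑ z, μ z = 1) (i : ι) (G : (ι → Z) → Z → ℝ) :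
    ∑ z, μ z * Ex μ (fun w => G (update w i z) z) = Ex μ fun w => G w (w i) := by
  have := ex_swap μ i fun w z => G (update w i z) z
  simp only [update_idem, update_eq_self] at this
  simp only [Ex, Finset.mul_sum]
  rw [Finset.sum_comm]
  calc _ = ∑ w, ∑ z, pw μ w * μ z * G (update w i z) z :=
        Finset.sum_congr rfl fun w _ => Finset.sum_congr rfl fun z _ => by ring
    _ = _ := by
        rw [this]
        refine Finset.sum_congr rfl fun w _ => ?_
        rw [← Finset.sum_mul, ← Finset.mul_sum, hμ1, mul_one]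

/-- mass of a fibre -/
noncomputable def mass (μ : Z → ℝ) (π : Z → P) (z : Z) : ℝ := ∑ z', if π z' = π z then μ z' else 0

/-- conditional kernel -/
noncomputable def ck (μ : Z → ℝ) (π : Z → P) (z z' : Z) : ℝ :=
  if π z' = π z then μ z' / mass μ π z else 0

lemma mass_nonneg {μ : Z → ℝ} (hμ : ∀ z, 0 ≤ μ z) (π : Z → P) (z : Z) : 0 ≤ mass μ π z :=
  Finset.sum_nonneg fun z' _ => by split_ifs; exacts [hμ _, le_rfl]
lemma le_mass {μ : Z → ℝ} (hμ : ∀ z, 0 ≤ μ z) (π : Z → P) (z : Z) : μ z ≤ mass μ π z := by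
  have := Finset.single_le_sum (f := fun z' => if π z' = π z then μ z' else 0)
    (fun z' _ => by split_ifs; exacts [hμ _, le_rfl]) (Finset.mem_univ z)
  simpa [mass] using this
lemma ck_nonneg {μ : Z → ℝ} (hμ : ∀ z, 0 ≤ μ z) (π : Z → P) (z z' : Z) : 0 ≤ ck μ π z z' := by
  unfold ck; split_ifs
  · exact div_nonneg (hμ _) (mass_nonneg hμ _ _)
  · exact le_rfl
lemma sum_ck (μ : Z → ℝ) (π : Z → P) (z : Z) : ∑ z', ck μ π z z' = mass μ π z / mass μ π z := by
  conv_rhs => rw [mass, Finset.sum_div]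
  refine Finset.sum_congr rfl fun z' _ => ?_
  unfold ck; split_ifs <;> simp [mass]
lemma sum_ck_le (μ : Z → ℝ) (π : Z → P) (z : Z) : ∑ z', ck μ π z z' ≤ 1 := by
  rw [sum_ck]; exact div_self_le_one _
lemma ck_congr (μ : Z → ℝ) (π : Z → P) {z z₀ : Z} (h : π z = π z₀) : ck μ π z = ck μ π z₀ := by
  ext z'; simp only [ck, mass, h]

lemma ex_resample {μ : Z → ℝ} (hμ : ∀ z, 0 ≤ μ z) (π : Z → P) (i : ι) (F : (ι → Z) → ℝ) :
    Ex μ (fun w => ∑ z', ck μ π (w i) z' * F (update w i z')) = Ex μ F := by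
  have := ex_swap μ i fun w z => (if π z = π (w i) then (mass μ π (w i))⁻¹ else 0) *
    F (update w i z)
  simp only [update_idem, update_eq_self, update_self] at this
  simp only [Ex, Finset.mul_sum]
  calc _ = ∑ w, ∑ z, pw μ w * μ z * ((if π z = π (w i) then (mass μ π (w i))⁻¹ else 0) *
        F (update w i z)) := by
        refine Finset.sum_congr rfl fun w _ => Finset.sum_congr rfl fun z _ => ?_
        unfold ck; split_ifs
        · rw [div_eq_mul_inv]; ring
        · ring
    _ = _ := by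
        rw [this]
        refine Finset.sum_congr rfl fun w _ => ?_
        by_cases h0 : μ (w i) = 0
        · have : pw μ w = 0 := Finset.prod_eq_zero (Finset.mem_univ i) h0
          simp [this]
        · have hm : mass μ π (w i) ≠ 0 :=
            (lt_of_lt_of_le (lt_of_le_of_ne (hμ _) (Ne.symm h0)) (le_mass hμ π _)).ne'
          have h1 := sum_ck μ π (w i)
          rw [div_self hm] at h1
          calc _ = ∑ z, pw μ w * F w * ck μ π (w i) z := by
                refine Finset.sum_congr rfl fun z _ => ?_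
                unfold ck
                by_cases h : π z = π (w i)
                · have : mass μ π z = mass μ π (w i) := by simp only [mass, h]
                  rw [if_pos h, if_pos h.symm, this, div_eq_mul_inv]; ring
                · rw [if_neg h, if_neg (Ne.symm h)]; ring
            _ = _ := by rw [← Finset.mul_sum, h1, mul_one]

variable {α : Type} [Fintype α] [DecidableEq α]

/-- conditional expectation, averaging the coordinates in `S` along the fibres of `π` -/
noncomputable def cond (μ : Z → ℝ) (π : Z → P) (S : Finset ι) (F : (ι → Z) → Matrix α α ℂ)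
    (w : ι → Z) : Matrix α α ℂ :=
  ∑ w' : ι → Z, (∏ j, if j ∈ S then ck μ π (w j) (w' j) else if w' j = w j then 1 else 0) • F w'

lemma cond_empty (μ : Z → ℝ) (π : Z → P) (F : (ι → Z) → Matrix α α ℂ) (w : ι → Z) :
    cond μ π ∅ F w = F w := by
  rw [cond, Finset.sum_eq_single w]
  · simp
  · intro w' _ h
    obtain ⟨j, hj⟩ := Function.ne_iff.mp h
    rw [Finset.prod_eq_zero (Finset.mem_univ j) (by simp [hj]), zero_smul]
  · simp

lemma cond_insert (μ : Z → ℝ) (π : Z → P) {S : Finset ι} {i : ι} (hi : i ∉ S)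
    (F : (ι → Z) → Matrix α α ℂ) (w : ι → Z) :
    cond μ π (insert i S) F w = ∑ z', ck μ π (w i) z' • cond μ π S F (update w i z') := by
  simp only [cond, Finset.smul_sum, smul_smul]
  rw [Finset.sum_comm]
  refine Finset.sum_congr rfl fun w' _ => ?_
  rw [← Finset.sum_smul]
  congr 1
  rw [Finset.sum_eq_single (w' i)]
  · rw [← Finset.mul_prod_erase _ _ (Finset.mem_univ i),
      ← Finset.mul_prod_erase Finset.univ _ (Finset.mem_univ i)]
    simp only [Finset.mem_insert_self, if_true, hi, if_false, update_self, one_mul]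
    congr 1
    refine Finset.prod_congr rfl fun j hj => ?_
    have := Finset.ne_of_mem_erase hj
    simp [this]
  · intro z _ hz
    rw [Finset.prod_eq_zero (Finset.mem_univ i) (by simp [hi, Ne.symm hz]), mul_zero]
  · simp

lemma cond_upd_mem (μ : Z → ℝ) (π : Z → P) {S : Finset ι} {i : ι} (hi : i ∈ S)
    (F : (ι → Z) → Matrix α α ℂ) (w : ι → Z) {z : Z} (hz : π z = π (w i)) :
    cond μ π S F (update w i z) = cond μ π S F w := by
  simp only [cond]
  refine Finset.sum_congr rfl fun w' _ => ?_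
  congr 1
  refine Finset.prod_congr rfl fun j _ => ?_
  by_cases h : j = i
  · subst h; simp only [hi, if_true, update_self, ck_congr μ π hz]
  · rw [update_of_ne h]

lemma cond_upd_not_mem {P' : Type} (μ : Z → ℝ) (π : Z → P) (ρ : Z → P') {S : Finset ι} {i : ι}
    (hi : i ∉ S) {F : (ι → Z) → Matrix α α ℂ}
    (hF : ∀ w z, ρ z = ρ (w i) → F (update w i z) = F w) (w : ι → Z) {z : Z}
    (hz : ρ z = ρ (w i)) : cond μ π S F (update w i z) = cond μ π S F w := by
  induction S using Finset.induction_on generalizing w with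
  | empty => rw [cond_empty, cond_empty, hF w z hz]
  | insert j S hj ih =>
    have hij : j ≠ i := fun h => hi (h ▸ Finset.mem_insert_self _ _)
    rw [cond_insert _ _ hj, cond_insert _ _ hj, update_of_ne hij]
    refine Finset.sum_congr rfl fun z' _ => ?_
    rw [update_comm hij.symm, ih (fun h => hi (Finset.mem_insert_of_mem h))]
    rw [update_of_ne hij.symm]; exact hz

lemma cond_psd {μ : Z → ℝ} (hμ : ∀ z, 0 ≤ μ z) (π : Z → P) (S : Finset ι)
    {F : (ι → Z) → Matrix α α ℂ} (hF : ∀ w, (F w).PosSemidef) (w : ι → Z) :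
    (cond μ π S F w).PosSemidef := by
  refine psd_sum _ fun w' _ => psd_rsmul (hF w') (Finset.prod_nonneg fun j _ => ?_)
  split_ifs
  exacts [ck_nonneg hμ _ _ _, zero_le_one, le_rfl]

lemma cond_le_one {μ : Z → ℝ} (hμ : ∀ z, 0 ≤ μ z) (π : Z → P) (S : Finset ι)
    {F : (ι → Z) → Matrix α α ℂ} (hF : ∀ w, (1 - F w).PosSemidef) (w : ι → Z) :
    (1 - cond μ π S F w).PosSemidef := by
  induction S using Finset.induction_on generalizing w with
  | empty => rw [cond_empty]; exact hF w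
  | insert j S hj ih =>
    rw [cond_insert _ _ hj]
    have e : (1 : Matrix α α ℂ) - ∑ z', ck μ π (w j) z' • cond μ π S F (update w j z') =
        (1 - ∑ z', ck μ π (w j) z') • (1 : Matrix α α ℂ) +
          ∑ z', ck μ π (w j) z' • (1 - cond μ π S F (update w j z')) := by
      simp only [smul_sub, Finset.sum_sub_distrib, sub_smul, one_smul, Finset.sum_smul]; abel
    rw [e]
    exact (psd_rsmul PosSemidef.one (by linarith [sum_ck_le μ π (w j)])).add
      (psd_sum _ fun z' _ => psd_rsmul (ih _) (ck_nonneg hμ _ _ _))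

lemma cond_sum {κ : Type} (s : Finset κ) (μ : Z → ℝ) (π : Z → P) (S : Finset ι)
    (F : κ → (ι → Z) → Matrix α α ℂ) (w : ι → Z) :
    cond μ π S (fun w => ∑ k ∈ s, F k w) w = ∑ k ∈ s, cond μ π S (F k) w := by
  simp only [cond, Finset.smul_sum]; exact Finset.sum_comm

lemma tower_step {μ : Z → ℝ} (hμ : ∀ z, 0 ≤ μ z) (π : Z → P) {S : Finset ι} {i : ι} (hi : i ∉ S)
    (F : (ι → Z) → Matrix α α ℂ) {σ : (ι → Z) → Matrix α α ℂ}
    (hσ : ∀ w z, π z = π (w i) → σ (update w i z) = σ w) :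
    Ex μ (fun w => rt (σ w * cond μ π (insert i S) F w)) =
      Ex μ (fun w => rt (σ w * cond μ π S F w)) := by
  rw [← ex_resample hμ π i fun w => rt (σ w * cond μ π S F w)]
  congr 1; ext w
  rw [cond_insert _ _ hi, Matrix.mul_sum, rt_sum]
  refine Finset.sum_congr rfl fun z _ => ?_
  rw [Matrix.mul_smul, rt_smul]
  by_cases h : π z = π (w i)
  · rw [hσ w z h]
  · simp [ck, h]

lemma tower {μ : Z → ℝ} (hμ : ∀ z, 0 ≤ μ z) (π : Z → P) (S : Finset ι)
    (F : (ι → Z) → Matrix α α ℂ) {σ : (ι → Z) → Matrix α α ℂ}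
    (hσ : ∀ i ∈ S, ∀ w z, π z = π (w i) → σ (update w i z) = σ w) :
    Ex μ (fun w => rt (σ w * cond μ π S F w)) = Ex μ (fun w => rt (σ w * F w)) := by
  induction S using Finset.induction_on with
  | empty => simp only [cond_empty]
  | insert j S hj ih =>
    rw [tower_step hμ π hj F (hσ j (Finset.mem_insert_self _ _)),
      ih fun i hi => hσ i (Finset.mem_insert_of_mem hi)]

/-- Shapley weight -/
def shw (N q : ℕ) : ℝ := (q.factorial * (N - q - 1).factorial : ℕ)

lemma shw_nonneg (N q : ℕ) : 0 ≤ shw N q := Nat.cast_nonneg _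

lemma shapley (T : Finset ι) (φ : Finset ι → ℝ) :
    ∑ i, ∑ Q : Finset ι, (if i ∈ T ∧ Q ⊆ T ∧ i ∉ Q then
      shw T.card Q.card * (φ (insert i Q) - φ Q) else 0) = T.card.factorial * (φ T - φ ∅) := by
  have h1 : ∀ i, ∑ Q : Finset ι, (if i ∈ T ∧ Q ⊆ T ∧ i ∉ Q then
      shw T.card Q.card * φ (insert i Q) else 0) =
      ∑ Q : Finset ι, (if Q ⊆ T ∧ i ∈ Q then shw T.card (Q.card - 1) * φ Q else 0) := by
    intro i
    rw [← Finset.sum_filter, ← Finset.sum_filter]
    refine Finset.sum_nbij' (fun Q => insert i Q) (fun Q => Q.erase i) ?_ ?_ ?_ ?_ ?_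
    · intro Q hQ
      simp only [Finset.mem_filter, Finset.mem_univ, true_and] at hQ ⊢
      exact ⟨Finset.insert_subset hQ.1 hQ.2.1, Finset.mem_insert_self _ _⟩
    · intro Q hQ
      simp only [Finset.mem_filter, Finset.mem_univ, true_and] at hQ ⊢
      exact ⟨hQ.1 hQ.2, (Finset.erase_subset _ _).trans hQ.1, Finset.notMem_erase _ _⟩
    · intro Q hQ
      simp only [Finset.mem_filter, Finset.mem_univ, true_and] at hQ
      exact Finset.erase_insert hQ.2.2
    · intro Q hQ
      simp only [Finset.mem_filter, Finset.mem_univ, true_and] at hQ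
      exact Finset.insert_erase hQ.2
    · intro Q hQ
      simp only [Finset.mem_filter, Finset.mem_univ, true_and] at hQ
      rw [Finset.card_insert_of_notMem hQ.2.2, Nat.add_sub_cancel]
  have h2 : ∑ i, ∑ Q : Finset ι, (if i ∈ T ∧ Q ⊆ T ∧ i ∉ Q then
      shw T.card Q.card * (φ (insert i Q) - φ Q) else 0) =
      ∑ Q : Finset ι, ∑ i, ((if Q ⊆ T ∧ i ∈ Q then shw T.card (Q.card - 1) * φ Q else 0) -
        (if i ∈ T ∧ Q ⊆ T ∧ i ∉ Q then shw T.card Q.card * φ Q else 0)) := by
    rw [Finset.sum_comm (s := Finset.univ (α := Finset ι))]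
    refine Finset.sum_congr rfl fun i _ => ?_
    rw [Finset.sum_sub_distrib, ← h1, ← Finset.sum_sub_distrib]
    refine Finset.sum_congr rfl fun Q _ => ?_
    split_ifs <;> ring
  have h3 : ∀ Q : Finset ι, ∑ i, ((if Q ⊆ T ∧ i ∈ Q then shw T.card (Q.card - 1) * φ Q else 0) -
        (if i ∈ T ∧ Q ⊆ T ∧ i ∉ Q then shw T.card Q.card * φ Q else 0)) =
      (if Q = T then T.card.factorial * φ T else 0) -
        (if Q = ∅ then T.card.factorial * φ ∅ else 0) := by
    intro Q
    by_cases hQ : Q ⊆ T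
    · have e1 : ∀ i, (i ∈ T ∧ Q ⊆ T ∧ i ∉ Q) ↔ i ∈ T \ Q := by intro i; simp [hQ]
      simp only [e1]
      simp only [hQ, true_and, Finset.sum_sub_distrib, Finset.sum_ite_mem, Finset.univ_inter,
        Finset.sum_const, nsmul_eq_mul]
      rw [Finset.card_sdiff_of_subset hQ]
      have hle := Finset.card_le_card hQ
      have a1 : Q ≠ ∅ → (Q.card : ℝ) * shw T.card (Q.card - 1) =
          (Q.card.factorial * (T.card - Q.card).factorial : ℕ) := by
        intro h
        obtain ⟨q, hq⟩ := Nat.exists_eq_succ_of_ne_zero (Finset.card_ne_zero.mpr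
          (Finset.nonempty_iff_ne_empty.mpr h))
        rw [shw, hq, Nat.succ_sub_one, Nat.factorial_succ, Nat.sub_sub]; push_cast; ring
      have a2 : Q ≠ T → ((T.card - Q.card : ℕ) : ℝ) * shw T.card Q.card =
          (Q.card.factorial * (T.card - Q.card).factorial : ℕ) := by
        intro h
        have : Q.card < T.card := Finset.card_lt_card (hQ.ssubset_of_ne h)
        obtain ⟨q, hq⟩ := Nat.exists_eq_succ_of_ne_zero (show T.card - Q.card ≠ 0 by omega)
        rw [shw, hq, Nat.succ_sub_one, Nat.factorial_succ]; push_cast; ring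
      by_cases b1 : Q = ∅ <;> by_cases b2 : Q = T
      · subst b2; subst b1; simp
      · rw [← mul_assoc, ← mul_assoc, a2 b2]; subst b1; simp [b2]
      · rw [← mul_assoc, ← mul_assoc, a1 b1]; subst b2; simp [b1]
      · rw [← mul_assoc, ← mul_assoc, a1 b1, a2 b2]; simp [b1, b2]
    · have b1 : Q ≠ T := fun h => hQ (h ▸ subset_rfl)
      have b2 : Q ≠ ∅ := fun h => hQ (h ▸ Finset.empty_subset _)
      simp [hQ, b1, b2]
  rw [h2, Finset.sum_congr rfl fun Q _ => h3 Q, Finset.sum_sub_distrib]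
  simp [mul_sub]

/-- The chain rule for the canonical dilation. -/
theorem chain {μ : Z → ℝ} (hμ : ∀ z, 0 ≤ μ z) (π : Z → P) {R γ : Type} [Fintype R] [Fintype γ]
    [DecidableEq γ] (T : Finset ι) (σ F : R → (ι → Z) → Matrix α α ℂ)
    (hσ : ∀ r w, (σ r w).PosSemidef) (hF : ∀ r w, (F r w).PosSemidef)
    (hF1 : ∀ r w, (1 - F r w).PosSemidef)
    (hinv : ∀ r, ∀ i ∈ T, ∀ w z, π z = π (w i) → σ r (update w i z) = σ r w)
    {𝒮 : Set (Matrix α α ℂ)} {D : Matrix α α ℂ → Matrix γ α ℂ} (hD : IsDil 𝒮 D)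
    (h𝒮 : ∀ Q r w, cond μ π Q (F r) w ∈ 𝒮) {S Zc : ℝ} (hZ : 0 < Zc) (hZS : Zc ≤ S)
    (hS : ∑ r, Ex μ (fun w => rt (σ r w)) ≤ S) (hZc : ∑ r, Ex μ (fun w => rt (σ r w * F r w)) = Zc) :
    ∑ i, ∑ Q : Finset ι, (if i ∈ T ∧ Q ⊆ T ∧ i ∉ Q then shw T.card Q.card *
      ∑ r, Ex μ (fun w => rt (σ r w *
        ((D (cond μ π (insert i Q) (F r) w) - D (cond μ π Q (F r) w))ᴴ *
         (D (cond μ π (insert i Q) (F r) w) - D (cond μ π Q (F r) w))))) else 0) ≤
      T.card.factorial * (Zc * Real.log (S / Zc)) := by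
  have hS0 : 0 < S := lt_of_lt_of_le hZ hZS
  have hc : 0 < Zc / S := div_pos hZ hS0
  have hI := ((hasI_log hc ((div_le_one hS0).mpr hZS)).const_mul Zc).const_mul
    (T.card.factorial : ℝ)
  rw [← Real.log_inv, inv_div] at hI
  refine HasI.mono (f := fun t => ∑ i, ∑ Q : Finset ι, (if i ∈ T ∧ Q ⊆ T ∧ i ∉ Q then
    shw T.card Q.card * ∑ r, Ex μ (fun w => rt (σ r w *
        ((ht t (cond μ π (insert i Q) (F r) w) - ht t (cond μ π Q (F r) w)) *
         (ht t (cond μ π (insert i Q) (F r) w) - ht t (cond μ π Q (F r) w))))) else 0))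
    ?_ hI fun t h => ?_
  · refine HasI.sum _ fun i _ => HasI.sum _ fun Q _ => ?_
    split_ifs
    · refine HasI.const_mul (HasI.sum _ fun r _ => HasI.sum _ fun w _ => HasI.const_mul ?_ _) _
      exact hD.2 _ (h𝒮 _ _ _) _ (h𝒮 _ _ _) _
    · simp [HasI]
  · set φ : Finset ι → ℝ := fun Q => ∑ r, Ex μ fun w => rt (σ r w * ht t (cond μ π Q (F r) w))
      with hφ
    have hsh := shapley T φ
    have top : φ T ≤ Zc * (1 / (Zc / S + t)) := by
      have a1 : φ T ≤ ∑ r, Ex μ fun w => (Zc / S) ^ 2 / (Zc / S + t) ^ 2 * rt (σ r w) +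
          t / (Zc / S + t) ^ 2 * rt (σ r w * cond μ π T (F r) w) :=
        Finset.sum_le_sum fun r _ => Ex_mono hμ fun w =>
          ht_le (cond_psd hμ π T (hF r) w) (hσ r w) h hc.le
      simp only [Ex_add, Ex_const_mul, Finset.sum_add_distrib, ← Finset.mul_sum] at a1
      rw [Finset.sum_congr rfl fun r _ => tower hμ π T (F r) (hinv r), hZc] at a1
      have a2 : (Zc / S) ^ 2 / (Zc / S + t) ^ 2 * ∑ r, Ex μ (fun w => rt (σ r w)) ≤
          (Zc / S) ^ 2 / (Zc / S + t) ^ 2 * S := by gcongr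
      have e : (Zc / S) ^ 2 / (Zc / S + t) ^ 2 * S + t / (Zc / S + t) ^ 2 * Zc =
          Zc * (1 / (Zc / S + t)) := by field_simp
      linarith
    have bot : Zc * (1 / (1 + t)) ≤ φ ∅ := by
      have a1 : ∑ r, Ex μ (fun w => 1 / (1 + t) * rt (σ r w * F r w)) ≤ φ ∅ :=
        Finset.sum_le_sum fun r _ => Ex_mono hμ fun w => by
          rw [cond_empty]; exact le_ht (hF r w) (hF1 r w) (hσ r w) h
      simp only [Ex_const_mul, ← Finset.mul_sum] at a1
      rw [hZc] at a1; linarith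
    calc _ ≤ ∑ i, ∑ Q : Finset ι, (if i ∈ T ∧ Q ⊆ T ∧ i ∉ Q then
          shw T.card Q.card * (φ (insert i Q) - φ Q) else 0) := by
          refine Finset.sum_le_sum fun i _ => Finset.sum_le_sum fun Q _ => ?_
          split_ifs with hq
          · refine mul_le_mul_of_nonneg_left ?_ (shw_nonneg _ _)
            simp only [hφ, ← Finset.sum_sub_distrib]
            refine Finset.sum_le_sum fun r _ => ?_
            refine (Ex_mono hμ fun w => gap_ineq (cond_psd hμ π Q (hF r) w)
              (cond_psd hμ π (insert i Q) (hF r) w) (hσ r w) h).trans (le_of_eq ?_)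
            have ts := tower_step hμ π hq.2.2 (F r) (σ := fun w =>
              res t (cond μ π (insert i Q) (F r) w) * σ r w * res t (cond μ π (insert i Q) (F r) w))
              (fun w z hz => by
                simp only [cond_upd_mem μ π (Finset.mem_insert_self i Q) _ w hz,
                  hinv r i hq.1 w z hz])
            simp only [Ex_add, Ex_sub, Ex_const_mul, Matrix.mul_sub, rt_sub]
            rw [ts]; ring
          · exact le_rfl
      _ = T.card.factorial * (φ T - φ ∅) := hsh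
      _ ≤ _ := by
          refine mul_le_mul_of_nonneg_left ?_ (Nat.cast_nonneg _)
          rw [mul_sub]; linarith

end Crest.Agent.H5.PR
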