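import Crest.Agent.H5.PR.A6

set_option autoImplicit false
set_option linter.unusedSectionVars false

namespace Crest.Agent.H5.PR

open Matrix Function
open scoped ComplexOrder MatrixOrder BigOperators

section comb
variable {ι : Type} [Fintype ι] [DecidableEq ι]

lemma sumP2 (S : Finset ι) : ∑ P ∈ S.powerset, ((P.card.factorial * (S.card - P.card).factorial : ℕ) : ℝ)
    = (S.card + 1).factorial := by
  rw [Finset.sum_powerset_apply_card fun m => ((m.factorial * (S.card - m).factorial : ℕ) : ℝ),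
    Finset.sum_congr rfl (g := fun _ => (S.card.factorial : ℝ))]
  · simp [Nat.factorial_succ]
  · intro m hm
    have := Nat.choose_mul_factorial_mul_factorial (Nat.lt_succ_iff.mp (Finset.mem_range.mp hm))
    rw [← this]; push_cast; ring

lemma sumP1 (S : Finset ι) :
    ∑ P ∈ S.powerset, ((P.card.factorial * (S.card + 1 - P.card).factorial : ℕ) : ℝ)
    = (S.card + 2).factorial / 2 := by
  rw [Finset.sum_powerset_apply_card fun m => ((m.factorial * (S.card + 1 - m).factorial : ℕ) : ℝ),
    Finset.sum_congr rfl (g := fun m : ℕ => (S.card.factorial : ℝ) * (S.card + 1 - (m : ℝ)))]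
  · have : ∀ n : ℕ, ∑ m ∈ Finset.range n, (m : ℝ) = n * (n - 1) / 2 := by
      intro n; induction n with
      | zero => simp
      | succ n ih => rw [Finset.sum_range_succ, ih]; push_cast; ring
    rw [← Finset.mul_sum, Finset.sum_sub_distrib, this]
    simp [Nat.factorial_succ]; ring
  · intro m hm
    have h := Nat.lt_succ_iff.mp (Finset.mem_range.mp hm)
    have := Nat.choose_mul_factorial_mul_factorial h
    rw [← this, Nat.succ_sub h, Nat.factorial_succ]; push_cast [Nat.cast_sub h]; ring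

lemma sum_shw (T : Finset ι) {i : ι} (hi : i ∈ T) :
    ∑ Q : Finset ι, (if Q ⊆ T ∧ i ∉ Q then shw T.card Q.card else 0) = T.card.factorial := by
  have := shapley T fun Q => if i ∈ Q then 1 else 0
  rw [Finset.sum_eq_single i] at this
  · simp only [hi, true_and, Finset.mem_insert_self, if_true, Finset.notMem_empty, if_false,
      sub_zero, mul_one] at this
    rw [← this]
    refine Finset.sum_congr rfl fun Q _ => ?_
    split_ifs with h1 h2
    · exact absurd h2 h1.2
    · simp
    · rfl
  · intro j _ hj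
    refine Finset.sum_eq_zero fun Q _ => ?_
    simp [Ne.symm hj]
  · simp

/-- admissible triples -/
def Val (O : Finset ι) (i : ι) (P Q : Finset ι) : Prop :=
  i ∈ O ∧ P ⊆ O ∧ Q ⊆ O ∧ Disjoint P Q ∧ i ∉ P ∧ i ∉ Q

instance (O : Finset ι) (i : ι) (P Q : Finset ι) : Decidable (Val O i P Q) := by
  unfold Val; infer_instance

lemma val_symm {O : Finset ι} {i : ι} {P Q : Finset ι} : Val O i P Q ↔ Val O i Q P := by
  unfold Val; rw [disjoint_comm]; tauto

lemma val_iff {O : Finset ι} {i : ι} {P Q : Finset ι} :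
    Val O i P Q ↔ P ⊆ O ∧ (i ∈ O \ P ∧ Q ⊆ O \ P ∧ i ∉ Q) := by
  unfold Val; rw [Finset.subset_sdiff, Finset.mem_sdiff, disjoint_comm]; tauto

/-- weights of triples -/
def om (n : ℕ) (P Q : Finset ι) : ℝ := P.card.factorial * shw (n - P.card) Q.card

lemma om_symm (n : ℕ) (P Q : Finset ι) : om n P Q = om n Q P := by
  simp only [om, shw]; rw [Nat.sub_right_comm n P.card]; push_cast; ring

lemma om_nonneg (n : ℕ) (P Q : Finset ι) : 0 ≤ om n P Q :=
  mul_nonneg (Nat.cast_nonneg _) (shw_nonneg _ _)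

lemma sum_om {O : Finset ι} {i : ι} (hi : i ∈ O) :
    ∑ P : Finset ι, ∑ Q : Finset ι, (if Val O i P Q then om O.card P Q else 0) =
      (O.card + 1).factorial / 2 := by
  have h := sumP1 (O.erase i)
  rw [Finset.card_erase_add_one hi, show (O.erase i).card + 2 = O.card + 1 by
    rw [← Finset.card_erase_add_one hi]] at h
  rw [← h, ← Finset.univ_inter (O.erase i).powerset, ← Finset.sum_ite_mem]
  refine Finset.sum_congr rfl fun P _ => ?_
  split_ifs with hP
  · rw [Finset.mem_powerset, Finset.subset_erase] at hP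
    have := sum_shw (O \ P) (i := i) (Finset.mem_sdiff.mpr ⟨hi, hP.2⟩)
    rw [Finset.card_sdiff_of_subset hP.1] at this
    push_cast
    rw [← this, Finset.mul_sum]
    refine Finset.sum_congr rfl fun Q _ => ?_
    simp only [val_iff, hP.1, Finset.mem_sdiff, hi, hP.2, not_false_eq_true, true_and, om]
    split_ifs <;> simp
  · refine Finset.sum_eq_zero fun Q _ => if_neg fun h => hP ?_
    rw [Finset.mem_powerset, Finset.subset_erase]; exact ⟨h.2.1, h.2.2.2.2.1⟩

lemma sum_om_le (O : Finset ι) (e : ι → Finset ι → Finset ι → ℝ) {Γ : ℝ}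
    (h : ∀ P ⊆ O, ∑ i, ∑ Q : Finset ι, (if i ∈ O \ P ∧ Q ⊆ O \ P ∧ i ∉ Q then
      shw (O \ P).card Q.card * e i P Q else 0) ≤ (O \ P).card.factorial * Γ) :
    ∑ i, ∑ P : Finset ι, ∑ Q : Finset ι, (if Val O i P Q then om O.card P Q * e i P Q else 0) ≤
      (O.card + 1).factorial * Γ := by
  rw [Finset.sum_comm, ← sumP2 O, Finset.sum_mul, ← Finset.univ_inter O.powerset,
    ← Finset.sum_ite_mem]
  refine Finset.sum_le_sum fun P _ => ?_
  split_ifs with hP
  · rw [Finset.mem_powerset] at hP
    have := mul_le_mul_of_nonneg_left (h P hP) (Nat.cast_nonneg (α := ℝ) P.card.factorial)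
    rw [Finset.card_sdiff_of_subset hP] at this
    push_cast
    rw [mul_assoc]
    refine le_trans (le_of_eq ?_) this
    simp only [Finset.mul_sum]
    refine Finset.sum_congr rfl fun i _ => Finset.sum_congr rfl fun Q _ => ?_
    simp only [val_iff, hP, true_and, om]
    split_ifs
    · ring
    · simp
  · rw [Finset.mem_powerset] at hP
    simp [val_iff, hP]

end comb

variable {ι Z : Type} [Fintype ι] [DecidableEq ι] [Fintype Z] [DecidableEq Z]

lemma ex_point {μ : Z → ℝ} (hμ1 : ∑ z, μ z = 1) (i : ι) (F : (ι → Z) → ℝ) (z : Z) :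
    μ z * Ex μ (fun w => F (update w i z)) = Ex μ fun w => (if w i = z then 1 else 0) * F w := by
  rw [← ex_update hμ1 i fun w z' => (if z' = z then 1 else 0) * F w, Finset.sum_eq_single z]
  · simp
  · intro z' _ h; simp [h, Ex]
  · simp

/-- Raz-type bound on the one-coordinate marginals -/
lemma marg_bound {μ : Z → ℝ} (hμ : ∀ z, 0 ≤ μ z) (hμ1 : ∑ z, μ z = 1) (p : (ι → Z) → ℝ)
    (hp0 : ∀ w, 0 ≤ p w) (hp1 : ∀ w, p w ≤ 1) {Zc : ℝ} (hZ : 0 < Zc) (hZc : Ex μ p = Zc) :
    ∑ i, ∑ z, μ z * (√(Ex μ (fun w => p (update w i z)) / Zc) - 1) ^ 2 ≤ -Real.log Zc := by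
  set ρ : ι → Z → ℝ := fun i z => Ex μ (fun w => p (update w i z)) / Zc with hρ
  have hρ0 : ∀ i z, 0 ≤ ρ i z := fun i z => div_nonneg
    (Finset.sum_nonneg fun w _ => mul_nonneg (pw_nonneg hμ _) (hp0 _)) hZ.le
  have hg : ∀ i (g : Z → ℝ), Zc * ∑ z, μ z * (ρ i z * g z) = Ex μ fun w => g (w i) * p w := by
    intro i g
    rw [← ex_update hμ1 i fun w z => g z * p w, Finset.mul_sum]
    refine Finset.sum_congr rfl fun z _ => ?_
    rw [Ex_const_mul, hρ]; field_simp
  have h1 : ∀ i, ∑ z, μ z * ρ i z = 1 := by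
    intro i
    have := hg i fun _ => 1
    simp only [mul_one, one_mul] at this
    rw [show Ex μ (fun w => p w) = Zc from hZc] at this
    exact mul_left_cancel₀ hZ.ne' (by rw [this, mul_one])
  have h2 : ∀ i, Zc * ∑ z, μ z * (√(ρ i z) - 1) ^ 2 =
      Ex μ fun w => 2 * (1 - (√(ρ i (w i)))⁻¹) * p w := by
    intro i
    rw [← hg i fun z => 2 * (1 - (√(ρ i z))⁻¹)]
    congr 1
    have e : ∀ z, μ z * (√(ρ i z) - 1) ^ 2 =
        μ z * (ρ i z * (2 * (1 - (√(ρ i z))⁻¹))) + μ z - μ z * ρ i z := by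
      intro z
      have a1 := Real.mul_self_sqrt (hρ0 i z)
      have a2 : ρ i z * (√(ρ i z))⁻¹ = √(ρ i z) := by rw [← div_eq_mul_inv, Real.div_sqrt]
      linear_combination (μ z) * a1 + 2 * μ z * a2
    simp only [e, Finset.sum_sub_distrib, Finset.sum_add_distrib, hμ1, h1]; ring
  have h3 : Ex μ (fun w => ∏ i, ρ i (w i)) = 1 := by
    simp only [Ex, pw, ← Finset.prod_mul_distrib]
    rw [← Fintype.piFinset_univ, ← Finset.prod_univ_sum (fun _ => Finset.univ)
      fun i z => μ z * ρ i z]
    simp [h1]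
  have h4 : Ex μ (fun w => ∑ i, 2 * (1 - (√(ρ i (w i)))⁻¹) * p w) ≤
      Ex μ (fun w => (-Real.log Zc - 1) * p w + Zc * ∏ i, ρ i (w i)) := by
    refine Finset.sum_le_sum fun w _ => ?_
    beta_reduce
    have hP : 0 ≤ ∏ i, ρ i (w i) := Finset.prod_nonneg fun i _ => hρ0 _ _
    by_cases h0 : pw μ w * p w = 0
    · rw [← Finset.sum_mul, mul_add]
      have a : 0 ≤ pw μ w * (Zc * ∏ i, ρ i (w i)) := mul_nonneg (pw_nonneg hμ w) (by positivity)
      have e1 : ∀ c, pw μ w * (c * p w) = 0 := fun c => by rw [mul_left_comm, h0, mul_zero]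
      rw [e1, e1]; linarith
    · refine mul_le_mul_of_nonneg_left ?_ (pw_nonneg hμ w)
      have hpos : ∀ i, 0 < ρ i (w i) := by
        intro i
        have a1 := ex_point hμ1 i p (w i)
        have a2 : pw μ w * p w ≤ Ex μ fun w' => (if w' i = w i then 1 else 0) * p w' := by
          have := Finset.single_le_sum (f := fun w' => pw μ w' * ((if w' i = w i then 1 else 0) * p w'))
            (fun w' _ => mul_nonneg (pw_nonneg hμ _) (mul_nonneg (by split_ifs <;> norm_num) (hp0 _)))
            (Finset.mem_univ w)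
          simpa [Ex] using this
        have a3 : 0 < pw μ w * p w :=
          lt_of_le_of_ne (mul_nonneg (pw_nonneg hμ w) (hp0 w)) (Ne.symm h0)
        refine lt_of_le_of_ne (hρ0 _ _) fun h => ?_
        have : Ex μ (fun w' => p (update w' i (w i))) = 0 := by
          have := h.symm; rw [hρ, div_eq_zero_iff] at this
          exact this.resolve_right hZ.ne'
        rw [this, mul_zero] at a1; linarith
      have b1 : ∑ i, 2 * (1 - (√(ρ i (w i)))⁻¹) ≤ Real.log (∏ i, ρ i (w i)) := by
        rw [Real.log_prod fun i _ => (hpos i).ne']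
        refine Finset.sum_le_sum fun i _ => ?_
        have := Real.one_sub_inv_le_log_of_pos (Real.sqrt_pos.mpr (hpos i))
        rw [Real.log_sqrt (hρ0 _ _)] at this; linarith
      have hPp : 0 < ∏ i, ρ i (w i) := Finset.prod_pos fun i _ => hpos i
      have b2 := Real.log_le_sub_one_of_pos (mul_pos hZ hPp)
      rw [Real.log_mul hZ.ne' hPp.ne'] at b2
      rw [← Finset.sum_mul]
      have b3 := mul_pos hZ hPp
      nlinarith [hp0 w, hp1 w]
  rw [Ex_sum, Ex_add, Ex_const_mul, Ex_const_mul, h3, show Ex μ (fun w => p w) = Zc from hZc] at h4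
  simp only [← h2, ← Finset.mul_sum] at h4
  have : Zc * ∑ i, ∑ z, μ z * (√(ρ i z) - 1) ^ 2 ≤ Zc * -Real.log Zc := by linarith
  exact le_of_mul_le_mul_left this hZ

variable {α β γ δ : Type} [Fintype α] [Fintype β] [Fintype γ] [Fintype δ]
  [DecidableEq α] [DecidableEq β] [DecidableEq γ] [DecidableEq δ]

section bd
variable {R : Type} [Fintype R] [DecidableEq R]

lemma qf_bd (K : R → Matrix α β ℂ) (E : R → Matrix α α ℂ) (F : R → Matrix β β ℂ) :
    qf (blockDiagonal K) (blockDiagonal E) (blockDiagonal F) = ∑ r, qf (K r) (E r) (F r) := by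
  simp only [qf, rt, blockDiagonal_conjTranspose, ← blockDiagonal_mul, trace_blockDiagonal,
    Complex.re_sum]

lemma fn2_bd (K : R → Matrix α β ℂ) : fn2 (blockDiagonal K) = ∑ r, fn2 (K r) := by
  simp only [fn2, rt, blockDiagonal_conjTranspose, ← blockDiagonal_mul, trace_blockDiagonal,
    Complex.re_sum]

lemma psd_bd {E : R → Matrix α α ℂ} (h : ∀ r, (E r).PosSemidef) : (blockDiagonal E).PosSemidef := by
  choose C hC using fun r => exists_fac (h r)
  have : blockDiagonal E = (blockDiagonal C)ᴴ * blockDiagonal C := by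
    rw [blockDiagonal_conjTranspose, ← blockDiagonal_mul]; congr 1; ext1 r; exact hC r
  rw [this]; exact posSemidef_conjTranspose_mul_self _

lemma subP_bd {A : Type} [Fintype A] {E : R → A → Matrix α α ℂ} (h : ∀ r, SubP (E r)) :
    SubP fun a => blockDiagonal fun r => E r a := by
  refine ⟨fun a => psd_bd fun r => (h r).1 a, ?_⟩
  have : (1 : Matrix (α × R) (α × R) ℂ) - ∑ a, blockDiagonal (fun r => E r a) =
      blockDiagonal fun r => 1 - ∑ a, E r a := by
    ext ⟨p, r⟩ ⟨q, s⟩
    simp only [Matrix.sub_apply, Matrix.sum_apply, blockDiagonal_apply, one_apply, Prod.mk.injEq]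
    by_cases h : r = s <;> simp [h]
  rw [this]; exact psd_bd fun r => (h r).2

lemma win_bd {A B : Type} [Fintype A] [Fintype B] (acc : A → B → Bool) (K : R → Matrix α β ℂ)
    (E : R → A → Matrix α α ℂ) (F : R → B → Matrix β β ℂ) :
    win acc (blockDiagonal K) (fun a => blockDiagonal fun r => E r a)
      (fun b => blockDiagonal fun r => F r b) = ∑ r, win acc (K r) (E r) (F r) := by
  simp only [win, qf_bd]
  rw [Finset.sum_comm (s := Finset.univ (α := R))]
  refine Finset.sum_congr rfl fun a _ => ?_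
  rw [Finset.sum_comm (s := Finset.univ (α := R))]
  refine Finset.sum_congr rfl fun b _ => ?_
  split_ifs <;> simp

end bd

/-- push-forward of a measurement -/
noncomputable def push {A A' : Type} [Fintype A] [DecidableEq A'] (f : A → A')
    (M : A → Matrix α α ℂ) (a' : A') : Matrix α α ℂ := ∑ a, if f a = a' then M a else 0

lemma push_psd {A A' : Type} [Fintype A] [DecidableEq A'] (f : A → A') {M : A → Matrix α α ℂ}
    (h : ∀ a, (M a).PosSemidef) (a' : A') : (push f M a').PosSemidef :=
  psd_sum _ fun a _ => by split_ifs; exacts [h a, PosSemidef.zero]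

lemma push_le_one {A A' : Type} [Fintype A] [DecidableEq A'] (f : A → A') {M : A → Matrix α α ℂ}
    (h : SubP M) (a' : A') : (1 - push f M a').PosSemidef := by
  have e : 1 - push f M a' = (1 - ∑ a, M a) + ∑ a, if f a = a' then 0 else M a := by
    have : ∑ a, M a = push f M a' + ∑ a, if f a = a' then 0 else M a := by
      rw [push, ← Finset.sum_add_distrib]
      exact Finset.sum_congr rfl fun a _ => by split_ifs <;> simp
    rw [this]; abel
  rw [e]
  exact h.2.add (psd_sum _ fun a _ => by split_ifs; exacts [PosSemidef.zero, h.1 a])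

lemma sum_push_pair {A A' A'' : Type} [Fintype A] [DecidableEq A'] [Fintype A''] [DecidableEq A'']
    (f : A → A') (g : A → A'') (M : A → Matrix α α ℂ) (a' : A') :
    ∑ a'', push (fun a => (f a, g a)) M (a', a'') = push f M a' := by
  simp only [push]
  rw [Finset.sum_comm]
  refine Finset.sum_congr rfl fun a _ => ?_
  by_cases h : f a = a' <;> simp [h]

lemma sum_qf_push {A A' B B' : Type} [Fintype A] [Fintype A'] [DecidableEq A'] [Fintype B]
    [Fintype B'] [DecidableEq B'] (f : A → A') (g : B → B') (K : Matrix α β ℂ)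
    (M : A → Matrix α α ℂ) (N : B → Matrix β β ℂ) (c : A' → B' → ℝ) :
    ∑ a', ∑ b', c a' b' * qf K (push f M a') (push g N b') =
      ∑ a, ∑ b, c (f a) (g b) * qf K (M a) (N b) := by
  have e : ∀ a' b', qf K (push f M a') (push g N b') =
      ∑ a, ∑ b, if f a = a' ∧ g b = b' then qf K (M a) (N b) else 0 := by
    intro a' b'
    rw [push, push, qf_sum_left]
    refine Finset.sum_congr rfl fun a _ => ?_
    rw [qf_sum_right]
    refine Finset.sum_congr rfl fun b _ => ?_
    by_cases h1 : f a = a' <;> by_cases h2 : g b = b' <;> simp [h1, h2, qf, rt]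
  simp only [e, Finset.mul_sum]
  rw [Finset.sum_congr rfl fun a' _ => Finset.sum_comm, Finset.sum_comm]
  refine Finset.sum_congr rfl fun a _ => ?_
  rw [Finset.sum_congr rfl fun a' _ => Finset.sum_comm, Finset.sum_comm]
  refine Finset.sum_congr rfl fun b _ => ?_
  rw [Finset.sum_eq_single (f a), Finset.sum_eq_single (g b)]
  · simp
  · intro b' _ h; simp [Ne.symm h]
  · simp
  · intro a' _ h; simp [Ne.symm h]
  · simp

lemma tower2 {X Y : Type} [Fintype X] [Fintype Y] [DecidableEq X] [DecidableEq Y]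
    {μ : X × Y → ℝ} (hμ : ∀ z, 0 ≤ μ z) {P Q : Finset ι} (hPQ : Disjoint P Q) (K : Matrix α β ℂ)
    {FA : (ι → X × Y) → Matrix α α ℂ} {FB : (ι → X × Y) → Matrix β β ℂ}
    (hA : ∀ i w z, z.1 = (w i).1 → FA (update w i z) = FA w)
    (hB : ∀ i w z, z.2 = (w i).2 → FB (update w i z) = FB w) {g : (ι → X × Y) → ℝ}
    (hg : ∀ i, i ∈ P ∨ i ∈ Q → ∀ w z, g (update w i z) = g w) :
    Ex μ (fun w => g w * qf K (cond μ Prod.snd P FA w) (cond μ Prod.fst Q FB w)) =
      Ex μ fun w => g w * qf K (FA w) (FB w) := by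
  have t1 := tower hμ Prod.fst Q FB (σ := fun w => g w • (Kᴴ * cond μ Prod.snd P FA w * K))
    (fun i hi w z hz => by
      simp only [hg i (Or.inr hi), cond_upd_not_mem μ Prod.snd Prod.fst
        (Finset.disjoint_right.mp hPQ hi) (hA i) w hz])
  have t2 := tower hμ Prod.snd P FA (σ := fun w => g w • (K * FB w * Kᴴ))
    (fun i hi w z hz => by simp only [hg i (Or.inl hi), hB i w z hz])
  simp only [Matrix.smul_mul, rt_smul] at t1 t2
  refine t1.trans ?_
  have e : ∀ (E : Matrix α α ℂ) (F : Matrix β β ℂ), rt (Kᴴ * E * K * F) = rt (K * F * Kᴴ * E) := by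
    intro E F
    have := qf_swap K E F
    simpa only [qf, conjTranspose_conjTranspose] using this
  simp only [qf, e]
  exact t2

end Crest.Agent.H5.PR
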