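import Crest.Agent.H5.PR.A7

set_option autoImplicit false
set_option linter.unusedSectionVars false

namespace Crest.Agent.H5.PR

open Matrix Function
open scoped ComplexOrder MatrixOrder BigOperators

variable {ι X Y A B α β : Type} [Fintype ι] [DecidableEq ι] [Fintype X] [DecidableEq X]
  [Fintype Y] [DecidableEq Y] [Fintype A] [DecidableEq A] [Fintype B] [DecidableEq B]
  [Fintype α] [DecidableEq α] [Fintype β] [DecidableEq β]

/-- expectation under the repeated strategy -/
noncomputable def EP (μ : X × Y → ℝ) (K : Matrix α β ℂ) (M : (ι → X) → (ι → A) → Matrix α α ℂ)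
    (N : (ι → Y) → (ι → B) → Matrix β β ℂ) (f : (ι → X × Y) → (ι → A) → (ι → B) → ℝ) : ℝ :=
  Ex μ fun w => ∑ a, ∑ b, f w a b * qf K (M (fun j => (w j).1) a) (N (fun j => (w j).2) b)

/-- indicator of winning all coordinates of `C` -/
noncomputable def wc (acc : X → Y → A → B → Bool) (C : Finset ι) (w : ι → X × Y) (a : ι → A)
    (b : ι → B) : ℝ := if ∀ j ∈ C, acc (w j).1 (w j).2 (a j) (b j) = true then 1 else 0

/-- restriction to `C` -/
def rs (C : Finset ι) (a : ι → A) : C → A := fun j => a j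

/-- indicator of winning on `C`, from the restricted answers -/
noncomputable def wt (acc : X → Y → A → B → Bool) (C : Finset ι) (r : (C → A) × (C → B))
    (w : ι → X × Y) : ℝ := if ∀ j : C, acc (w j).1 (w j).2 (r.1 j) (r.2 j) = true then 1 else 0

lemma wt_rs (acc : X → Y → A → B → Bool) (C : Finset ι) (w : ι → X × Y) (a : ι → A) (b : ι → B) :
    wt acc C (rs C a, rs C b) w = wc acc C w a b := by
  simp only [wt, wc, rs, Subtype.forall]

lemma wt_nonneg (acc : X → Y → A → B → Bool) (C : Finset ι) (r : (C → A) × (C → B))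
    (w : ι → X × Y) : 0 ≤ wt acc C r w := by unfold wt; split_ifs <;> norm_num
lemma wt_le_one (acc : X → Y → A → B → Bool) (C : Finset ι) (r : (C → A) × (C → B))
    (w : ι → X × Y) : wt acc C r w ≤ 1 := by unfold wt; split_ifs <;> norm_num

lemma wt_update (acc : X → Y → A → B → Bool) {C : Finset ι} (r : (C → A) × (C → B))
    (w : ι → X × Y) {i : ι} (hi : i ∉ C) (z : X × Y) : wt acc C r (update w i z) = wt acc C r w := by
  have : ∀ j : C, update w i z j = w j := fun j => update_of_ne (by rintro rfl; exact hi j.2) _ _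
  simp only [wt, this]

lemma fst_update (w : ι → X × Y) (i : ι) {z : X × Y} (h : z.1 = (w i).1) :
    (fun j => (update w i z j).1) = fun j => (w j).1 := by
  ext j; by_cases hj : j = i
  · subst hj; simp [h]
  · rw [update_of_ne hj]
lemma snd_update (w : ι → X × Y) (i : ι) {z : X × Y} (h : z.2 = (w i).2) :
    (fun j => (update w i z j).2) = fun j => (w j).2 := by
  ext j; by_cases hj : j = i
  · subst hj; simp [h]
  · rw [update_of_ne hj]

lemma blk_avg {Z R : Type} [Fintype Z] [DecidableEq Z] [Fintype R] {μ : Z → ℝ} (hμ : ∀ z, 0 ≤ μ z)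
    (hμ1 : ∑ z, μ z = 1) (i : ι) (u : R → (ι → Z) → ℝ) (hu : ∀ r w, 0 ≤ u r w)
    (hu' : ∀ r w z, u r (update w i z) = u r w) {Zc : ℝ} (hZ : 0 < Zc)
    (G : R → (ι → Z) → Z → ℝ) :
    ∑ z, μ z * ∑ ρ : (ι → Z) × R, √(pw μ ρ.1 * u ρ.2 ρ.1 / Zc) ^ 2 * G ρ.2 (update ρ.1 i z) z =
      (∑ r, Ex μ fun w => u r w * G r w (w i)) / Zc := by
  rw [← Ex_sum, ← ex_update hμ1 i fun w z => ∑ r, u r w * G r w z, Finset.sum_div]
  refine Finset.sum_congr rfl fun z _ => ?_
  rw [mul_div_assoc, Ex, Fintype.sum_prod_type, Finset.sum_div]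
  congr 1
  refine Finset.sum_congr rfl fun w _ => ?_
  rw [Finset.mul_sum, Finset.sum_div]
  refine Finset.sum_congr rfl fun r _ => ?_
  rw [Real.sq_sqrt (div_nonneg (mul_nonneg (pw_nonneg hμ _) (hu _ _)) hZ.le), hu']; ring

section main
variable (μ : X × Y → ℝ) (acc : X → Y → A → B → Bool) (K : Matrix α β ℂ)
  (M : (ι → X) → (ι → A) → Matrix α α ℂ) (N : (ι → Y) → (ι → B) → Matrix β β ℂ) (C : Finset ι)

/-- first player's coarse operators -/
noncomputable def cA (S : Finset ι) (a : C → A) : (ι → X × Y) → Matrix α α ℂ :=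
  cond μ Prod.snd S fun w => push (rs C) (M fun j => (w j).1) a
/-- second player's coarse operators -/
noncomputable def cB (S : Finset ι) (b : C → B) : (ι → X × Y) → Matrix β β ℂ :=
  cond μ Prod.fst S fun w => push (rs C) (N fun j => (w j).2) b

/-- probability of winning on `C` given the questions -/
noncomputable def pC (w : ι → X × Y) : ℝ :=
  ∑ a, ∑ b, wc acc C w a b * qf K (M (fun j => (w j).1) a) (N (fun j => (w j).2) b)

lemma sum_wt (w : ι → X × Y) : ∑ r : (C → A) × (C → B), wt acc C r w *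
    qf K (push (rs C) (M fun j => (w j).1) r.1) (push (rs C) (N fun j => (w j).2) r.2) =
    pC acc K M N C w := by
  rw [Fintype.sum_prod_type, sum_qf_push (rs C) (rs C) K _ _ fun a b => wt acc C (a, b) w]
  simp only [wt_rs, pC]

variable {μ acc K M N C}

lemma sum_wt_cond (hμ : ∀ z, 0 ≤ μ z) {P Q : Finset ι} (hPQ : Disjoint P Q) (hP : P ⊆ Cᶜ)
    (hQ : Q ⊆ Cᶜ) {g : (ι → X × Y) → ℝ}
    (hg : ∀ i, i ∈ P ∨ i ∈ Q → ∀ w z, g (update w i z) = g w) :
    ∑ r : (C → A) × (C → B), Ex μ (fun w => g w * wt acc C r w *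
      qf K (cA μ M C P r.1 w) (cB μ N C Q r.2 w)) = Ex μ fun w => g w * pC acc K M N C w := by
  simp only [← sum_wt, Finset.mul_sum, Ex_sum, ← mul_assoc]
  refine Finset.sum_congr rfl fun r _ => ?_
  exact tower2 hμ hPQ K (g := fun w => g w * wt acc C r w)
    (fun i w z h => by simp only [fst_update w i h])
    (fun i w z h => by simp only [snd_update w i h])
    (fun i hi w z => by
      have : i ∉ C := Finset.mem_compl.mp (hi.elim (fun h => hP h) fun h => hQ h)
      simp only [hg i hi, wt_update acc r w this])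

set_option synthInstance.maxSize 2048 in
theorem triple [Nonempty X] [Nonempty Y] {v L : ℝ} (hRH : RH μ acc v L) (hμ : ∀ z, 0 ≤ μ z)
    (hμ1 : ∑ z, μ z = 1) (hM : ∀ x, SubP (M x)) (hN : ∀ y, SubP (N y)) {Zc : ℝ} (hZ : 0 < Zc)
    (hZc : Ex μ (pC acc K M N C) = Zc) {γ δ : Type} [Fintype γ] [DecidableEq γ] [Fintype δ]
    [DecidableEq δ] {DA : Matrix α α ℂ → Matrix γ α ℂ} {DB : Matrix β β ℂ → Matrix δ β ℂ}
    (hDA : ∀ S a w, (DA (cA μ M C S a w))ᴴ * DA (cA μ M C S a w) = cA μ M C S a w)
    (hDB : ∀ S b w, (DB (cB μ N C S b w))ᴴ * DB (cB μ N C S b w) = cB μ N C S b w)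
    {i : ι} {P Q : Finset ι} (hv : Val Cᶜ i P Q) :
    EP μ K M N (fun w a b => wc acc C w a b *
      if acc (w i).1 (w i).2 (a i) (b i) = true then 1 else 0) ≤ Zc * v + L *
      (∑ r : (C → A) × (C → B), Ex μ (fun w => rt ((wt acc C r w • (Kᴴ * cA μ M C P r.1 w * K)) *
        ((DB (cB μ N C (insert i Q) r.2 w) - DB (cB μ N C Q r.2 w))ᴴ *
         (DB (cB μ N C (insert i Q) r.2 w) - DB (cB μ N C Q r.2 w))))) +
       ∑ r : (C → A) × (C → B), Ex μ (fun w => rt ((wt acc C r w • (K * cB μ N C Q r.2 w * Kᴴ)) *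
        ((DA (cA μ M C (insert i P) r.1 w) - DA (cA μ M C P r.1 w))ᴴ *
         (DA (cA μ M C (insert i P) r.1 w) - DA (cA μ M C P r.1 w))))) +
       Zc * ∑ z, μ z * (√(Ex μ (fun w => pC acc K M N C (update w i z)) / Zc) - 1) ^ 2) := by
  obtain ⟨hiO, hP, hQ, hPQ, hiP, hiQ⟩ := hv
  have hiC : i ∉ C := Finset.mem_compl.mp hiO
  obtain ⟨x0⟩ := ‹Nonempty X›
  obtain ⟨y0⟩ := ‹Nonempty Y›
  -- invariance
  have iA : ∀ (F : (ι → X) → Matrix α α ℂ) w (z : X × Y),
      cond μ Prod.snd P (fun w => F fun j => (w j).1) (update w i (z.1, y0)) =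
      cond μ Prod.snd P (fun w => F fun j => (w j).1) (update w i z) := by
    intro F w z
    have := cond_upd_not_mem μ Prod.snd Prod.fst hiP (F := fun w => F fun j => (w j).1)
      (fun w z h => by simp only [fst_update w i h]) (update w i z) (z := (z.1, y0)) (by simp)
    rwa [update_idem] at this
  have iB : ∀ (F : (ι → Y) → Matrix β β ℂ) w (z : X × Y),
      cond μ Prod.fst Q (fun w => F fun j => (w j).2) (update w i (x0, z.2)) =
      cond μ Prod.fst Q (fun w => F fun j => (w j).2) (update w i z) := by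
    intro F w z
    have := cond_upd_not_mem μ Prod.fst Prod.snd hiQ (F := fun w => F fun j => (w j).2)
      (fun w z h => by simp only [snd_update w i h]) (update w i z) (z := (x0, z.2)) (by simp)
    rwa [update_idem] at this
  have iA1 : ∀ a w (z : X × Y), cA μ M C P a (update w i (z.1, y0)) = cA μ M C P a (update w i z) :=
    fun a => iA fun x => push (rs C) (M x) a
  have iB1 : ∀ b w (z : X × Y), cB μ N C Q b (update w i (x0, z.2)) = cB μ N C Q b (update w i z) :=
    fun b => iB fun y => push (rs C) (N y) b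
  have iA2 : ∀ a w (z : X × Y), cA μ M C (insert i P) a (update w i (x0, z.2)) =
      cA μ M C (insert i P) a (update w i z) := by
    intro a w z
    have := cond_upd_mem μ Prod.snd (Finset.mem_insert_self i P)
      (fun w => push (rs C) (M fun j => (w j).1) a) (update w i z) (z := (x0, z.2)) (by simp)
    rwa [update_idem] at this
  have iB2 : ∀ b w (z : X × Y), cB μ N C (insert i Q) b (update w i (z.1, y0)) =
      cB μ N C (insert i Q) b (update w i z) := by
    intro b w z
    have := cond_upd_mem μ Prod.fst (Finset.mem_insert_self i Q)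
      (fun w => push (rs C) (N fun j => (w j).2) b) (update w i z) (z := (z.1, y0)) (by simp)
    rwa [update_idem] at this
  -- lifts of the measurements
  choose E hE1 hE2 using fun (a : C → A) (w : ι → X × Y) => exists_lift (DA (cA μ M C P a w))
    (fun a0 => cond μ Prod.snd P
      (fun w => push (fun a => (rs C a, a i)) (M fun j => (w j).1) (a, a0)) w)
    (fun a0 => cond_psd hμ _ _ (fun w => push_psd _ (hM _).1 _) w)
    (by rw [hDA, ← cond_sum]; simp only [sum_push_pair, cA])
  choose F hF1 hF2 using fun (b : C → B) (w : ι → X × Y) => exists_lift (DB (cB μ N C Q b w))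
    (fun b0 => cond μ Prod.fst Q
      (fun w => push (fun b => (rs C b, b i)) (N fun j => (w j).2) (b, b0)) w)
    (fun b0 => cond_psd hμ _ _ (fun w => push_psd _ (hN _).1 _) w)
    (by rw [hDB, ← cond_sum]; simp only [sum_push_pair, cB])
  set c : (ι → X × Y) × ((C → A) × (C → B)) → ℝ :=
    fun ρ => √(pw μ ρ.1 * wt acc C ρ.2 ρ.1 / Zc) with hc
  have avg := fun G => blk_avg hμ hμ1 i (wt acc C) (wt_nonneg acc C)
    (fun r w z => wt_update acc r w hiC z) hZ G
  set W : X × Y → Matrix (γ × ((ι → X × Y) × ((C → A) × (C → B))))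
      (δ × ((ι → X × Y) × ((C → A) × (C → B)))) ℂ := fun z => blockDiagonal fun ρ =>
    c ρ • (DA (cA μ M C P ρ.2.1 (update ρ.1 i z)) * K * (DB (cB μ N C Q ρ.2.2 (update ρ.1 i z)))ᴴ)
    with hW
  have fW : ∀ z, fn2 (W z) = ∑ ρ : (ι → X × Y) × ((C → A) × (C → B)), c ρ ^ 2 *
      qf K (cA μ M C P ρ.2.1 (update ρ.1 i z)) (cB μ N C Q ρ.2.2 (update ρ.1 i z)) := by
    intro z
    simp only [hW, fn2_bd, fn2_smul, fn2_kraus, hDA, hDB]
  have fW2 : ∀ g : X × Y → ℝ, ∑ z, μ z * (g z * fn2 (W z)) =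
      Ex μ (fun w => g (w i) * pC acc K M N C w) / Zc := by
    intro g
    rw [← sum_wt_cond hμ hPQ hP hQ (g := fun w => g (w i)) (fun j hj w z => by
      rw [update_of_ne (by rintro rfl; exact hj.elim hiP hiQ)])]
    have := avg fun r w z => g z * qf K (cA μ M C P r.1 w) (cB μ N C Q r.2 w)
    simp only [mul_left_comm (wt _ _ _ _), ← mul_assoc (g _)] at this
    rw [← this]
    refine Finset.sum_congr rfl fun z _ => ?_
    rw [fW, Finset.mul_sum]
    congr 1
    exact Finset.sum_congr rfl fun ρ _ => by ring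
  have key := hRH _ _ W
    (fun x => blockDiagonal fun ρ => c ρ • (DA (cA μ M C P ρ.2.1 (update ρ.1 i (x, y0))) * K *
      (DB (cB μ N C (insert i Q) ρ.2.2 (update ρ.1 i (x, y0))))ᴴ))
    (fun y => blockDiagonal fun ρ => c ρ • (DA (cA μ M C (insert i P) ρ.2.1 (update ρ.1 i (x0, y))) *
      K * (DB (cB μ N C Q ρ.2.2 (update ρ.1 i (x0, y))))ᴴ))
    (fun x a0 => blockDiagonal fun ρ => E ρ.2.1 (update ρ.1 i (x, y0)) a0)
    (fun y b0 => blockDiagonal fun ρ => F ρ.2.2 (update ρ.1 i (x0, y)) b0)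
    (fun x => subP_bd fun ρ => hE1 _ _) (fun y => subP_bd fun ρ => hF1 _ _)
    (by
      have := fW2 fun _ => 1
      simp only [one_mul] at this
      rw [this, show Ex μ (fun w => pC acc K M N C w) = Zc from hZc, div_self hZ.ne'])
  -- the winning probability
  have k1 : ∑ z, μ z * win (acc z.1 z.2) (W z)
      (fun a0 => blockDiagonal fun ρ : (ι → X × Y) × ((C → A) × (C → B)) =>
        E ρ.2.1 (update ρ.1 i (z.1, y0)) a0)
      (fun b0 => blockDiagonal fun ρ : (ι → X × Y) × ((C → A) × (C → B)) =>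
        F ρ.2.2 (update ρ.1 i (x0, z.2)) b0) =
      EP μ K M N (fun w a b => wc acc C w a b *
        if acc (w i).1 (w i).2 (a i) (b i) = true then 1 else 0) / Zc := by
    have h1 := avg fun r w z => ∑ a0, ∑ b0, (if acc z.1 z.2 a0 b0 = true then 1 else 0) *
      qf K (cond μ Prod.snd P
        (fun w => push (fun a => (rs C a, a i)) (M fun j => (w j).1) (r.1, a0)) w)
        (cond μ Prod.fst Q
        (fun w => push (fun b => (rs C b, b i)) (N fun j => (w j).2) (r.2, b0)) w)
    refine Eq.trans (Finset.sum_congr rfl fun z _ => ?_) (h1.trans ?_)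
    · congr 1
      rw [hW, win_bd]
      refine Finset.sum_congr rfl fun ρ _ => ?_
      rw [win_smul, win_kraus, ← iA1, ← iB1]
      simp only [hE2, hF2, win]
      congr 1
      refine Finset.sum_congr rfl fun a0 _ => Finset.sum_congr rfl fun b0 _ => ?_
      rw [iA fun x => push (fun a => (rs C a, a i)) (M x) (ρ.2.1, a0),
        iB fun y => push (fun b => (rs C b, b i)) (N y) (ρ.2.2, b0)]
      split_ifs <;> simp
    · congr 1
      simp only [Finset.mul_sum, Ex_sum, ← mul_assoc]
      have h2 : ∀ (r : (C → A) × (C → B)) a0 b0, _ := fun r a0 b0 => tower2 hμ hPQ K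
        (FA := fun w => push (fun a => (rs C a, a i)) (M fun j => (w j).1) (r.1, a0))
        (FB := fun w => push (fun b => (rs C b, b i)) (N fun j => (w j).2) (r.2, b0))
        (g := fun w => wt acc C r w * if acc (w i).1 (w i).2 a0 b0 = true then 1 else 0)
        (fun i w z h => by simp only [fst_update w i h])
        (fun i w z h => by simp only [snd_update w i h])
        (fun j hj w z => by
          have : j ∉ C := Finset.mem_compl.mp (hj.elim (fun h => hP h) fun h => hQ h)
          rw [wt_update acc r w this, update_of_ne (by rintro rfl; exact hj.elim hiP hiQ)])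
      simp only [h2]
      simp only [← Ex_sum, EP]
      congr 1; ext w
      have := sum_qf_push (fun a => (rs C a, a i)) (fun b => (rs C b, b i)) K
        (M fun j => (w j).1) (N fun j => (w j).2) fun a' b' => wt acc C (a'.1, b'.1) w *
          if acc (w i).1 (w i).2 a'.2 b'.2 = true then 1 else 0
      simp only [wt_rs] at this
      rw [← this]
      simp only [Fintype.sum_prod_type]
      refine Finset.sum_congr rfl fun a _ => Finset.sum_comm
  have k2 : ∑ z, μ z * fn2 (W z - blockDiagonal fun ρ : (ι → X × Y) × ((C → A) × (C → B)) =>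
      c ρ • (DA (cA μ M C P ρ.2.1 (update ρ.1 i (z.1, y0))) * K *
      (DB (cB μ N C (insert i Q) ρ.2.2 (update ρ.1 i (z.1, y0))))ᴴ)) =
      (∑ r : (C → A) × (C → B), Ex μ (fun w => rt ((wt acc C r w • (Kᴴ * cA μ M C P r.1 w * K)) *
        ((DB (cB μ N C (insert i Q) r.2 w) - DB (cB μ N C Q r.2 w))ᴴ *
         (DB (cB μ N C (insert i Q) r.2 w) - DB (cB μ N C Q r.2 w)))))) / Zc := by
    have h1 := avg fun r w _ => qf K (cA μ M C P r.1 w)
      ((DB (cB μ N C (insert i Q) r.2 w) - DB (cB μ N C Q r.2 w))ᴴ *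
         (DB (cB μ N C (insert i Q) r.2 w) - DB (cB μ N C Q r.2 w)))
    simp only [Matrix.smul_mul, rt_smul]
    refine Eq.trans (Finset.sum_congr rfl fun z _ => ?_) h1
    congr 1
    rw [fn2_sub_comm, hW, ← blockDiagonal_sub, fn2_bd]
    refine Finset.sum_congr rfl fun ρ _ => ?_
    rw [Pi.sub_apply, iA1, iB2, ← smul_sub, ← Matrix.mul_sub, ← conjTranspose_sub, fn2_smul,
      fn2_kraus, hDA]
  have k3 : ∑ z, μ z * fn2 (W z - blockDiagonal fun ρ : (ι → X × Y) × ((C → A) × (C → B)) =>
      c ρ • (DA (cA μ M C (insert i P) ρ.2.1 (update ρ.1 i (x0, z.2))) *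
      K * (DB (cB μ N C Q ρ.2.2 (update ρ.1 i (x0, z.2))))ᴴ)) =
      (∑ r : (C → A) × (C → B), Ex μ (fun w => rt ((wt acc C r w • (K * cB μ N C Q r.2 w * Kᴴ)) *
        ((DA (cA μ M C (insert i P) r.1 w) - DA (cA μ M C P r.1 w))ᴴ *
         (DA (cA μ M C (insert i P) r.1 w) - DA (cA μ M C P r.1 w)))))) / Zc := by
    have h1 := avg fun r w _ => rt (K * cB μ N C Q r.2 w * Kᴴ *
      ((DA (cA μ M C (insert i P) r.1 w) - DA (cA μ M C P r.1 w))ᴴ *
         (DA (cA μ M C (insert i P) r.1 w) - DA (cA μ M C P r.1 w))))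
    simp only [Matrix.smul_mul, rt_smul]
    refine Eq.trans (Finset.sum_congr rfl fun z _ => ?_) h1
    congr 1
    rw [fn2_sub_comm, hW, ← blockDiagonal_sub, fn2_bd]
    refine Finset.sum_congr rfl fun ρ _ => ?_
    rw [Pi.sub_apply, iA2, iB1, ← smul_sub, ← Matrix.sub_mul, ← Matrix.sub_mul, fn2_smul,
      fn2_kraus, hDB, qf_swap, qf, conjTranspose_conjTranspose]
  have k4 : ∑ z, μ z * (fn (W z) - 1) ^ 2 =
      ∑ z, μ z * (√(Ex μ (fun w => pC acc K M N C (update w i z)) / Zc) - 1) ^ 2 := by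
    refine Finset.sum_congr rfl fun z _ => ?_
    rcases (hμ z).eq_or_lt with h | h
    · rw [← h]; simp
    · have a1 := fW2 fun z' => if z' = z then 1 else 0
      rw [← ex_point hμ1, Finset.sum_eq_single z (by intro z' _ h; simp [h]) (by simp),
        if_pos rfl, one_mul, mul_div_assoc] at a1
      rw [fn_eq_sqrt, mul_left_cancel₀ h.ne' a1]
  simp only [mul_add, Finset.sum_add_distrib] at key
  rw [k1, k2, k3, k4, div_le_iff₀ hZ] at key
  refine key.trans (le_of_eq ?_)
  field_simp

end main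

end Crest.Agent.H5.PR
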