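import Crest.Agent.H5.PR.A8

set_option autoImplicit false
set_option linter.unusedSectionVars false

namespace Crest.Agent.H5.PR

open Matrix Function
open scoped ComplexOrder MatrixOrder BigOperators

variable {ι X Y A B α β : Type} [Fintype ι] [DecidableEq ι] [Fintype X] [DecidableEq X]
  [Fintype Y] [DecidableEq Y] [Fintype A] [DecidableEq A] [Fintype B] [DecidableEq B]
  [Fintype α] [DecidableEq α] [Fintype β] [DecidableEq β]

lemma wc_nonneg (acc : X → Y → A → B → Bool) (C : Finset ι) (w : ι → X × Y) (a : ι → A)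
    (b : ι → B) : 0 ≤ wc acc C w a b := by unfold wc; split_ifs <;> norm_num
lemma wc_le_one (acc : X → Y → A → B → Bool) (C : Finset ι) (w : ι → X × Y) (a : ι → A)
    (b : ι → B) : wc acc C w a b ≤ 1 := by unfold wc; split_ifs <;> norm_num

variable {μ : X × Y → ℝ} {acc : X → Y → A → B → Bool} {K : Matrix α β ℂ}
  {M : (ι → X) → (ι → A) → Matrix α α ℂ} {N : (ι → Y) → (ι → B) → Matrix β β ℂ}

theorem mainC [Nonempty X] [Nonempty Y] [Nonempty A] [Nonempty B] {v L : ℝ} (hRH : RH μ acc v L)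
    (hL : 0 ≤ L) (hμ : ∀ z, 0 ≤ μ z) (hμ1 : ∑ z, μ z = 1) (hK : fn2 K = 1) (hM : ∀ x, SubP (M x))
    (hN : ∀ y, SubP (N y)) (C : Finset ι) {Zc : ℝ} (hZ : 0 < Zc)
    (hZc : EP μ K M N (wc acc C) = Zc) :
    ∑ i ∈ Cᶜ, EP μ K M N (fun w a b => wc acc C w a b *
      if acc (w i).1 (w i).2 (a i) (b i) = true then 1 else 0) ≤
      Zc * (Cᶜ.card * v + 5 * L * (C.card * Real.log (Fintype.card A * Fintype.card B) -
        Real.log Zc)) := by
  have hZc' : Ex μ (pC acc K M N C) = Zc := hZc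
  have p0 : ∀ w, 0 ≤ pC acc K M N C w := fun w => Finset.sum_nonneg fun a _ =>
    Finset.sum_nonneg fun b _ => mul_nonneg (wc_nonneg _ _ _ _ _) (qf_nonneg _ ((hM _).1 _) ((hN _).1 _))
  have p1 : ∀ w, pC acc K M N C w ≤ 1 := by
    intro w
    have := win_le (fun _ _ => true) K (hM fun j => (w j).1) (hN fun j => (w j).2)
    rw [hK] at this
    refine le_trans (Finset.sum_le_sum fun a _ => Finset.sum_le_sum fun b _ => ?_) this
    rw [if_pos rfl]
    exact mul_le_of_le_one_left (qf_nonneg _ ((hM _).1 _) ((hN _).1 _)) (wc_le_one _ _ _ _ _)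
  have hZ1 : Zc ≤ 1 := by rw [← hZc', ← Ex_const (ι := ι) hμ1 1]; exact Ex_mono hμ p1
  set S : ℝ := ((Fintype.card ((C → A) × (C → B)) : ℕ) : ℝ) with hS
  have hS1 : 1 ≤ S := by rw [hS]; exact_mod_cast Fintype.card_pos
  have hlog : Real.log (S / Zc) =
      C.card * Real.log (Fintype.card A * Fintype.card B) - Real.log Zc := by
    rw [Real.log_div (by linarith) hZ.ne', ← Real.log_pow, hS]
    simp [mul_pow]
  set Γ := C.card * Real.log (Fintype.card A * Fintype.card B) - Real.log Zc with hΓ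
  have hΓ1 : -Real.log Zc ≤ Γ := by
    rw [← hlog, ← Real.log_inv]
    exact Real.log_le_log (inv_pos.mpr hZ) (by rw [div_eq_mul_inv]; nlinarith [inv_pos.mpr hZ])
  have pA : ∀ S a w, (cA μ M C S a w).PosSemidef := fun S a w =>
    cond_psd hμ _ _ (fun w => push_psd _ (hM _).1 _) w
  have pB : ∀ S b w, (cB μ N C S b w).PosSemidef := fun S b w =>
    cond_psd hμ _ _ (fun w => push_psd _ (hN _).1 _) w
  have qA : ∀ S a w, (1 - cA μ M C S a w).PosSemidef := fun S a w =>
    cond_le_one hμ _ _ (fun w => push_le_one _ (hM _) _) w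
  have qB : ∀ S b w, (1 - cB μ N C S b w).PosSemidef := fun S b w =>
    cond_le_one hμ _ _ (fun w => push_le_one _ (hN _) _) w
  obtain ⟨γ, _, _, DA, hDA⟩ := exists_dil
    (fun j : Finset ι × (C → A) × (ι → X × Y) => cA μ M C j.1 j.2.1 j.2.2) fun j => pA _ _ _
  obtain ⟨δ, _, _, DB, hDB⟩ := exists_dil
    (fun j : Finset ι × (C → B) × (ι → X × Y) => cB μ N C j.1 j.2.1 j.2.2) fun j => pB _ _ _
  have tr := fun i P Q (hv : Val Cᶜ i P Q) => triple (K := K) hRH hμ hμ1 hM hN hZ hZc'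
    (fun S a w => hDA.1 _ ⟨(S, a, w), rfl⟩) (fun S b w => hDB.1 _ ⟨(S, b, w), rfl⟩) hv
  have sS : ∀ f : (C → A) × (C → B) → (ι → X × Y) → ℝ, (∀ r w, f r w ≤ 1) → ∑ r, Ex μ (f r) ≤ S := by
    intro f hf
    calc _ ≤ ∑ r : (C → A) × (C → B), (1 : ℝ) := Finset.sum_le_sum fun r _ => by
          rw [← Ex_const (ι := ι) hμ1 1]; exact Ex_mono hμ (hf r)
      _ = S := by simp [hS]
  have cB' := sum_om_le Cᶜ (Γ := Zc * Γ) (fun i P Q => ∑ r : (C → A) × (C → B),
    Ex μ (fun w => rt ((wt acc C r w • (Kᴴ * cA μ M C P r.1 w * K)) *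
        ((DB (cB μ N C (insert i Q) r.2 w) - DB (cB μ N C Q r.2 w))ᴴ *
         (DB (cB μ N C (insert i Q) r.2 w) - DB (cB μ N C Q r.2 w)))))) (fun P hP => by
    rw [← hlog]
    refine chain hμ Prod.fst (Cᶜ \ P) (fun r w => wt acc C r w • (Kᴴ * cA μ M C P r.1 w * K))
      (fun r w => push (rs C) (N fun j => (w j).2) r.2)
      (fun r w => psd_rsmul ((pA _ _ _).conjTranspose_mul_mul_same K) (wt_nonneg _ _ _ _))
      (fun r w => push_psd _ (hN _).1 _) (fun r w => push_le_one _ (hN _) _) ?_ hDB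
      (fun Q r w => ⟨(Q, r.2, w), rfl⟩) hZ (hZ1.trans hS1) (sS _ fun r w => ?_) ?_
    · intro r i hi w z hz
      rw [Finset.mem_sdiff, Finset.mem_compl] at hi
      rw [wt_update acc r w hi.1, cA, cond_upd_not_mem μ Prod.snd Prod.fst hi.2
        (fun w z h => by simp only [fst_update w i h]) w hz]
    · have := qf_le_left K (qA P r.1 w) PosSemidef.one
      rw [qf_one_one, hK, qf, Matrix.mul_one] at this
      rw [rt_smul]
      exact mul_le_one₀ (wt_le_one _ _ _ _)
        (rt_nonneg ((pA _ _ _).conjTranspose_mul_mul_same K)) this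
    · have := sum_wt_cond (acc := acc) (K := K) (M := M) (N := N) hμ
        (Finset.disjoint_empty_right P) hP (Finset.empty_subset _)
        (g := fun _ => 1) (fun _ _ _ _ => rfl)
      simp only [one_mul, cB, cond_empty, qf] at this
      simp only [Matrix.smul_mul, rt_smul]
      exact this.trans hZc')
  have cA' := sum_om_le Cᶜ (Γ := Zc * Γ) (fun i Q P => ∑ r : (C → A) × (C → B),
    Ex μ (fun w => rt ((wt acc C r w • (K * cB μ N C Q r.2 w * Kᴴ)) *
        ((DA (cA μ M C (insert i P) r.1 w) - DA (cA μ M C P r.1 w))ᴴ *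
         (DA (cA μ M C (insert i P) r.1 w) - DA (cA μ M C P r.1 w)))))) (fun Q hQ => by
    rw [← hlog]
    refine chain hμ Prod.snd (Cᶜ \ Q) (fun r w => wt acc C r w • (K * cB μ N C Q r.2 w * Kᴴ))
      (fun r w => push (rs C) (M fun j => (w j).1) r.1)
      (fun r w => psd_rsmul ((pB _ _ _).mul_mul_conjTranspose_same K) (wt_nonneg _ _ _ _))
      (fun r w => push_psd _ (hM _).1 _) (fun r w => push_le_one _ (hM _) _) ?_ hDA
      (fun Q r w => ⟨(Q, r.1, w), rfl⟩) hZ (hZ1.trans hS1) (sS _ fun r w => ?_) ?_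
    · intro r i hi w z hz
      rw [Finset.mem_sdiff, Finset.mem_compl] at hi
      rw [wt_update acc r w hi.1, cB, cond_upd_not_mem μ Prod.fst Prod.snd hi.2
        (fun w z h => by simp only [snd_update w i h]) w hz]
    · have := qf_le_left Kᴴ (qB Q r.2 w) PosSemidef.one
      rw [qf_one_one, fn2_conjTranspose, hK, qf, Matrix.mul_one, conjTranspose_conjTranspose] at this
      rw [rt_smul]
      exact mul_le_one₀ (wt_le_one _ _ _ _)
        (rt_nonneg ((pB _ _ _).mul_mul_conjTranspose_same K)) this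
    · have := sum_wt_cond (acc := acc) (K := K) (M := M) (N := N) hμ
        (Finset.disjoint_empty_left Q) (Finset.empty_subset _) hQ
        (g := fun _ => 1) (fun _ _ _ _ => rfl)
      simp only [one_mul, cA, cond_empty] at this
      simp only [qf_swap K] at this
      simp only [qf, conjTranspose_conjTranspose] at this
      simp only [Matrix.smul_mul, rt_smul]
      exact this.trans hZc')
  rw [Finset.sum_congr rfl fun i _ => Finset.sum_comm] at cA'
  have mb := marg_bound hμ hμ1 _ p0 p1 hZ hZc'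
  set d : ι → ℝ := fun i =>
    ∑ z, μ z * (√(Ex μ (fun w => pC acc K M N C (update w i z)) / Zc) - 1) ^ 2 with hd
  have d0 : ∀ i, 0 ≤ d i := fun i => Finset.sum_nonneg fun z _ => mul_nonneg (hμ z) (sq_nonneg _)
  have mb2 : ∑ i ∈ Cᶜ, d i ≤ Γ :=
    ((Finset.sum_le_sum_of_subset_of_nonneg (Finset.subset_univ _) fun i _ _ => d0 i).trans mb).trans
      hΓ1
  set e : ι → ℝ := fun i => EP μ K M N (fun w a b => wc acc C w a b *
      if acc (w i).1 (w i).2 (a i) (b i) = true then 1 else 0) with he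
  set Ω : ℝ := (Cᶜ.card + 1).factorial / 2 with hΩ
  have hΩ0 : 0 < Ω := by rw [hΩ]; have := Nat.factorial_pos (Cᶜ.card + 1); positivity
  have av : ∀ f : ι → ℝ, Ω * ∑ i ∈ Cᶜ, f i = ∑ i, ∑ P : Finset ι, ∑ Q : Finset ι,
      (if Val Cᶜ i P Q then om Cᶜ.card P Q * f i else 0) := by
    intro f
    rw [Finset.mul_sum, ← Finset.univ_inter Cᶜ, ← Finset.sum_ite_mem, Finset.univ_inter]
    refine Finset.sum_congr rfl fun i _ => ?_
    split_ifs with hi
    · rw [hΩ, ← sum_om hi, Finset.sum_mul]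
      refine Finset.sum_congr rfl fun P _ => ?_
      rw [Finset.sum_mul]
      refine Finset.sum_congr rfl fun Q _ => ?_
      split_ifs <;> simp
    · symm
      exact Finset.sum_eq_zero fun P _ => Finset.sum_eq_zero fun Q _ => if_neg fun h => hi h.1
  have fin := add_le_add (le_refl (Ω * ∑ i ∈ Cᶜ, Zc * v)) (mul_le_mul_of_nonneg_left
    (add_le_add (add_le_add cB' cA') (le_refl (Ω * ∑ i ∈ Cᶜ, Zc * d i))) hL)
  have fin2 : Ω * ∑ i ∈ Cᶜ, e i ≤ _ := le_trans (by
    rw [av, av, av]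
    simp only [← Finset.sum_add_distrib, Finset.mul_sum]
    refine Finset.sum_le_sum fun i _ => Finset.sum_le_sum fun P _ => Finset.sum_le_sum fun Q _ => ?_
    by_cases hv : Val Cᶜ i P Q
    · rw [if_pos hv, if_pos hv, if_pos hv, if_pos hv, if_pos (val_symm.mp hv), om_symm _ Q P]
      have := mul_le_mul_of_nonneg_left (tr i P Q hv) (om_nonneg Cᶜ.card P Q)
      refine this.trans (le_of_eq ?_)
      simp only [← Finset.mul_sum]
      ring
    · rw [if_neg hv, if_neg hv, if_neg hv, if_neg hv, if_neg fun h => hv (val_symm.mp h)]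
      simp) fin
  rw [← Finset.mul_sum, ← Finset.mul_sum, Finset.sum_const, nsmul_eq_mul,
    show ((Cᶜ.card + 1).factorial : ℝ) = 2 * Ω by rw [hΩ]; ring] at fin2
  have t1 := mul_le_mul_of_nonneg_left mb2 (mul_nonneg (mul_nonneg hL hΩ0.le) hZ.le)
  refine le_of_mul_le_mul_left (fin2.trans ?_) hΩ0
  nlinarith

/-- entropy inequality -/
lemma ent_le {x y : ℝ} (hx : 0 ≤ x) (hy : 0 < y) :
    x * -Real.log x ≤ x * -Real.log y + y - x := by
  rcases hx.eq_or_lt with rfl | hx
  · simp [hy.le]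
  · have := Real.log_le_sub_one_of_pos (div_pos hy hx)
    rw [Real.log_div hy.ne' hx.ne'] at this
    have e : x * (y / x - 1) = y - x := by field_simp
    nlinarith

lemma sum_subsets (f g : ι → ℝ) :
    ∑ C : Finset ι, (∏ j ∈ C, f j) * ∏ j ∈ Cᶜ, g j = ∏ j, (f j + g j) := by
  rw [Finset.prod_add, Finset.powerset_univ]
  simp only [Finset.compl_eq_univ_sdiff]

/-- exponential tilting -/
theorem tilt {Ω : Type} [Fintype Ω] (Pr : Ω → ℝ) (hPr : ∀ ω, 0 ≤ Pr ω) (hPr1 : ∑ ω, Pr ω = 1)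
    (Wn : Ω → ι → Bool) {v L s θ lam p : ℝ} (hv0 : 0 ≤ v) (hL : 0 ≤ L) (hs : 0 ≤ s)
    (hθ : 0 ≤ θ) (hlam : 0 < lam) (hp : 0 < p)
    (hpe : p = ∑ ω, Pr ω * if θ * Fintype.card ι ≤
      ((Finset.univ.filter fun i => Wn ω i = true).card : ℝ) then 1 else 0)
    (H : ∀ (C : Finset ι) (Zc : ℝ), 0 < Zc →
      ∑ ω, Pr ω * (if ∀ j ∈ C, Wn ω j = true then 1 else 0) = Zc →
      ∑ i ∈ Cᶜ, ∑ ω, Pr ω * ((if ∀ j ∈ C, Wn ω j = true then 1 else 0) *
        if Wn ω i = true then 1 else 0) ≤ Zc * (Cᶜ.card * v + L * (C.card * s - Real.log Zc))) :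
    Fintype.card ι * (θ - v) ≤ -Real.log p * (1 / lam + L) +
      lam * Fintype.card ι * (1 + L * (1 + s)) := by
  set k : ℝ := (Fintype.card ι : ℝ) with hk
  have hk0 : 0 ≤ k := Nat.cast_nonneg _
  set q : ℝ := 1 - Real.exp (-lam) with hq
  have hq0 : 0 ≤ q := by have := Real.exp_le_one_iff.mpr (neg_nonpos.mpr hlam.le); linarith
  have hq1 : q ≤ lam := by have := Real.add_one_le_exp (-lam); linarith
  set wc : Finset ι → Ω → ℝ := fun C ω => if ∀ j ∈ C, Wn ω j = true then 1 else 0 with hwc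
  set Z : Finset ι → ℝ := fun C => ∑ ω, Pr ω * wc C ω with hZ
  set Pq : Finset ι → ℝ := fun C => (∏ _j ∈ C, q) * ∏ _j ∈ Cᶜ, Real.exp (-lam) with hPq
  set Λ : Ω → ℝ := fun ω => ∑ i, if Wn ω i = true then 0 else 1 with hΛ
  set u : Ω → ℝ := fun ω => Real.exp (-lam * Λ ω) with hu
  set Zb : ℝ := ∑ ω, Pr ω * u ω with hZb
  have wc0 : ∀ C ω, 0 ≤ wc C ω := fun C ω => by simp only [hwc]; split_ifs <;> norm_num
  have Z0 : ∀ C, 0 ≤ Z C := fun C => Finset.sum_nonneg fun ω _ => mul_nonneg (hPr ω) (wc0 C ω)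
  have Pq0 : ∀ C, 0 ≤ Pq C := fun C => by simp only [hPq]; positivity
  have Pq1 : ∑ C, Pq C = 1 := by simp only [hPq]; rw [sum_subsets]; simp [hq]
  have Λ0 : ∀ ω, 0 ≤ Λ ω := fun ω => Finset.sum_nonneg fun i _ => by split_ifs <;> norm_num
  have wcp : ∀ C ω, wc C ω = ∏ j ∈ C, if Wn ω j = true then (1 : ℝ) else 0 := by
    intro C ω; rw [Finset.prod_ite_zero]; simp [hwc]
  have up : ∀ ω, u ω = ∏ j, (q * (if Wn ω j = true then (1 : ℝ) else 0) + Real.exp (-lam)) := by
    intro ω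
    simp only [hu, hΛ, Finset.mul_sum, Real.exp_sum]
    refine Finset.prod_congr rfl fun j _ => ?_
    split_ifs <;> simp [hq]
  have I1 : ∀ ω, ∑ C, Pq C * wc C ω = u ω := by
    intro ω
    rw [up, ← sum_subsets]
    refine Finset.sum_congr rfl fun C _ => ?_
    rw [wcp, Finset.prod_mul_distrib, hPq]; ring
  have I3 : ∀ ω, ∑ C, Pq C * wc C ω * C.card ≤ q * k * u ω := by
    intro ω
    have e : ∀ C : Finset ι, (C.card : ℝ) = ∑ i, if i ∈ C then 1 else 0 := by intro C; simp
    simp only [e, Finset.mul_sum]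
    rw [Finset.sum_comm]
    calc _ ≤ ∑ _i : ι, q * u ω := Finset.sum_le_sum fun i _ => ?_
      _ = _ := by simp [hk]; ring
    have a1 := sum_subsets (fun j => q * (if Wn ω j = true then (1 : ℝ) else 0))
      fun j => if j = i then 0 else Real.exp (-lam)
    have a2 : ∑ C : Finset ι, Pq C * wc C ω * (if i ∈ C then 1 else 0) =
        ∑ C : Finset ι, (∏ j ∈ C, q * (if Wn ω j = true then (1 : ℝ) else 0)) *
          ∏ j ∈ Cᶜ, if j = i then 0 else Real.exp (-lam) := by
      refine Finset.sum_congr rfl fun C _ => ?_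
      split_ifs with h
      · rw [wcp, Finset.prod_mul_distrib, hPq, Finset.prod_congr rfl (g := fun _ => Real.exp (-lam))
          fun j hj => if_neg (by rintro rfl; exact Finset.mem_compl.mp hj h)]
        ring
      · rw [Finset.prod_eq_zero (f := fun j => if j = i then (0 : ℝ) else Real.exp (-lam))
          (Finset.mem_compl.mpr h) (if_pos rfl)]; ring
    rw [a2, a1, up, ← Finset.mul_prod_erase _ _ (Finset.mem_univ i),
      ← Finset.mul_prod_erase Finset.univ (fun j => q * (if Wn ω j = true then (1 : ℝ) else 0) +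
        Real.exp (-lam)) (Finset.mem_univ i), ← mul_assoc,
      Finset.prod_congr rfl (g := fun j => q * (if Wn ω j = true then (1 : ℝ) else 0) +
        Real.exp (-lam)) fun j hj => by rw [if_neg (Finset.ne_of_mem_erase hj)]]
    refine mul_le_mul_of_nonneg_right ?_ (Finset.prod_nonneg fun j _ => by positivity)
    rw [if_pos rfl]
    split_ifs
    · simp [hq]
    · simp; positivity
  have Zb0 : p * Real.exp (-lam * ((1 - θ) * k)) ≤ Zb := by
    rw [hpe, Finset.sum_mul]
    refine Finset.sum_le_sum fun ω _ => ?_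
    rw [mul_assoc]
    refine mul_le_mul_of_nonneg_left ?_ (hPr ω)
    split_ifs with h
    · rw [one_mul]
      refine Real.exp_le_exp.mpr ?_
      have : Λ ω + ((Finset.univ.filter fun i => Wn ω i = true).card : ℝ) = k := by
        rw [Finset.card_filter, hΛ, hk]; push_cast
        rw [← Finset.sum_add_distrib, Finset.sum_congr rfl (g := fun _ => (1 : ℝ))
          fun i _ => by split_ifs <;> norm_num]
        simp
      nlinarith
    · rw [zero_mul]; exact (Real.exp_pos _).le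
  have Zbp : 0 < Zb := lt_of_lt_of_le (by positivity) Zb0
  have hl : -Real.log Zb ≤ -Real.log p + lam * ((1 - θ) * k) := by
    have := Real.log_le_log (by positivity) Zb0
    rw [Real.log_mul hp.ne' (Real.exp_pos _).ne', Real.log_exp] at this
    linarith
  have sZ : ∑ C, Pq C * Z C = Zb := by
    simp only [hZ, hZb, ← I1, Finset.mul_sum]
    rw [Finset.sum_comm]
    exact Finset.sum_congr rfl fun ω _ => Finset.sum_congr rfl fun C _ => by ring
  have sC : ∑ C, Pq C * (Z C * C.card) ≤ q * k * Zb := by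
    simp only [hZ, hZb, Finset.mul_sum, Finset.sum_mul]
    rw [Finset.sum_comm]
    refine Finset.sum_le_sum fun ω _ => ?_
    have := mul_le_mul_of_nonneg_left (I3 ω) (hPr ω)
    rw [Finset.mul_sum] at this
    refine le_trans (le_of_eq (Finset.sum_congr rfl fun C _ => by ring)) (this.trans (le_of_eq ?_))
    ring
  have J1 : ∑ C, Pq C * (Z C * -Real.log (Z C)) ≤ Zb * -Real.log Zb := by
    calc _ ≤ ∑ C, Pq C * (Z C * -Real.log Zb + Zb - Z C) := Finset.sum_le_sum fun C _ =>
          mul_le_mul_of_nonneg_left (ent_le (Z0 C) Zbp) (Pq0 C)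
      _ = (∑ C, Pq C * Z C) * -Real.log Zb + (∑ C, Pq C) * Zb - ∑ C, Pq C * Z C := by
          rw [Finset.sum_mul, Finset.sum_mul, ← Finset.sum_add_distrib, ← Finset.sum_sub_distrib]
          exact Finset.sum_congr rfl fun C _ => by ring
      _ = _ := by rw [sZ, Pq1]; ring
  have J2 : lam * ∑ ω, Pr ω * (Λ ω * u ω) ≤ Zb * -Real.log Zb := by
    calc _ = ∑ ω, Pr ω * (u ω * -Real.log (u ω)) := by
          rw [Finset.mul_sum]
          exact Finset.sum_congr rfl fun ω _ => by simp only [hu, Real.log_exp]; ring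
      _ ≤ ∑ ω, Pr ω * (u ω * -Real.log Zb + Zb - u ω) := Finset.sum_le_sum fun ω _ =>
          mul_le_mul_of_nonneg_left (ent_le (Real.exp_pos _).le Zbp) (hPr ω)
      _ = (∑ ω, Pr ω * u ω) * -Real.log Zb + (∑ ω, Pr ω) * Zb - ∑ ω, Pr ω * u ω := by
          rw [Finset.sum_mul, Finset.sum_mul, ← Finset.sum_add_distrib, ← Finset.sum_sub_distrib]
          exact Finset.sum_congr rfl fun C _ => by ring
      _ = _ := by rw [hPr1]; ring
  have loss : ∀ C, Z C * k * (1 - v) - (1 + L * s) * (Z C * C.card) - L * (Z C * -Real.log (Z C)) ≤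
      ∑ ω, Pr ω * (wc C ω * Λ ω) := by
    intro C
    rcases (Z0 C).eq_or_lt with h | h
    · rw [← h]; simp only [zero_mul, mul_zero, sub_zero]
      exact Finset.sum_nonneg fun ω _ => mul_nonneg (hPr ω) (mul_nonneg (wc0 C ω) (Λ0 ω))
    · have a1 := H C (Z C) h rfl
      have a2 : Z C * Cᶜ.card - ∑ i ∈ Cᶜ, ∑ ω, Pr ω * (wc C ω * if Wn ω i = true then 1 else 0) ≤
          ∑ ω, Pr ω * (wc C ω * Λ ω) := by
        rw [Finset.sum_comm, hZ, Finset.sum_mul, ← Finset.sum_sub_distrib]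
        refine Finset.sum_le_sum fun ω _ => ?_
        rw [← Finset.mul_sum, ← Finset.mul_sum, mul_assoc, ← mul_sub, ← mul_sub]
        refine mul_le_mul_of_nonneg_left (mul_le_mul_of_nonneg_left ?_ (wc0 C ω)) (hPr ω)
        calc _ = ∑ i ∈ Cᶜ, if Wn ω i = true then (0 : ℝ) else 1 := by
              rw [Finset.card_eq_sum_ones]; push_cast
              rw [← Finset.sum_sub_distrib]
              exact Finset.sum_congr rfl fun i _ => by split_ifs <;> norm_num
          _ ≤ _ := Finset.sum_le_sum_of_subset_of_nonneg (Finset.subset_univ _)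
              fun i _ _ => by split_ifs <;> norm_num
      have a3 : (Cᶜ.card : ℝ) = k - C.card := by
        rw [Finset.card_compl, Nat.cast_sub (Finset.card_le_univ C)]
      rw [a3] at a1 a2
      have a4 : 0 ≤ Z C * C.card * v := by positivity
      nlinarith
  have tot : Zb * k * (1 - v) - (1 + L * s) * (q * k * Zb) - L * (Zb * -Real.log Zb) ≤
      ∑ ω, Pr ω * (Λ ω * u ω) := by
    have b1 := Finset.sum_le_sum fun C (_ : C ∈ Finset.univ) =>
      mul_le_mul_of_nonneg_left (loss C) (Pq0 C)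
    have b2 : ∑ C, Pq C * ∑ ω, Pr ω * (wc C ω * Λ ω) = ∑ ω, Pr ω * (Λ ω * u ω) := by
      simp only [← I1, Finset.mul_sum]
      rw [Finset.sum_comm]
      exact Finset.sum_congr rfl fun ω _ => Finset.sum_congr rfl fun C _ => by ring
    have b3 : ∑ C, Pq C * (Z C * k * (1 - v) - (1 + L * s) * (Z C * C.card) -
        L * (Z C * -Real.log (Z C))) = (∑ C, Pq C * Z C) * (k * (1 - v)) -
        (1 + L * s) * ∑ C, Pq C * (Z C * C.card) - L * ∑ C, Pq C * (Z C * -Real.log (Z C)) := by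
      rw [Finset.sum_mul, Finset.mul_sum, Finset.mul_sum, ← Finset.sum_sub_distrib,
        ← Finset.sum_sub_distrib]
      exact Finset.sum_congr rfl fun C _ => by ring
    rw [b2, b3, sZ] at b1
    have b4 := mul_le_mul_of_nonneg_left sC (show 0 ≤ 1 + L * s by positivity)
    have b5 := mul_le_mul_of_nonneg_left J1 hL
    linarith
  have c1 : lam * (k * (1 - v) - (1 + L * s) * (q * k) - L * -Real.log Zb) ≤ -Real.log Zb := by
    have := (mul_le_mul_of_nonneg_left tot hlam.le).trans J2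
    refine le_of_mul_le_mul_left ?_ Zbp
    linarith
  have c2 : k * (1 - v) - (1 + L * s) * (q * k) - L * -Real.log Zb ≤
      -Real.log p * (1 / lam) + (1 - θ) * k := by
    refine le_of_mul_le_mul_left (c1.trans (hl.trans (le_of_eq ?_))) hlam
    field_simp
  have c3 : (1 + L * s) * (q * k) ≤ (1 + L * s) * (lam * k) := by gcongr
  have c4 := mul_le_mul_of_nonneg_left hl hL
  have c5 : 0 ≤ L * (lam * (θ * k)) := by positivity
  nlinarith

/-- threshold parallel repetition from a rounding hypothesis -/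
theorem rep [Nonempty X] [Nonempty Y] [Nonempty A] [Nonempty B] {v L δ : ℝ}
    (hRH : RH μ acc (v + δ / 4) L) (hL : 1 ≤ L) (hv : 0 ≤ v) (hδ : 0 < δ) (hδ1 : δ ≤ 1)
    (hμ : ∀ z, 0 ≤ μ z) (hμ1 : ∑ z, μ z = 1) (hK : fn2 K = 1)
    (hM : ∀ x a, (M x a).PosSemidef) (hN : ∀ y b, (N y b).PosSemidef)
    (hM1 : ∀ x, ∑ a, M x a = 1) (hN1 : ∀ y, ∑ b, N y b = 1) :
    EP μ K M N (fun w a b => if (v + δ) * Fintype.card ι ≤ ((Finset.univ.filter fun i =>
      acc (w i).1 (w i).2 (a i) (b i) = true).card : ℝ) then 1 else 0) ≤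
      Real.exp (-(δ ^ 2 / (58 * L * (1 + Real.log (Fintype.card A * Fintype.card B))) *
        Fintype.card ι)) := by
  set s := Real.log (Fintype.card A * Fintype.card B) with hs
  have hs0 : 0 ≤ s := by
    have h1 : (1 : ℝ) ≤ Fintype.card A := by exact_mod_cast Fintype.card_pos
    have h2 : (1 : ℝ) ≤ Fintype.card B := by exact_mod_cast Fintype.card_pos
    exact Real.log_nonneg (by nlinarith)
  set Pr : (ι → X × Y) × (ι → A) × (ι → B) → ℝ := fun ω =>
    pw μ ω.1 * qf K (M (fun j => (ω.1 j).1) ω.2.1) (N (fun j => (ω.1 j).2) ω.2.2) with hPr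
  have conv : ∀ f : (ι → X × Y) → (ι → A) → (ι → B) → ℝ,
      EP μ K M N f = ∑ ω, Pr ω * f ω.1 ω.2.1 ω.2.2 := by
    intro f
    simp only [EP, Ex, Fintype.sum_prod_type, Finset.mul_sum, hPr]
    exact Finset.sum_congr rfl fun w _ => Finset.sum_congr rfl fun a _ =>
      Finset.sum_congr rfl fun b _ => by ring
  have hSM : ∀ x, SubP (M x) := fun x => ⟨hM x, by rw [hM1, sub_self]; exact PosSemidef.zero⟩
  have hSN : ∀ y, SubP (N y) := fun y => ⟨hN y, by rw [hN1, sub_self]; exact PosSemidef.zero⟩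
  have Pr0 : ∀ ω, 0 ≤ Pr ω := fun ω => mul_nonneg (pw_nonneg hμ _) (qf_nonneg _ (hM _ _) (hN _ _))
  have Pr1 : ∑ ω, Pr ω = 1 := by
    have := conv fun _ _ _ => 1
    simp only [mul_one, EP, one_mul, ← qf_sum_right, ← qf_sum_left, hM1, hN1, qf_one_one, hK,
      Ex_const hμ1] at this
    exact this.symm
  set p := EP μ K M N (fun w a b => if (v + δ) * Fintype.card ι ≤ ((Finset.univ.filter fun i =>
      acc (w i).1 (w i).2 (a i) (b i) = true).card : ℝ) then 1 else 0) with hp
  rcases le_or_gt p 0 with h0 | h0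
  · exact h0.trans (Real.exp_pos _).le
  have hLs : 1 ≤ L * (1 + s) := by nlinarith
  have key := tilt Pr Pr0 Pr1 (fun ω i => acc (ω.1 i).1 (ω.1 i).2 (ω.2.1 i) (ω.2.2 i))
    (v := v + δ / 4) (L := 5 * L) (s := s) (θ := v + δ) (lam := δ / (24 * (L * (1 + s)))) (p := p)
    (by positivity) (by positivity) hs0 (by positivity) (by positivity) h0 (conv _)
    (fun C Zc hZ hZc => by
      have := mainC hRH (by positivity) hμ hμ1 hK hSM hSN C hZ ((conv _).trans hZc)
      simp only [conv] at this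
      exact this)
  set k : ℝ := (Fintype.card ι : ℝ) with hk
  have hk0 : 0 ≤ k := Nat.cast_nonneg _
  have hp1 : p ≤ 1 := by
    rw [hp, conv]
    refine le_trans (Finset.sum_le_sum fun ω _ => ?_) Pr1.le
    exact mul_le_of_le_one_right (Pr0 ω) (by split_ifs <;> norm_num)
  have hl0 : 0 ≤ -Real.log p := neg_nonneg.mpr (Real.log_nonpos h0.le hp1)
  have a1 : δ / (24 * (L * (1 + s))) * k * (1 + 5 * L * (1 + s)) ≤ k * (δ / 4) := by
    have : δ / (24 * (L * (1 + s))) * (1 + 5 * L * (1 + s)) ≤ δ / 4 := by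
      rw [div_mul_eq_mul_div, div_le_div_iff₀ (by positivity) (by norm_num)]; nlinarith
    nlinarith
  have a2 : 1 / (δ / (24 * (L * (1 + s)))) + 5 * L ≤ 29 * (L * (1 + s)) / δ := by
    rw [one_div_div, le_div_iff₀ hδ, add_mul, div_mul_cancel₀ _ hδ.ne']
    have : 0 ≤ L * s := by positivity
    nlinarith
  have a3 := mul_le_mul_of_nonneg_left a2 hl0
  have a4 : k * (δ / 2) ≤ -Real.log p * (29 * (L * (1 + s)) / δ) := by linarith
  rw [← Real.exp_log h0]
  refine Real.exp_le_exp.mpr ?_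
  rw [← mul_div_assoc (-Real.log p), le_div_iff₀ hδ] at a4
  rw [le_neg, div_mul_eq_mul_div, div_le_iff₀ (by positivity)]
  nlinarith

end Crest.Agent.H5.PR
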